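import Mathlib

/-!
P317, basic real-valued definitions shared by the proof files
(mixed forms of symmetric tensors, the signed Lorentzian inequality, moves, Dirichlet form).
-/

namespace Vale.Agent.P317
open Finset

/-- The multiset of values of an assignment. -/
def ms {ι Y : Type} [Fintype ι] (σ : ι → Y) : Multiset Y := ∑ i, ({σ i} : Multiset Y)

/-- Mixed directional derivative of the symmetric tensor `G` in the directions `v i`,
evaluated at the multiset `S`. -/
def mix {ι Y : Type} [Fintype ι] [DecidableEq ι] [Fintype Y] (v : ι → Y → ℝ)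
    (G : Multiset Y → ℝ) (S : Multiset Y) : ℝ :=
  ∑ σ : ι → Y, (∏ i, v i (σ i)) * G (ms σ + S)

/-- Bilinear form of a matrix. -/
def qf {Y : Type} [Fintype Y] (Q : Y → Y → ℝ) (a b : Y → ℝ) : ℝ :=
  ∑ x, ∑ y, Q x y * a x * b y

/-- Dot product. -/
def dot {Y : Type} [Fintype Y] (r c : Y → ℝ) : ℝ := ∑ x, r x * c x

/-- Reverse Cauchy-Schwarz for the form `Q(c,c) + 2 t r(c) - t^2 R` on pairs `(c,t)`, against
reference vectors `(z,0)` with `z` nonnegative. -/
def Lor {Y : Type} [Fintype Y] (Q : Y → Y → ℝ) (r : Y → ℝ) (R : ℝ) : Prop :=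
  ∀ (c z : Y → ℝ) (t : ℝ), (∀ y, 0 ≤ z y) →
    (qf Q c c + 2 * t * dot r c - t ^ 2 * R) * qf Q z z ≤ (qf Q c z + t * dot r z) ^ 2

/-- Positive tensors all of whose quadratic links are Lorentzian. -/
structure PL {Y : Type} [Fintype Y] (g : Multiset Y → ℝ) : Prop where
  pos : ∀ S, 0 < g S
  lor : ∀ T, Lor (fun a b => g (a ::ₘ b ::ₘ T)) (fun _ => 0) 0

/-- Rank-like functions on multisets. -/
structure RankFn {Y : Type} (ρ : Multiset Y → ℕ) : Prop where
  zero : ρ 0 = 0
  mono : ∀ a S, ρ S ≤ ρ (a ::ₘ S)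
  succ : ∀ a S, ρ (a ::ₘ S) ≤ ρ S + 1
  sub : ∀ a b S, ρ (a ::ₘ b ::ₘ S) + ρ S ≤ ρ (a ::ₘ S) + ρ (b ::ₘ S)

/-- The `q`-deformed independence indicator; at `q = 0` it is the indicator of `ρ S = card S`. -/
def gq {Y : Type} (ρ : Multiset Y → ℕ) (q : ℝ) (S : Multiset Y) : ℝ := q ^ (S.card - ρ S)

/-- The move `(i, j, y)`: position `i` receives the old value at `j`, position `j` receives `y`. -/
def mv {ι X : Type} [DecidableEq ι] (i j : ι) (y : X) (σ : ι → X) : ι → X :=
  Function.update (Function.update σ i (σ j)) j y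

/-- Metropolis Dirichlet form of the moves `mv`. -/
def dirF {ι X : Type} [Fintype ι] [DecidableEq ι] [Fintype X] (W f : (ι → X) → ℝ) : ℝ :=
  ∑ σ : ι → X, ∑ i, ∑ j, ∑ y, min (W σ) (W (mv i j y σ)) * (f σ - f (mv i j y σ)) ^ 2

/-- Weight of an assignment. -/
def wt {ι X : Type} [Fintype ι] (g : Multiset X → ℝ) (v : ι → X → ℝ) (σ : ι → X) : ℝ :=
  (∏ i, v i (σ i)) * g (ms σ)

/-- The mixed form (partition function). -/
def VV {ι X : Type} [Fintype ι] [DecidableEq ι] [Fintype X] (g : Multiset X → ℝ)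
    (v : ι → X → ℝ) : ℝ :=
  ∑ σ : ι → X, wt g v σ

/-- The reverse Khovanskii-Teissier inequality for the mixed form of `g` on index type `ι`. -/
def RKT (ι : Type) {X : Type} [Fintype ι] [DecidableEq ι] [Fintype X] (g : Multiset X → ℝ) :
    Prop :=
  ∀ (v : ι → X → ℝ), (∀ i y, 0 ≤ v i y) → ∀ i j : ι, i ≠ j → ∀ a b c : X → ℝ,
    (∀ y, 0 ≤ a y) → (∀ y, 0 ≤ b y) → (∀ y, 0 ≤ c y) →
    VV g (Function.update (Function.update v i a) j c) *
        VV g (Function.update (Function.update v i b) j b) ≤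
      2 * VV g (Function.update (Function.update v i a) j b) *
        VV g (Function.update (Function.update v i b) j c)

/-- Positive linear unital operators (expectation transformers). -/
structure Markov {α β : Type} (T : (β → ℝ) → α → ℝ) : Prop where
  add : ∀ f g : β → ℝ, ∀ a, T (fun b => f b + g b) a = T f a + T g a
  smul : ∀ (c : ℝ) (f : β → ℝ), ∀ a, T (fun b => c * f b) a = c * T f a
  mono : ∀ f g : β → ℝ, (∀ b, f b ≤ g b) → ∀ a, T f a ≤ T g a
  one : ∀ a, T (fun _ => 1) a = 1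

/-- One step of the Metropolis chain with proposal probability `θ` for each move and acceptance
probabilities `acc`, as an operator on functions. -/
def stepG {ι X : Type} [Fintype ι] [DecidableEq ι] [Fintype X] (θ : ℝ)
    (acc : (ι → X) → (ι → X) → ℝ) (f : (ι → X) → ℝ) (σ : ι → X) : ℝ :=
  f σ + θ * ∑ i, ∑ j, ∑ y, acc σ (mv i j y σ) * (f (mv i j y σ) - f σ)

end Vale.Agent.P317
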