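import Vale.Agent.P317.Machine

/-! P317: link between the PMF semantics and `ex`; running-time bounds. -/

namespace Vale.Agent.P317
open Finset ENNReal

variable {n : ℕ}

noncomputable def EE {α : Type} (μ : PMF α) (f : α → ℝ≥0∞) : ℝ≥0∞ := ∑' a, μ a * f a

theorem EE_pure {α : Type} (a : α) (f : α → ℝ≥0∞) : EE (PMF.pure a) f = f a := by
  classical
  unfold EE
  rw [tsum_eq_single a]
  · simp
  · intro b hb; simp [PMF.pure_apply, hb]

theorem EE_bind {α β : Type} (μ : PMF α) (k : α → PMF β) (f : β → ℝ≥0∞) :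
    EE (μ.bind k) f = EE μ (fun a => EE (k a) f) := by
  unfold EE
  simp only [PMF.bind_apply]
  simp_rw [← ENNReal.tsum_mul_right, ← ENNReal.tsum_mul_left]
  rw [ENNReal.tsum_comm]
  simp_rw [mul_assoc]

theorem EE_map {α β : Type} (μ : PMF α) (g : α → β) (f : β → ℝ≥0∞) :
    EE (μ.map g) f = EE μ (fun a => f (g a)) := by
  rw [PMF.map, EE_bind]
  congr 1; funext a
  exact EE_pure _ _

theorem EE_bool (f : Bool → ℝ≥0∞) :
    EE (PMF.uniformOfFintype Bool) f = (f false + f true) / 2 := by
  unfold EE
  rw [tsum_fintype]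
  simp [PMF.uniformOfFintype_apply, div_eq_mul_inv, mul_comm, add_comm]
  rw [add_mul]

theorem exLoop_nonneg (c : Expr) (B : (Mem → ℝ) → Mem → ℝ)
    (hB : ∀ φ, (∀ m, 0 ≤ φ m) → ∀ m, 0 ≤ B φ m) (φ : Mem → ℝ) (hφ : ∀ m, 0 ≤ φ m) (k : ℕ) :
    ∀ m, 0 ≤ exLoop c B φ k m := by
  induction k with
  | zero => exact hφ
  | succ k ih =>
    intro m
    simp only [exLoop]
    split_ifs
    · exact hφ m
    · exact hB _ ih m

theorem ex_nonneg (O : Bool → Set (Fin n) → Prop) (p : Prog) :
    ∀ φ : Mem → ℝ, (∀ m, 0 ≤ φ m) → ∀ m, 0 ≤ ex O p φ m := by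
  induction p with
  | set a i e => intro φ h m; exact h _
  | coin a i => intro φ h m; exact div_nonneg (add_nonneg (h _) (h _)) (by norm_num)
  | ask w b a i => intro φ h m; exact h _
  | seq p q ihp ihq => intro φ h m; exact ihp _ (ihq φ h) m
  | ite c p q ihp ihq =>
    intro φ h m
    simp only [ex]
    split_ifs
    · exact ihq φ h m
    · exact ihp φ h m
  | loop k c p ih => intro φ h m; exact exLoop_nonneg c _ ih φ h _ m

theorem run_ex (O : Bool → Set (Fin n) → Prop) (p : Prog) :
    ∀ φ : Mem → ℝ, (∀ m, 0 ≤ φ m) → ∀ s : Mem × ℕ,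
      EE (p.run O s) (fun s' => ENNReal.ofReal (φ s'.1)) = ENNReal.ofReal (ex O p φ s.1) := by
  induction p with
  | set a i e => intro φ h s; simp only [Prog.run, EE_pure, ex]
  | coin a i =>
    intro φ h s
    simp only [Prog.run, EE_map, EE_bool, ex]
    rw [ENNReal.ofReal_div_of_pos (by norm_num), ENNReal.ofReal_add (h _) (h _)]
    simp
  | ask w b a i => intro φ h s; simp only [Prog.run, EE_pure, ex]
  | seq p q ihp ihq =>
    intro φ h s
    simp only [Prog.run, EE_bind, ex]
    rw [← ihp _ (ex_nonneg O q φ h)]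
    congr 1; funext s'
    exact ihq φ h s'
  | ite c p q ihp ihq =>
    intro φ h s
    simp only [Prog.run, ex]
    split_ifs
    · exact ihq φ h (s.1, s.2 + 1)
    · exact ihp φ h (s.1, s.2 + 1)
  | loop k c p ih =>
    intro φ h s
    simp only [Prog.run, ex]
    have key : ∀ j (s : Mem × ℕ), EE (whileLe c (p.run O) j s) (fun s' => ENNReal.ofReal (φ s'.1)) =
        ENNReal.ofReal (exLoop c (ex O p) φ j s.1) := by
      intro j
      induction j with
      | zero => intro s; simp only [whileLe, EE_pure, exLoop]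
      | succ j ihj =>
        intro s
        simp only [whileLe, exLoop]
        split_ifs
        · rw [EE_pure]
        · rw [EE_bind]
          have := ih _ (exLoop_nonneg c _ (ex_nonneg O p) φ h j) (s.1, s.2 + 1)
          rw [← this]
          congr 1; funext s'
          exact ihj s'
    exact key _ (s.1, s.2 + 1)

open Classical in
theorem run_prob (O : Bool → Set (Fin n) → Prop) (p : Prog) (G : Mem → Prop) (s : Mem × ℕ) :
    ((p.run O s).toOuterMeasure {s' | G s'.1}).toReal =
      ex O p (fun m => if G m then 1 else 0) s.1 := by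
  have h0 : ∀ m : Mem, (0 : ℝ) ≤ if G m then 1 else 0 := fun m => by split_ifs <;> norm_num
  have := run_ex O p _ h0 s
  rw [← ENNReal.toReal_ofReal (ex_nonneg O p _ h0 s.1), ← this, PMF.toOuterMeasure_apply]
  congr 1
  unfold EE
  congr 1; funext a
  by_cases ha : G a.1 <;> simp [Set.indicator, ha]

/-- All outcomes satisfy `Q` and take at most `B` time units. -/
def TB (O : Bool → Set (Fin n) → Prop) (p : Prog) (m : Mem) (B : ℕ) (Q : Mem → Prop) : Prop :=
  ∀ t, ∀ s ∈ (p.run O (m, t)).support, s.2 ≤ t + B ∧ Q s.1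

theorem TB.mono {O : Bool → Set (Fin n) → Prop} {p : Prog} {m : Mem} {B B' : ℕ}
    {Q Q' : Mem → Prop} (h : TB O p m B Q) (hB : B ≤ B') (hQ : ∀ m, Q m → Q' m) :
    TB O p m B' Q' := fun t s hs => ⟨(h t s hs).1.trans (by omega), hQ _ (h t s hs).2⟩

theorem TB.seq {O : Bool → Set (Fin n) → Prop} {p q : Prog} {m : Mem} {B B' : ℕ}
    {Q Q' : Mem → Prop} (h : TB O p m B Q) (h' : ∀ m', Q m' → TB O q m' B' Q') :
    TB O (.seq p q) m (B + B') Q' := by
  intro t s hs
  simp only [Prog.run, PMF.mem_support_bind_iff] at hs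
  obtain ⟨s', h1, h2⟩ := hs
  have a := h t s' h1
  have b := h' s'.1 a.2 s'.2 s h2
  exact ⟨by omega, b.2⟩

theorem TB.set (O : Bool → Set (Fin n) → Prop) (a : ℕ) (i e : Expr) (m : Mem) :
    TB O (.set a i e) m 1 (fun m' => m' = m.put a (i.val m) (e.val m)) := by
  intro t s hs
  simp only [Prog.run, PMF.support_pure, Set.mem_singleton_iff] at hs
  subst hs
  exact ⟨le_rfl, rfl⟩

theorem TB.loop {O : Bool → Set (Fin n) → Prop} {p : Prog} (k c : Expr) (I : ℕ → Mem → Prop)
    (N B : ℕ) (h : ∀ i m, I i m → c.val m ≠ 0 → i < N ∧ TB O p m B (I (i + 1)))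
    (m : Mem) (h0 : I 0 m) :
    TB O (.loop k c p) m (1 + (N + 1) * (B + 1))
      (fun m' => ∃ i, I i m' ∧ (i = k.val m ∨ c.val m' = 0)) := by
  have key : ∀ j i K, i + j = K → i ≤ N → ∀ m t, I i m →
      ∀ s ∈ (whileLe c (p.run O) j (m, t)).support,
      s.2 ≤ t + (N + 1 - i) * (B + 1) ∧ ∃ i, I i s.1 ∧ (i = K ∨ c.val s.1 = 0) := by
    intro j
    induction j with
    | zero =>
      intro i K hK hi m t hm s hs
      simp only [whileLe, PMF.support_pure, Set.mem_singleton_iff] at hs
      subst hs
      exact ⟨by simp, i, hm, Or.inl (by omega)⟩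
    | succ j ih =>
      intro i K hK hi m t hm s hs
      simp only [whileLe] at hs
      split_ifs at hs with hc
      · simp only [PMF.support_pure, Set.mem_singleton_iff] at hs
        subst hs
        refine ⟨?_, i, hm, Or.inr hc⟩
        have : 1 ≤ (N + 1 - i) * (B + 1) := Nat.mul_pos (by omega) (by omega)
        simp only; omega
      · simp only [PMF.mem_support_bind_iff] at hs
        obtain ⟨s', h1, h2⟩ := hs
        obtain ⟨hi', hb⟩ := h i m hm hc
        have a := hb (t + 1) s' h1
        have b := ih (i + 1) K (by omega) hi' s'.1 s'.2 a.2 s h2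
        refine ⟨?_, b.2⟩
        have e : N + 1 - i = (N + 1 - (i + 1)) + 1 := by omega
        rw [e, add_mul]
        omega
  intro t s hs
  simp only [Prog.run] at hs
  have := key _ 0 _ (Nat.zero_add _) (by omega) m (t + 1) h0 s hs
  exact ⟨by simp only [Nat.sub_zero] at this; omega, this.2⟩

theorem TB.loop_bound {O : Bool → Set (Fin n) → Prop} {p : Prog} (k c : Expr) (I : Mem → Prop)
    (B : ℕ) (h : ∀ m, I m → TB O p m B I) (m : Mem) (h0 : I m) :
    TB O (.loop k c p) m (1 + k.val m * (B + 1)) I := by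
  have key : ∀ j m t, I m → ∀ s ∈ (whileLe c (p.run O) j (m, t)).support,
      s.2 ≤ t + j * (B + 1) ∧ I s.1 := by
    intro j
    induction j with
    | zero =>
      intro m t hm s hs
      simp only [whileLe, PMF.support_pure, Set.mem_singleton_iff] at hs
      subst hs
      exact ⟨by simp, hm⟩
    | succ j ih =>
      intro m t hm s hs
      simp only [whileLe] at hs
      split_ifs at hs with hc
      · simp only [PMF.support_pure, Set.mem_singleton_iff] at hs
        subst hs
        refine ⟨?_, hm⟩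
        rw [add_mul]
        simp only; omega
      · simp only [PMF.mem_support_bind_iff] at hs
        obtain ⟨s', h1, h2⟩ := hs
        have a := h m hm (t + 1) s' h1
        have b := ih s'.1 s'.2 a.2 s h2
        refine ⟨?_, b.2⟩
        rw [add_mul]
        omega
  intro t s hs
  simp only [Prog.run] at hs
  have := key _ m (t + 1) h0 s hs
  exact ⟨by omega, this.2⟩

theorem run_det (O : Bool → Set (Fin n) → Prop) (p : Prog) (hp : p.det = true) :
    ∀ s : Mem × ℕ, ∀ s' ∈ (p.run O s).support, s'.1 = exec O p s.1 := by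
  induction p with
  | set a i e =>
    intro s s' hs
    simp only [Prog.run, PMF.support_pure, Set.mem_singleton_iff] at hs
    subst hs; rfl
  | coin a i => simp [Prog.det] at hp
  | ask w b a i =>
    intro s s' hs
    simp only [Prog.run, PMF.support_pure, Set.mem_singleton_iff] at hs
    subst hs; rfl
  | seq p q ihp ihq =>
    simp only [Prog.det, Bool.and_eq_true] at hp
    intro s s' hs
    simp only [Prog.run, PMF.mem_support_bind_iff] at hs
    obtain ⟨s1, h1, h2⟩ := hs
    simp only [exec]
    rw [← ihp hp.1 s s1 h1]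
    exact ihq hp.2 s1 s' h2
  | ite c p q ihp ihq =>
    simp only [Prog.det, Bool.and_eq_true] at hp
    intro s s' hs
    simp only [Prog.run] at hs
    simp only [exec]
    split_ifs at hs ⊢
    · exact ihq hp.2 (s.1, s.2 + 1) s' hs
    · exact ihp hp.1 (s.1, s.2 + 1) s' hs
  | loop k c p ih =>
    have key : ∀ j (s : Mem × ℕ), ∀ s' ∈ (whileLe c (p.run O) j s).support,
        s'.1 = execLoop c (exec O p) j s.1 := by
      intro j
      induction j with
      | zero =>
        intro s s' hs
        simp only [whileLe, PMF.support_pure, Set.mem_singleton_iff] at hs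
        subst hs; rfl
      | succ j ihj =>
        intro s s' hs
        simp only [whileLe] at hs
        simp only [execLoop]
        split_ifs at hs ⊢
        · simp only [PMF.support_pure, Set.mem_singleton_iff] at hs
          subst hs; rfl
        · simp only [PMF.mem_support_bind_iff] at hs
          obtain ⟨s1, h1, h2⟩ := hs
          have := ih hp _ s1 h1
          simp only at this
          rw [← this]
          exact ihj s1 s' h2
    intro s s' hs
    exact key _ (s.1, s.2 + 1) s' hs

theorem TB.det {O : Bool → Set (Fin n) → Prop} {p : Prog} {m : Mem} {B : ℕ} {Q : Mem → Prop}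
    (hp : p.det = true) (h : TB O p m B Q) : TB O p m B (fun m' => m' = exec O p m) :=
  fun t s hs => ⟨(h t s hs).1, run_det O p hp (m, t) s hs⟩

theorem TB.exec {O : Bool → Set (Fin n) → Prop} {p : Prog} {m : Mem} {B : ℕ} {Q : Mem → Prop}
    (hp : p.det = true) (h : TB O p m B Q) : Q (exec O p m) := by
  obtain ⟨s, hs⟩ := (p.run O (m, 0)).support_nonempty
  have := run_det O p hp (m, 0) s hs
  simp only at this
  rw [← this]
  exact (h 0 s hs).2

/-- The loop bound is cell 0 of an array in `R`. -/
def Expr.isReg (R : List ℕ) : Expr → Bool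
  | .get a (.lit 0) => decide (a ∈ R)
  | _ => false

def Prog.static (R : List ℕ) : Prog → Bool
  | .set a _ _ => decide (a ∉ R)
  | .coin a _ => decide (a ∉ R)
  | .ask _ _ a _ => decide (a ∉ R)
  | .seq p q => p.static R && q.static R
  | .ite _ p q => p.static R && q.static R
  | .loop k _ p => k.isReg R && p.static R

def Prog.deg : Prog → ℕ
  | .set _ _ _ => 1
  | .coin _ _ => 1
  | .ask _ _ _ _ => 1
  | .seq p q => max p.deg q.deg + 1
  | .ite _ p q => max p.deg q.deg + 1
  | .loop _ _ p => p.deg + 2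

theorem isReg_le {R : List ℕ} {k : Expr} (h : k.isReg R = true) {m : Mem} {B : ℕ}
    (hB : ∀ a ∈ R, m a 0 ≤ B) : k.val m ≤ B := by
  unfold Expr.isReg at h
  split at h
  · simp only [Expr.val]; exact hB _ (by simpa using h)
  · simp at h

theorem TB_static (O : Bool → Set (Fin n) → Prop) (R : List ℕ) (B : ℕ) (p : Prog)
    (hs : p.static R = true) :
    ∀ m : Mem, (∀ a ∈ R, m a 0 ≤ B) →
      TB O p m ((B + n + 2) ^ p.deg) (fun m' => ∀ a ∈ R, m' a 0 ≤ B) := by
  have hx : 2 ≤ B + n + 2 := by omega
  have put : ∀ (m : Mem) a i x, a ∉ R → (∀ a ∈ R, m a 0 ≤ B) →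
      ∀ b ∈ R, m.put a i x b 0 ≤ B := by
    intro m a i x ha h b hb
    have hne : b ≠ a := fun e => ha (e ▸ hb)
    rw [Mem.put_ne _ _ _ hne]; exact h b hb
  have two : ∀ a b : ℕ, (B + n + 2) ^ a + (B + n + 2) ^ b ≤ (B + n + 2) ^ (max a b + 1) := by
    intro a b
    have h1 : (B + n + 2) ^ a ≤ (B + n + 2) ^ max a b :=
      Nat.pow_le_pow_right (by omega) (le_max_left _ _)
    have h2 : (B + n + 2) ^ b ≤ (B + n + 2) ^ max a b :=
      Nat.pow_le_pow_right (by omega) (le_max_right _ _)
    have h3 := Nat.mul_le_mul_left ((B + n + 2) ^ max a b) hx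
    rw [pow_succ]; omega
  induction p with
  | set a i e =>
    intro m hm
    simp only [Prog.static, decide_eq_true_eq] at hs
    exact (TB.set O a i e m).mono (by simp [Prog.deg]) (fun m' h => h ▸ put m a _ _ hs hm)
  | coin a i =>
    intro m hm t s h
    simp only [Prog.static, decide_eq_true_eq] at hs
    simp only [Prog.run, PMF.mem_support_map_iff] at h
    obtain ⟨x, -, rfl⟩ := h
    exact ⟨by simp [Prog.deg], put m a _ _ hs hm⟩
  | ask w b a i =>
    intro m hm t s h
    simp only [Prog.static, decide_eq_true_eq] at hs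
    simp only [Prog.run, PMF.support_pure, Set.mem_singleton_iff] at h
    subst h
    exact ⟨by simp [Prog.deg]; omega, put m a _ _ hs hm⟩
  | seq p q ihp ihq =>
    intro m hm
    simp only [Prog.static, Bool.and_eq_true] at hs
    exact ((ihp hs.1 m hm).seq (ihq hs.2)).mono (two _ _) (fun _ h => h)
  | ite c p q ihp ihq =>
    intro m hm t s h
    simp only [Prog.static, Bool.and_eq_true] at hs
    simp only [Prog.run] at h
    have := two p.deg q.deg
    have h1 : 1 ≤ (B + n + 2) ^ p.deg := Nat.one_le_pow _ _ (by omega)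
    have h2 : 1 ≤ (B + n + 2) ^ q.deg := Nat.one_le_pow _ _ (by omega)
    simp only [Prog.deg]
    split_ifs at h
    · have := ihq hs.2 m hm (t + 1) s h
      exact ⟨by omega, this.2⟩
    · have := ihp hs.1 m hm (t + 1) s h
      exact ⟨by omega, this.2⟩
  | loop k c p ih =>
    intro m hm
    simp only [Prog.static, Bool.and_eq_true] at hs
    refine (TB.loop_bound k c _ _ (ih hs.2) m hm).mono ?_ (fun _ h => h)
    have h1 : 1 ≤ (B + n + 2) ^ p.deg := Nat.one_le_pow _ _ (by omega)
    have h2 := isReg_le hs.1 hm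
    simp only [Prog.deg]
    have h3 : k.val m * ((B + n + 2) ^ p.deg + 1) ≤ B * (2 * (B + n + 2) ^ p.deg) :=
      Nat.mul_le_mul h2 (by omega)
    have h4 : (B + n + 2) ^ (p.deg + 2) = (B + n + 2) * (B + n + 2) * (B + n + 2) ^ p.deg := by
      ring
    rw [h4]
    have h5 : 2 * B + 1 ≤ (B + n + 2) * (B + n + 2) := by nlinarith
    have h6 := Nat.mul_le_mul_right ((B + n + 2) ^ p.deg) h5
    nlinarith

end Vale.Agent.P317
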