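import Vale.Agent.P317.DefsB
import Vale.Agent.P317.Bridge

/-! P317: the bit-cost semantics has the same law on memories and polynomially related time. -/

namespace Vale.Agent.P317
open Finset ENNReal

variable {n : ℕ}

theorem runBit_ex (O : Bool → Set (Fin n) → Prop) (p : Prog) :
    ∀ φ : Mem → ℝ, (∀ m, 0 ≤ φ m) → ∀ s : Mem × ℕ,
      EE (p.runBit O s) (fun s' => ENNReal.ofReal (φ s'.1)) = ENNReal.ofReal (ex O p φ s.1) := by
  induction p with
  | set a i e => intro φ h s; simp only [Prog.runBit, EE_pure, ex]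
  | coin a i =>
    intro φ h s
    simp only [Prog.runBit, EE_map, EE_bool, ex]
    rw [ENNReal.ofReal_div_of_pos (by norm_num), ENNReal.ofReal_add (h _) (h _)]
    simp
  | ask w b a i => intro φ h s; simp only [Prog.runBit, EE_pure, ex]
  | seq p q ihp ihq =>
    intro φ h s
    simp only [Prog.runBit, EE_bind, ex]
    rw [← ihp _ (ex_nonneg O q φ h)]
    congr 1; funext s'
    exact ihq φ h s'
  | ite c p q ihp ihq =>
    intro φ h s
    simp only [Prog.runBit, ex]
    split_ifs
    · exact ihq φ h (s.1, _)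
    · exact ihp φ h (s.1, _)
  | loop k c p ih =>
    intro φ h s
    simp only [Prog.runBit, ex]
    have key : ∀ j (s : Mem × ℕ),
        EE (whileBit c (p.runBit O) j s) (fun s' => ENNReal.ofReal (φ s'.1)) =
        ENNReal.ofReal (exLoop c (ex O p) φ j s.1) := by
      intro j
      induction j with
      | zero => intro s; simp only [whileBit, EE_pure, exLoop]
      | succ j ihj =>
        intro s
        simp only [whileBit, exLoop]
        split_ifs
        · rw [EE_pure]
        · rw [EE_bind]
          have := ih _ (exLoop_nonneg c _ (ex_nonneg O p) φ h j)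
            (s.1, s.2 + c.cost s.1 + Nat.size (j + 1))
          rw [← this]
          congr 1; funext s'
          exact ihj s'
    exact key _ (s.1, _)

open Classical in
theorem runBit_prob (O : Bool → Set (Fin n) → Prop) (p : Prog) (G : Mem → Prop) (s : Mem × ℕ) :
    ((p.runBit O s).toOuterMeasure {s' | G s'.1}).toReal =
      ex O p (fun m => if G m then 1 else 0) s.1 := by
  have h0 : ∀ m : Mem, (0 : ℝ) ≤ if G m then 1 else 0 := fun m => by split_ifs <;> norm_num
  have := runBit_ex O p _ h0 s
  rw [← ENNReal.toReal_ofReal (ex_nonneg O p _ h0 s.1), ← this, PMF.toOuterMeasure_apply]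
  congr 1
  unfold EE
  congr 1; funext a
  by_cases ha : G a.1 <;> simp [Set.indicator, ha]

def Expr.sz : Expr → ℕ
  | .lit c => Nat.size c + 1
  | .get _ i => i.sz + 1
  | .add x y => x.sz + y.sz + 1
  | .sub x y => x.sz + y.sz + 1

def Prog.sz : Prog → ℕ
  | .set _ i e => i.sz + e.sz
  | .coin _ i => i.sz
  | .ask _ _ _ i => i.sz
  | .seq p q => p.sz + q.sz
  | .ite c p q => c.sz + p.sz + q.sz
  | .loop k c p => k.sz + c.sz + p.sz

def Bits (B : ℕ) (m : Mem) : Prop := ∀ a i, m a i < 2 ^ B

theorem Bits.mono {B B' : ℕ} {m : Mem} (h : Bits B m) (hB : B ≤ B') : Bits B' m :=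
  fun a i => (h a i).trans_le (Nat.pow_le_pow_right (by norm_num) hB)

theorem Expr.sz_pos (e : Expr) : 1 ≤ e.sz := by cases e <;> simp [Expr.sz]

theorem Expr.val_lt {B : ℕ} {m : Mem} (h : Bits B m) (e : Expr) : e.val m < 2 ^ (B + e.sz) := by
  have mono : ∀ a b : ℕ, a ≤ b → 2 ^ a ≤ 2 ^ b := fun a b h => Nat.pow_le_pow_right (by norm_num) h
  induction e with
  | lit c => exact (Nat.lt_size_self c).trans_le (mono _ _ (by simp only [Expr.sz]; omega))
  | get a i _ => exact (h _ _).trans_le (mono _ _ (by omega))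
  | add x y ihx ihy =>
    simp only [Expr.val, Expr.sz]
    have a := mono (B + x.sz) (B + (x.sz + y.sz)) (by omega)
    have b := mono (B + y.sz) (B + (x.sz + y.sz)) (by omega)
    rw [← add_assoc, pow_succ]; omega
  | sub x y ihx ihy =>
    simp only [Expr.val, Expr.sz]
    have a := mono (B + x.sz) (B + (x.sz + y.sz + 1)) (by omega)
    omega

theorem Expr.cost_le {B : ℕ} {m : Mem} (h : Bits B m) (e : Expr) :
    e.cost m ≤ e.sz * (B + e.sz + 1) := by
  induction e with
  | lit c => simp only [Expr.cost, Expr.sz]; exact Nat.le_mul_of_pos_right _ (by omega)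
  | get a i ih =>
    have := Nat.size_le.2 (Expr.val_lt h (.get a i))
    simp only [Expr.cost, Expr.sz, Expr.val] at *
    nlinarith
  | add x y ihx ihy =>
    have := Nat.size_le.2 (Expr.val_lt h (.add x y))
    simp only [Expr.cost, Expr.sz, Expr.val] at *
    nlinarith [Nat.zero_le (x.sz * y.sz)]
  | sub x y ihx ihy =>
    have := Nat.size_le.2 (Expr.val_lt h (.sub x y))
    simp only [Expr.cost, Expr.sz, Expr.val] at *
    nlinarith [Nat.zero_le (x.sz * y.sz)]

theorem Bits.put {B : ℕ} {m : Mem} (h : Bits B m) (a i x : ℕ) (hx : x < 2 ^ B) :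
    Bits B (m.put a i x) := by
  intro b j
  rw [Mem.put_apply]
  split_ifs
  · exact hx
  · exact h b j

/-- Cost of one unit of time when numbers have at most `B` bits. -/
def gB (n c B : ℕ) : ℕ := 2 * (c + 1) * (B + c + n + 1)

theorem gB_mono (n c : ℕ) {B B' : ℕ} (h : B ≤ B') : gB n c B ≤ gB n c B' :=
  Nat.mul_le_mul_left _ (by omega)

theorem cost_le_gB {B c : ℕ} {m : Mem} (h : Bits B m) (n : ℕ) (e : Expr) (he : e.sz ≤ c) :
    2 * e.cost m + 2 * (B + c + n + 1) ≤ gB n c B := by
  have := Expr.cost_le h e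
  have h2 : e.sz * (B + e.sz + 1) ≤ c * (B + c + n + 1) := Nat.mul_le_mul he (by omega)
  unfold gB
  nlinarith

/-- An outcome of the bit-cost run corresponds to an outcome of the unit-cost run. -/
def Rel (c : ℕ) (R : Mem × ℕ → PMF (Mem × ℕ)) (n B : ℕ) (s s' : Mem × ℕ) : Prop :=
  ∃ u, (∀ t, (s'.1, t + u) ∈ (R (s.1, t)).support) ∧ Bits (B + c * u) s'.1 ∧
    s'.2 ≤ s.2 + u * gB n c (B + c * u)

theorem Rel.bind {c n B : ℕ} {R R' : Mem × ℕ → PMF (Mem × ℕ)} {s s' s'' : Mem × ℕ}
    (h : Rel c R n B s s') (h' : ∀ B', B ≤ B' → Bits B' s'.1 → Rel c R' n B' s' s'') :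
    Rel c (fun x => (R x).bind R') n B s s'' := by
  obtain ⟨u, h1, h2, h3⟩ := h
  obtain ⟨u', k1, k2, k3⟩ := h' _ (Nat.le_add_right _ _) h2
  have e : B + c * (u + u') = B + c * u + c * u' := by ring
  refine ⟨u + u', fun t => ?_, e ▸ k2, ?_⟩
  · rw [PMF.mem_support_bind_iff]
    exact ⟨_, h1 t, by rw [← add_assoc]; exact k1 (t + u)⟩
  · rw [e, add_mul]
    have := Nat.mul_le_mul_left u (gB_mono n c (Nat.le_add_right (B + c * u) (c * u')))
    omega

theorem Rel.tick {c n B : ℕ} {R : Mem × ℕ → PMF (Mem × ℕ)} {s s' : Mem × ℕ} {d : ℕ}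
    (h : Rel c R n B (s.1, s.2 + d) s') (hd : d ≤ gB n c B) :
    Rel c (fun x => R (x.1, x.2 + 1)) n B s s' := by
  obtain ⟨u, h1, h2, h3⟩ := h
  refine ⟨u + 1, fun t => ?_, h2.mono (by nlinarith), ?_⟩
  · have := h1 (t + 1)
    rwa [show t + 1 + u = t + (u + 1) by ring] at this
  · have a := gB_mono n c (show B + c * u ≤ B + c * (u + 1) by nlinarith)
    have b := gB_mono n c (show B ≤ B + c * (u + 1) by omega)
    have := Nat.mul_le_mul_left u a
    simp only at h3
    rw [add_mul]
    omega

theorem runBit_rel (O : Bool → Set (Fin n) → Prop) (c : ℕ) (hc1 : 1 ≤ c) (p : Prog) :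
    p.sz ≤ c → ∀ (B : ℕ) (s : Mem × ℕ), Bits B s.1 → ∀ s' ∈ (p.runBit O s).support,
      Rel c (p.run O) n B s s' := by
  have two : ∀ B, 1 < 2 ^ (B + c) := fun B => Nat.one_lt_two_pow (by omega)
  induction p with
  | set a i e =>
    intro hc B s hB s' hs
    simp only [Prog.runBit, PMF.support_pure, Set.mem_singleton_iff, Prog.sz] at hs hc
    subst hs
    refine ⟨1, fun t => by simp [Prog.run], ?_, ?_⟩
    · exact (hB.mono (by omega)).put _ _ _
        ((Expr.val_lt hB e).trans_le (Nat.pow_le_pow_right (by norm_num) (by omega)))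
    · have a := cost_le_gB hB n i (show i.sz ≤ c by omega)
      have b := cost_le_gB hB n e (show e.sz ≤ c by omega)
      have := gB_mono n c (show B ≤ B + c * 1 by omega)
      simp only; omega
  | coin a i =>
    intro hc B s hB s' hs
    simp only [Prog.runBit, PMF.mem_support_map_iff, Prog.sz] at hs hc
    obtain ⟨x, hx, rfl⟩ := hs
    refine ⟨1, fun t => ?_, ?_, ?_⟩
    · simp only [Prog.run, PMF.mem_support_map_iff]
      exact ⟨x, hx, rfl⟩
    · refine (hB.mono (by omega)).put _ _ _ ?_
      rw [mul_one]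
      exact (Bool.toNat_le x).trans_lt (two B)
    · have a := cost_le_gB hB n i hc
      have := gB_mono n c (show B ≤ B + c * 1 by omega)
      simp only; omega
  | ask w b a i =>
    intro hc B s hB s' hs
    simp only [Prog.runBit, PMF.support_pure, Set.mem_singleton_iff, Prog.sz] at hs hc
    subst hs
    refine ⟨n + 1, fun t => by simp [Prog.run, add_assoc], ?_, ?_⟩
    · refine (hB.mono (by omega)).put _ _ _ ?_
      have : 1 < 2 ^ (B + c * (n + 1)) := Nat.one_lt_two_pow (by
        have : 0 < c * (n + 1) := Nat.mul_pos hc1 (by omega)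
        omega)
      split_ifs <;> omega
    · have a := cost_le_gB hB n i hc
      have g := gB_mono n c (show B ≤ B + c * (n + 1) by omega)
      have h2 : ∀ x ∈ (univ : Finset (Fin n)),
          Nat.size x.val + Nat.size (s.1 b x.val) + 1 ≤ gB n c (B + c * (n + 1)) := by
        intro x _
        have k1 := Nat.size_le.2 (hB b x.val)
        have k2 : Nat.size x.val ≤ x.val := Nat.size_le.2 Nat.lt_two_pow_self
        have := x.2
        omega
      have h3 := sum_le_card_nsmul _ _ _ h2
      simp only [card_univ, Fintype.card_fin, smul_eq_mul] at h3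
      simp only
      rw [add_mul]
      omega
  | seq p q ihp ihq =>
    intro hc B s hB s' hs
    simp only [Prog.runBit, PMF.mem_support_bind_iff, Prog.sz] at hs hc
    obtain ⟨s1, h1, h2⟩ := hs
    exact (ihp (by omega) B s hB s1 h1).bind (fun B' _ hB' => ihq (by omega) B' s1 hB' s' h2)
  | ite e p q ihp ihq =>
    intro hc B s hB s' hs
    simp only [Prog.runBit, Prog.sz] at hs hc
    have a := cost_le_gB hB n e (show e.sz ≤ c by omega)
    split_ifs at hs with h
    · obtain ⟨u, k1, k2, k3⟩ := Rel.tick (s := s) (d := e.cost s.1)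
        (ihq (by omega) B (s.1, s.2 + e.cost s.1) hB s' hs) (by omega)
      exact ⟨u, fun t => by simpa only [Prog.run, if_pos h] using k1 t, k2, k3⟩
    · obtain ⟨u, k1, k2, k3⟩ := Rel.tick (s := s) (d := e.cost s.1)
        (ihp (by omega) B (s.1, s.2 + e.cost s.1) hB s' hs) (by omega)
      exact ⟨u, fun t => by simpa only [Prog.run, if_neg h] using k1 t, k2, k3⟩
  | loop k e p ih =>
    intro hc B s hB s' hs
    simp only [Prog.runBit, Prog.sz] at hs hc
    have key : ∀ j B', Nat.size j ≤ B' + c → ∀ s : Mem × ℕ, Bits B' s.1 →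
        ∀ s' ∈ (whileBit e (p.runBit O) j s).support, Rel c (whileLe e (p.run O) j) n B' s s' := by
      intro j
      induction j with
      | zero =>
        intro B' _ s hB s' hs
        simp only [whileBit, PMF.support_pure, Set.mem_singleton_iff] at hs
        subst hs
        exact ⟨0, fun t => by simp [whileLe], by simpa using hB, by simp⟩
      | succ j ihj =>
        intro B' hj s hB s' hs
        have a := cost_le_gB hB n e (show e.sz ≤ c by omega)
        simp only [whileBit] at hs
        split_ifs at hs with h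
        · simp only [PMF.support_pure, Set.mem_singleton_iff] at hs
          subst hs
          refine ⟨1, fun t => by simp [whileLe, h], hB.mono (by omega), ?_⟩
          have := gB_mono n c (show B' ≤ B' + c * 1 by omega)
          simp only; omega
        · simp only [PMF.mem_support_bind_iff] at hs
          obtain ⟨s1, h1, h2⟩ := hs
          rw [add_assoc] at h1
          have r1 := (ih (by omega) B' (s.1, s.2 + (e.cost s.1 + Nat.size (j + 1))) hB s1 h1).bind
            (fun B'' hB'' hb => ihj B''
              ((Nat.size_le_size (Nat.le_succ j)).trans (hj.trans (by omega))) s1 hb s' h2)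
          obtain ⟨u, k1, k2, k3⟩ := Rel.tick (s := s) (d := e.cost s.1 + Nat.size (j + 1)) r1
            (by omega)
          exact ⟨u, fun t => by simpa only [whileLe, if_neg h] using k1 t, k2, k3⟩
    have a := cost_le_gB hB n k (show k.sz ≤ c by omega)
    have hk : Nat.size (k.val s.1) ≤ B + c :=
      (Nat.size_le.2 (Expr.val_lt hB k)).trans (by omega)
    obtain ⟨u, k1, k2, k3⟩ := Rel.tick (s := s) (d := k.cost s.1)
      (key _ B hk (s.1, s.2 + k.cost s.1) hB s' hs) (by omega)
    exact ⟨u, fun t => by simpa only [Prog.run] using k1 t, k2, k3⟩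

end Vale.Agent.P317
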