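import Vale.Agent.P317.Basic

/-! P317 task D: Markov operators, mixing from Poincare, Chernoff bound for counters. -/

namespace Vale.Agent.P317
open Finset

theorem Markov.iterate {α : Type} {T : (α → ℝ) → α → ℝ} (h : Markov T) (k : ℕ) :
    Markov (fun f => T^[k] f) := by
  induction k with
  | zero => exact ⟨fun _ _ _ => rfl, fun _ _ _ => rfl, fun _ _ h a => h a, fun _ => rfl⟩
  | succ k ih =>
    refine ⟨fun f g a => ?_, fun c f a => ?_, fun f g hfg a => ?_, fun a => ?_⟩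
    · simp only [Function.iterate_succ_apply]
      rw [show T (fun b => f b + g b) = fun b => T f b + T g b from funext (h.add f g)]
      exact ih.add _ _ a
    · simp only [Function.iterate_succ_apply]
      rw [show T (fun b => c * f b) = fun b => c * T f b from funext (h.smul c f)]
      exact ih.smul _ _ a
    · simp only [Function.iterate_succ_apply]
      exact ih.mono _ _ (h.mono f g hfg) a
    · simp only [Function.iterate_succ_apply]
      rw [show T (fun _ => 1) = fun _ => 1 from funext h.one]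
      exact ih.one a

theorem Markov.comp {α β γ : Type} {T : (β → ℝ) → α → ℝ} {U : (γ → ℝ) → β → ℝ}
    (hT : Markov T) (hU : Markov U) : Markov (fun f => T (U f)) := by
  refine ⟨fun f g a => ?_, fun c f a => ?_, fun f g hfg a => ?_, fun a => ?_⟩
  · rw [show U (fun b => f b + g b) = fun b => U f b + U g b from funext (hU.add f g)]
    exact hT.add _ _ a
  · rw [show U (fun b => c * f b) = fun b => c * U f b from funext (hU.smul c f)]
    exact hT.smul _ _ a
  · exact hT.mono _ _ (hU.mono f g hfg) a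
  · rw [show U (fun _ => 1) = fun _ => 1 from funext hU.one]
    exact hT.one a

/-- Parameter-dependent operator started at a fixed point and followed by a map. -/
theorem Markov.bind {α β γ : Type} {T : α → (β → ℝ) → β → ℝ} (hT : ∀ a, Markov (T a))
    (s : α → β) (F : α → β → γ) :
    Markov (fun (ψ : γ → ℝ) (a : α) => T a (fun b => ψ (F a b)) (s a)) := by
  exact ⟨fun f g a => (hT a).add _ _ _, fun c f a => (hT a).smul _ _ _,
    fun f g hfg a => (hT a).mono _ _ (fun b => hfg _) _, fun a => (hT a).one _⟩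

theorem Markov.const {α β : Type} {T : (β → ℝ) → α → ℝ} (h : Markov T) (c : ℝ) (a : α) :
    T (fun _ => c) a = c := by
  have := h.smul c (fun _ => 1) a
  simpa [h.one] using this

theorem Markov.sum {α β κ : Type} {T : (β → ℝ) → α → ℝ} (h : Markov T) (s : Finset κ)
    (f : κ → β → ℝ) (a : α) : T (fun b => ∑ k ∈ s, f k b) a = ∑ k ∈ s, T (f k) a := by
  classical
  induction s using Finset.induction_on with
  | empty => simpa using h.const 0 a
  | insert k s hk ih =>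
    simp only [sum_insert hk]
    rw [h.add, ih]

namespace Ch
variable {ι X : Type} [Fintype ι] [DecidableEq ι] [Fintype X]

omit [DecidableEq ι] in
theorem sum3 (F : ι → ι → X → ℝ) :
    ∑ i, ∑ j, ∑ y, F i j y = ∑ m : ι × ι × X, F m.1 m.2.1 m.2.2 := by
  simp only [Fintype.sum_prod_type]

theorem stepG_eq (θ : ℝ) (acc : (ι → X) → (ι → X) → ℝ) (f : (ι → X) → ℝ) (σ : ι → X) :
    stepG θ acc f σ = f σ + θ * ∑ m : ι × ι × X,
      acc σ (mv m.1 m.2.1 m.2.2 σ) * (f (mv m.1 m.2.1 m.2.2 σ) - f σ) := by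
  rw [stepG, sum3]

theorem acc_sum_le (θ : ℝ) (acc : (ι → X) → (ι → X) → ℝ) (hθ : 0 ≤ θ)
    (hθ1 : θ * ((Fintype.card ι : ℝ) ^ 2 * Fintype.card X) ≤ 1 / 2)
    (h1 : ∀ σ σ', acc σ σ' ≤ 1) (σ : ι → X) :
    θ * ∑ m : ι × ι × X, acc σ (mv m.1 m.2.1 m.2.2 σ) ≤ 1 / 2 := by
  refine le_trans (mul_le_mul_of_nonneg_left ?_ hθ) hθ1
  refine (sum_le_sum fun m _ => h1 σ _).trans (le_of_eq ?_)
  simp only [sum_const, card_univ, Fintype.card_prod, nsmul_eq_mul]
  push_cast; ring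

omit [Fintype ι] [Fintype X] in
theorem mv_mv (i j : ι) (y : X) (σ : ι → X) : mv j i (σ i) (mv i j y σ) = σ := by
  funext k
  by_cases hij : i = j
  · subst hij
    by_cases hk : k = i
    · subst hk; simp [mv]
    · simp [mv, Function.update_of_ne hk]
  · by_cases hk : k = i
    · subst hk; simp [mv]
    · by_cases hk' : k = j
      · subst hk'; simp [mv, Function.update_of_ne hk, Function.update_of_ne hij]
      · simp [mv, Function.update_of_ne hk, Function.update_of_ne hk']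

theorem sum_swap (F : (ι → X) → (ι → X) → ℝ) :
    ∑ σ, ∑ m : ι × ι × X, F σ (mv m.1 m.2.1 m.2.2 σ)
      = ∑ σ, ∑ m : ι × ι × X, F (mv m.1 m.2.1 m.2.2 σ) σ := by
  let φ : (ι → X) × ι × ι × X → (ι → X) × ι × ι × X := fun x =>
    (mv x.2.1 x.2.2.1 x.2.2.2 x.1, x.2.2.1, x.2.1, x.1 x.2.1)
  have hφ : Function.Involutive φ := by
    rintro ⟨σ, i, j, y⟩
    simp only [φ, mv_mv]
    simp [mv]
  rw [← Fintype.sum_prod_type', ← Fintype.sum_prod_type', ← Equiv.sum_comp hφ.toPerm]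
  refine sum_congr rfl fun x _ => ?_
  simp only [Function.Involutive.coe_toPerm, φ, mv_mv]

theorem pair_step (θ : ℝ) (acc : (ι → X) → (ι → X) → ℝ) (W : (ι → X) → ℝ)
    (hacc : ∀ σ σ', W σ * acc σ σ' = min (W σ) (W σ')) (f g : (ι → X) → ℝ) :
    2 * ∑ σ, W σ * (g σ * (stepG θ acc f σ - f σ)) = -θ * ∑ σ, ∑ m : ι × ι × X,
      min (W σ) (W (mv m.1 m.2.1 m.2.2 σ))
        * ((g σ - g (mv m.1 m.2.1 m.2.2 σ)) * (f σ - f (mv m.1 m.2.1 m.2.2 σ))) := by
  have e1 : ∑ σ, W σ * (g σ * (stepG θ acc f σ - f σ)) = θ * ∑ σ, ∑ m : ι × ι × X,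
      min (W σ) (W (mv m.1 m.2.1 m.2.2 σ)) * (g σ * (f (mv m.1 m.2.1 m.2.2 σ) - f σ)) := by
    rw [mul_sum]
    refine sum_congr rfl fun σ _ => ?_
    rw [stepG_eq, add_sub_cancel_left]
    simp only [mul_sum, ← hacc]
    exact sum_congr rfl fun m _ => by ring
  have e2 := sum_swap (fun σ σ' => min (W σ) (W σ') * (g σ * (f σ' - f σ)))
  have e3 : ∑ σ, ∑ m : ι × ι × X, min (W σ) (W (mv m.1 m.2.1 m.2.2 σ))
        * ((g σ - g (mv m.1 m.2.1 m.2.2 σ)) * (f σ - f (mv m.1 m.2.1 m.2.2 σ)))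
      = -(∑ σ, ∑ m : ι × ι × X, min (W σ) (W (mv m.1 m.2.1 m.2.2 σ))
          * (g σ * (f (mv m.1 m.2.1 m.2.2 σ) - f σ))
        + ∑ σ, ∑ m : ι × ι × X, min (W (mv m.1 m.2.1 m.2.2 σ)) (W σ)
          * (g (mv m.1 m.2.1 m.2.2 σ) * (f σ - f (mv m.1 m.2.1 m.2.2 σ)))) := by
    rw [← sum_add_distrib, ← sum_neg_distrib]
    refine sum_congr rfl fun σ _ => ?_
    rw [← sum_add_distrib, ← sum_neg_distrib]
    refine sum_congr rfl fun m _ => ?_
    rw [min_comm (W (mv m.1 m.2.1 m.2.2 σ))]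
    ring
  rw [e1, e3, ← e2]
  ring

theorem mean_step (θ : ℝ) (acc : (ι → X) → (ι → X) → ℝ) (W : (ι → X) → ℝ)
    (hacc : ∀ σ σ', W σ * acc σ σ' = min (W σ) (W σ')) (f : (ι → X) → ℝ) :
    ∑ σ, W σ * stepG θ acc f σ = ∑ σ, W σ * f σ := by
  have := pair_step θ acc W hacc f (fun _ => 1)
  simp only [one_mul, sub_self, zero_mul, mul_zero, sum_const_zero, mul_sub,
    sum_sub_distrib] at this
  linarith

theorem norm_step (θ : ℝ) (acc : (ι → X) → (ι → X) → ℝ) (hθ : 0 ≤ θ)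
    (hθ1 : θ * ((Fintype.card ι : ℝ) ^ 2 * Fintype.card X) ≤ 1 / 2)
    (h0 : ∀ σ σ', 0 ≤ acc σ σ') (h1 : ∀ σ σ', acc σ σ' ≤ 1)
    (W : (ι → X) → ℝ) (hW : ∀ σ, 0 ≤ W σ)
    (hacc : ∀ σ σ', W σ * acc σ σ' = min (W σ) (W σ')) (f : (ι → X) → ℝ) :
    ∑ σ, W σ * stepG θ acc f σ ^ 2 ≤ ∑ σ, W σ * f σ ^ 2 - θ / 2 * dirF W f := by
  have hd : dirF W f = ∑ σ, ∑ m : ι × ι × X, min (W σ) (W (mv m.1 m.2.1 m.2.2 σ))
      * ((f σ - f (mv m.1 m.2.1 m.2.2 σ)) * (f σ - f (mv m.1 m.2.1 m.2.2 σ))) := by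
    simp only [dirF, sum3, sq]
  have e1 := pair_step θ acc W hacc f f
  rw [← hd] at e1
  have e2 : ∑ σ, W σ * (stepG θ acc f σ - f σ) ^ 2 ≤ θ / 2 * dirF W f := by
    rw [hd, mul_sum]
    refine sum_le_sum fun σ _ => ?_
    rw [stepG_eq, add_sub_cancel_left]
    have a1 := sum_sq_le_sum_mul_sum_of_sq_le_mul (univ : Finset (ι × ι × X))
      (r := fun m => acc σ (mv m.1 m.2.1 m.2.2 σ) * (f (mv m.1 m.2.1 m.2.2 σ) - f σ))
      (f := fun m => acc σ (mv m.1 m.2.1 m.2.2 σ))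
      (g := fun m => acc σ (mv m.1 m.2.1 m.2.2 σ) * (f (mv m.1 m.2.1 m.2.2 σ) - f σ) ^ 2)
      (fun m _ => h0 _ _) (fun m _ => mul_nonneg (h0 _ _) (sq_nonneg _)) (fun m _ => le_of_eq (by ring))
    have a2 := acc_sum_le θ acc hθ hθ1 h1 σ
    set A := ∑ m : ι × ι × X, acc σ (mv m.1 m.2.1 m.2.2 σ)
    set B := ∑ m : ι × ι × X,
      acc σ (mv m.1 m.2.1 m.2.2 σ) * (f (mv m.1 m.2.1 m.2.2 σ) - f σ) ^ 2 with hB
    have hB0 : 0 ≤ B := sum_nonneg fun m _ => mul_nonneg (h0 _ _) (sq_nonneg _)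
    have a3 : ∑ m : ι × ι × X, min (W σ) (W (mv m.1 m.2.1 m.2.2 σ))
        * ((f σ - f (mv m.1 m.2.1 m.2.2 σ)) * (f σ - f (mv m.1 m.2.1 m.2.2 σ))) = W σ * B := by
      rw [hB, mul_sum]
      exact sum_congr rfl fun m _ => by rw [← hacc]; ring
    rw [a3, mul_pow]
    have a4 := mul_le_mul_of_nonneg_left a1 (sq_nonneg θ)
    have a5 := mul_le_mul_of_nonneg_right a2 (mul_nonneg hθ hB0)
    have a6 : θ ^ 2 * (∑ m : ι × ι × X, acc σ (mv m.1 m.2.1 m.2.2 σ)
        * (f (mv m.1 m.2.1 m.2.2 σ) - f σ)) ^ 2 ≤ θ / 2 * B := by nlinarith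
    have a7 := mul_le_mul_of_nonneg_left a6 (hW σ)
    linarith
  have e3 : ∑ σ, W σ * stepG θ acc f σ ^ 2 = ∑ σ, W σ * f σ ^ 2
      + 2 * ∑ σ, W σ * (f σ * (stepG θ acc f σ - f σ))
      + ∑ σ, W σ * (stepG θ acc f σ - f σ) ^ 2 := by
    rw [mul_sum, ← sum_add_distrib, ← sum_add_distrib]
    exact sum_congr rfl fun σ _ => by ring
  linarith

end Ch

theorem markov_stepG {ι X : Type} [Fintype ι] [DecidableEq ι] [Fintype X] (θ : ℝ)
    (acc : (ι → X) → (ι → X) → ℝ) (hθ : 0 ≤ θ)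
    (hθ1 : θ * ((Fintype.card ι : ℝ) ^ 2 * Fintype.card X) ≤ 1 / 2)
    (h0 : ∀ σ σ', 0 ≤ acc σ σ') (h1 : ∀ σ σ', acc σ σ' ≤ 1) : Markov (stepG θ acc) := by
  refine ⟨fun f g σ => ?_, fun c f σ => ?_, fun f g hfg σ => ?_, fun σ => ?_⟩
  · simp only [stepG]
    have : ∀ i j y, acc σ (mv i j y σ) * (f (mv i j y σ) + g (mv i j y σ) - (f σ + g σ))
        = acc σ (mv i j y σ) * (f (mv i j y σ) - f σ)
          + acc σ (mv i j y σ) * (g (mv i j y σ) - g σ) := fun i j y => by ring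
    simp only [this, sum_add_distrib]
    ring
  · simp only [stepG]
    have : ∀ i j y, acc σ (mv i j y σ) * (c * f (mv i j y σ) - c * f σ)
        = c * (acc σ (mv i j y σ) * (f (mv i j y σ) - f σ)) := fun i j y => by ring
    simp only [this, ← mul_sum]
    ring
  · rw [Ch.stepG_eq, Ch.stepG_eq]
    have a1 : ∑ m : ι × ι × X, acc σ (mv m.1 m.2.1 m.2.2 σ) * (g σ - f σ) * -1
        ≤ ∑ m : ι × ι × X, (acc σ (mv m.1 m.2.1 m.2.2 σ) * (g (mv m.1 m.2.1 m.2.2 σ) - g σ)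
          - acc σ (mv m.1 m.2.1 m.2.2 σ) * (f (mv m.1 m.2.1 m.2.2 σ) - f σ)) :=
      sum_le_sum fun m _ => by
        nlinarith [h0 σ (mv m.1 m.2.1 m.2.2 σ), hfg (mv m.1 m.2.1 m.2.2 σ)]
    rw [sum_sub_distrib, ← sum_mul, ← sum_mul] at a1
    have a2 := Ch.acc_sum_le θ acc hθ hθ1 h1 σ
    have a3 := mul_le_mul_of_nonneg_left a1 hθ
    have a4 := mul_le_mul_of_nonneg_right a2 (sub_nonneg.2 (hfg σ))
    nlinarith [hfg σ]
  · simp [stepG]

/-- Mixing from the Poincare inequality. -/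
theorem mixing {ι X : Type} [Fintype ι] [DecidableEq ι] [Fintype X] (θ : ℝ)
    (acc : (ι → X) → (ι → X) → ℝ) (hθ : 0 ≤ θ) (hθ2 : θ ≤ 1)
    (hθ1 : θ * ((Fintype.card ι : ℝ) ^ 2 * Fintype.card X) ≤ 1 / 2)
    (h0 : ∀ σ σ', 0 ≤ acc σ σ') (h1 : ∀ σ σ', acc σ σ' ≤ 1)
    (W : (ι → X) → ℝ) (hW : ∀ σ, 0 ≤ W σ) (hacc : ∀ σ σ', W σ * acc σ σ' = min (W σ) (W σ'))
    (K : ℝ) (hK : 1 ≤ K)
    (hP : ∀ f : (ι → X) → ℝ, (∑ σ, W σ) * (∑ σ, W σ * f σ ^ 2) - (∑ σ, W σ * f σ) ^ 2 ≤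
      K * (∑ σ, W σ) * dirF W f)
    (σ0 : ι → X) (hσ0 : 0 < W σ0) (f : (ι → X) → ℝ) (hf0 : ∀ σ, 0 ≤ f σ) (hf1 : ∀ σ, f σ ≤ 1)
    (T : ℕ) :
    ((stepG θ acc)^[T] f σ0 - (∑ σ, W σ * f σ) / (∑ σ, W σ)) ^ 2 ≤
      (1 - θ / (2 * K)) ^ T * ((∑ σ, W σ) / W σ0) := by
  have hM := markov_stepG θ acc hθ hθ1 h0 h1
  have hZ : 0 < ∑ σ, W σ :=
    hσ0.trans_le (single_le_sum (f := W) (fun σ _ => hW σ) (mem_univ σ0))
  set Z := ∑ σ, W σ with hZdef
  set c := (∑ σ, W σ * f σ) / Z with hc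
  have hρ : 0 ≤ 1 - θ / (2 * K) := by
    rw [sub_nonneg, div_le_one (by linarith)]; linarith
  have key : ∀ (T : ℕ) (g : (ι → X) → ℝ), ∑ σ, W σ * g σ = 0 →
      ∑ σ, W σ * (stepG θ acc)^[T] g σ ^ 2 ≤ (1 - θ / (2 * K)) ^ T * ∑ σ, W σ * g σ ^ 2 := by
    intro T
    induction T with
    | zero => intro g _; simp
    | succ T ih =>
      intro g hg
      rw [Function.iterate_succ_apply, pow_succ, mul_assoc]
      refine (ih _ (by rw [Ch.mean_step θ acc W hacc, hg])).trans ?_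
      refine mul_le_mul_of_nonneg_left ?_ (pow_nonneg hρ _)
      have a1 := Ch.norm_step θ acc hθ hθ1 h0 h1 W hW hacc g
      have a2 := hP g
      rw [hg] at a2
      have a3 : ∑ σ, W σ * g σ ^ 2 ≤ K * dirF W g := by
        refine le_of_mul_le_mul_left ?_ hZ
        linarith
      have a4 : θ / (2 * K) * ∑ σ, W σ * g σ ^ 2 ≤ θ / 2 * dirF W g := by
        have := mul_le_mul_of_nonneg_left a3 (by positivity : 0 ≤ θ / (2 * K))
        refine this.trans (le_of_eq ?_)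
        field_simp
      linarith
  have hcen : ∑ σ, W σ * (f σ + -c) = 0 := by
    simp only [mul_add, sum_add_distrib, ← sum_mul]
    rw [← hZdef, hc]; field_simp; ring
  have a1 := key T (fun σ => f σ + -c) hcen
  have a2 : ∀ σ, (stepG θ acc)^[T] (fun σ => f σ + -c) σ = (stepG θ acc)^[T] f σ - c := by
    intro σ
    have b1 := (hM.iterate T).add f (fun _ => -c) σ
    have b2 := (hM.iterate T).const (-c) σ
    rw [b1, b2]; ring
  have hc0 : 0 ≤ c := div_nonneg (sum_nonneg fun σ _ => mul_nonneg (hW σ) (hf0 σ)) hZ.le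
  have hc1 : c ≤ 1 := by
    rw [hc, div_le_one hZ]
    exact sum_le_sum fun σ _ => mul_le_of_le_one_right (hW σ) (hf1 σ)
  have a3 : ∑ σ, W σ * (f σ + -c) ^ 2 ≤ Z :=
    sum_le_sum fun σ _ => mul_le_of_le_one_right (hW σ) (by nlinarith [hf0 σ, hf1 σ])
  simp only [a2] at a1
  have a4 : W σ0 * ((stepG θ acc)^[T] f σ0 - c) ^ 2
      ≤ ∑ σ, W σ * ((stepG θ acc)^[T] f σ - c) ^ 2 :=
    single_le_sum (f := fun σ => W σ * ((stepG θ acc)^[T] f σ - c) ^ 2)
      (fun σ _ => mul_nonneg (hW σ) (sq_nonneg _)) (mem_univ σ0)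
  have a5 := mul_le_mul_of_nonneg_left a3 (pow_nonneg hρ T)
  rw [← mul_div_assoc, le_div_iff₀ hσ0]
  linarith

/-- Chernoff bound for a counter that increases by one with probability `p` at each step. -/
theorem chernoff {C : Type} {S : (C → ℝ) → C → ℝ} (hS : Markov S) (χ : C → ℕ) (p : ℝ)
    (hp0 : 0 ≤ p) (hp1 : p ≤ 1)
    (hχ : ∀ (ψ : ℕ → ℝ) (c : C), S (fun c' => ψ (χ c')) c = p * ψ (χ c + 1) + (1 - p) * ψ (χ c))
    (c0 : C) (hc0 : χ c0 = 0) (K : ℕ) (α : ℝ) (hα0 : 0 ≤ α) (hα1 : α ≤ 1) :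
    S^[K] (fun c => if α * K < |(χ c : ℝ) - p * K| then 1 else 0) c0 ≤
      2 * Real.exp (-(K * α ^ 2 / 4)) := by
  have hit := hS.iterate K
  have mgf : ∀ (l : ℝ) (k : ℕ) (c : C), S^[k] (fun c => Real.exp (l * χ c)) c
      = (1 + p * (Real.exp l - 1)) ^ k * Real.exp (l * χ c) := by
    intro l k
    induction k with
    | zero => intro c; simp
    | succ k ih =>
      intro c
      rw [Function.iterate_succ_apply', show S^[k] (fun c => Real.exp (l * χ c))
        = fun c => (1 + p * (Real.exp l - 1)) ^ k * Real.exp (l * χ c) from funext ih,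
        hS.smul, hχ (fun n => Real.exp (l * n)) c]
      push_cast
      rw [mul_add l, Real.exp_add, mul_one, pow_succ]
      ring
  have bound : ∀ l : ℝ, |l| ≤ 1 →
      S^[K] (fun c => Real.exp (l * χ c)) c0 ≤ Real.exp (K * (p * l + l ^ 2)) := by
    intro l hl
    rw [mgf, hc0, Nat.cast_zero, mul_zero, Real.exp_zero, mul_one, Real.exp_nat_mul]
    have a1 := (abs_le.1 (Real.abs_exp_sub_one_sub_id_le hl)).2
    have a2 := Real.exp_pos l
    refine pow_le_pow_left₀ (by nlinarith) ?_ K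
    have a3 := Real.add_one_le_exp (p * l + l ^ 2)
    nlinarith [sq_nonneg l]
  set l := α / 2 with hl
  have hl0 : 0 ≤ l := by positivity
  have b1 := bound l (by rw [abs_of_nonneg hl0]; linarith)
  have b2 := bound (-l) (by rw [abs_neg, abs_of_nonneg hl0]; linarith)
  have hle : ∀ c, (if α * K < |(χ c : ℝ) - p * K| then (1 : ℝ) else 0)
      ≤ Real.exp (-(l * (p * K + α * K))) * Real.exp (l * χ c)
        + Real.exp (l * (p * K - α * K)) * Real.exp (-l * χ c) := by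
    intro c
    rw [← Real.exp_add, ← Real.exp_add]
    have e1 := Real.exp_pos (-(l * (p * K + α * K)) + l * χ c)
    have e2 := Real.exp_pos (l * (p * K - α * K) + -l * χ c)
    split_ifs with h
    · rcases lt_abs.1 h with h | h
      · have : 1 ≤ Real.exp (-(l * (p * K + α * K)) + l * χ c) :=
          Real.one_le_exp (by nlinarith)
        linarith
      · have : 1 ≤ Real.exp (l * (p * K - α * K) + -l * χ c) :=
          Real.one_le_exp (by nlinarith)
        linarith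
    · linarith
  have c1 := hit.mono _ _ hle c0
  have c2 := hit.add (fun c => Real.exp (-(l * (p * K + α * K))) * Real.exp (l * χ c))
    (fun c => Real.exp (l * (p * K - α * K)) * Real.exp (-l * χ c)) c0
  have c3 := hit.smul (Real.exp (-(l * (p * K + α * K)))) (fun c => Real.exp (l * χ c)) c0
  have c4 := hit.smul (Real.exp (l * (p * K - α * K))) (fun c => Real.exp (-l * χ c)) c0
  have d1 := mul_le_mul_of_nonneg_left b1 (Real.exp_pos (-(l * (p * K + α * K)))).le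
  have d2 := mul_le_mul_of_nonneg_left b2 (Real.exp_pos (l * (p * K - α * K))).le
  rw [← Real.exp_add] at d1 d2
  have e1 : -(l * (p * K + α * K)) + K * (p * l + l ^ 2) = -(K * α ^ 2 / 4) := by rw [hl]; ring
  have e2 : l * (p * K - α * K) + K * (p * -l + (-l) ^ 2) = -(K * α ^ 2 / 4) := by rw [hl]; ring
  rw [e1] at d1
  rw [e2] at d2
  linarith

/-- Accumulation of failure probabilities along a chain of steps. -/
theorem fail_iterate {α : Type} {T : (α → ℝ) → α → ℝ} (hT : Markov T) (Good : ℕ → α → Prop)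
    [∀ i a, Decidable (Good i a)] (k : ℕ) (δ : ℝ) (hδ : 0 ≤ δ)
    (h : ∀ i < k, ∀ a, Good i a → T (fun b => if Good (i + 1) b then 0 else 1) a ≤ δ)
    (a : α) (ha : Good 0 a) :
    T^[k] (fun b => if Good k b then 0 else 1) a ≤ k * δ := by
  have key : ∀ j, j ≤ k → ∀ a, Good (k - j) a →
      T^[j] (fun b => if Good k b then 0 else 1) a ≤ j * δ := by
    intro j
    induction j with
    | zero => intro _ a ha; simp at ha; simp [ha]
    | succ j ih =>
      intro hj a ha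
      rw [Function.iterate_succ_apply']
      have e : k - (j + 1) + 1 = k - j := by omega
      have a1 : ∀ b, T^[j] (fun b => if Good k b then 0 else 1) b
          ≤ (if Good (k - (j + 1) + 1) b then 0 else 1) + j * δ := by
        intro b
        split_ifs with hb
        · rw [zero_add]; exact ih (by omega) b (e ▸ hb)
        · have b1 := (hT.iterate j).mono (fun b => if Good k b then 0 else 1) (fun _ => 1)
            (fun b => by split_ifs <;> norm_num) b
          have b2 := (hT.iterate j).one b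
          have : 0 ≤ j * δ := by positivity
          linarith
      have a2 := hT.mono _ _ a1 a
      rw [hT.add, hT.const] at a2
      have a3 := h (k - (j + 1)) (by omega) a ha
      push_cast
      linarith
  exact key k le_rfl a (by simpa using ha)

end Vale.Agent.P317
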