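import Mathlib

/-!
P317: the machine model. A randomized random-access machine with finitely many arrays of natural
numbers, addition and truncated subtraction only, fair coins, two independence oracles,
and a clock that counts every executed instruction.
-/

namespace Vale.Agent.P317

/-- Memory: `m a i` is cell `i` of array `a`. -/
abbrev Mem : Type := ℕ → ℕ → ℕ

/-- Write `x` into cell `i` of array `a`. -/
def Mem.put (m : Mem) (a i x : ℕ) : Mem := Function.update m a (Function.update (m a) i x)

/-- Expressions: constants, memory reads, addition, truncated subtraction. -/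
inductive Expr : Type
  | lit (c : ℕ)
  | get (a : ℕ) (i : Expr)
  | add (x y : Expr)
  | sub (x y : Expr)

/-- Value of an expression. -/
def Expr.val (m : Mem) : Expr → ℕ
  | .lit c => c
  | .get a i => m a (i.val m)
  | .add x y => x.val m + y.val m
  | .sub x y => x.val m - y.val m

/-- Programs. `set a i e`: write `e` to cell `i` of array `a`. `coin a i`: write a fair random bit.
`ask w b a i`: ask oracle `w` about the set of `x < n` with nonzero cell `x` in array `b`, and write
the answer. `ite c p q`: run `p` if `c` is nonzero, else `q`. `loop k c p`: a while loop with guard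
`c` (continue while `c` is nonzero) that makes at most as many rounds as the value of `k` on entry. -/
inductive Prog : Type
  | set (a : ℕ) (i e : Expr)
  | coin (a : ℕ) (i : Expr)
  | ask (w : Bool) (b a : ℕ) (i : Expr)
  | seq (p q : Prog)
  | ite (c : Expr) (p q : Prog)
  | loop (k c : Expr) (p : Prog)

/-- At most `k` rounds of a while loop; every test of the guard costs one time unit. -/
noncomputable def whileLe (c : Expr) (body : Mem × ℕ → PMF (Mem × ℕ)) :
    ℕ → Mem × ℕ → PMF (Mem × ℕ)
  | 0, s => PMF.pure s
  | k + 1, s =>
    if c.val s.1 = 0 then PMF.pure (s.1, s.2 + 1)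
    else (body (s.1, s.2 + 1)).bind (whileLe c body k)

open Classical in
/-- Law of the final (memory, clock) pair of a program started at a (memory, clock) pair.
Each instruction costs one time unit, an oracle call costs `n + 1`. -/
noncomputable def Prog.run {n : ℕ} (O : Bool → Set (Fin n) → Prop) :
    Prog → Mem × ℕ → PMF (Mem × ℕ)
  | .set a i e, s => PMF.pure (s.1.put a (i.val s.1) (e.val s.1), s.2 + 1)
  | .coin a i, s =>
    (PMF.uniformOfFintype Bool).map fun x => (s.1.put a (i.val s.1) x.toNat, s.2 + 1)
  | .ask w b a i, s =>
    PMF.pure (s.1.put a (i.val s.1) (if O w {x : Fin n | s.1 b x.val ≠ 0} then 1 else 0),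
      s.2 + n + 1)
  | .seq p q, s => (p.run O s).bind (q.run O)
  | .ite c p q, s => if c.val s.1 = 0 then q.run O (s.1, s.2 + 1) else p.run O (s.1, s.2 + 1)
  | .loop k c p, s => whileLe c (p.run O) (k.val s.1) (s.1, s.2 + 1)

/-- The two independence oracles. -/
def oracle {n : ℕ} (M₁ M₂ : Matroid (Fin n)) (w : Bool) (S : Set (Fin n)) : Prop :=
  if w = true then M₂.Indep S else M₁.Indep S

/-- Initial memory: `n` and the numerators and denominators of `ε` and `δ` in cell 0 of the arrays
0 to 4; every other cell is zero. -/
def input (n : ℕ) (ε δ : ℚ) : Mem := fun a i =>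
  if i = 0 then
    (if a = 0 then n else if a = 1 then ε.num.toNat else if a = 2 then ε.den
      else if a = 3 then δ.num.toNat else if a = 4 then δ.den else 0)
  else 0

/-- The number of common bases. -/
noncomputable def commonBases {n : ℕ} (M₁ M₂ : Matroid (Fin n)) : ℕ :=
  Set.ncard {B : Set (Fin n) | M₁.IsBase B ∧ M₂.IsBase B}

/-- The output is the fraction (cell 0 of array 5) / (cell 0 of array 6); it is accurate if the
denominator is nonzero and the fraction is within a factor `1 ± ε` of `N`. -/
def Accurate (N : ℕ) (ε : ℚ) (m : Mem) : Prop :=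
  m 6 0 ≠ 0 ∧ (1 - ε) * N ≤ (m 5 0 : ℚ) / (m 6 0 : ℚ) ∧ (m 5 0 : ℚ) / (m 6 0 : ℚ) ≤ (1 + ε) * N

end Vale.Agent.P317
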