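import Vale.Agent.P317.Defs

/-!
P317: the same machine with the logarithmic (bit) cost measure. Every number that is read,
computed or tested is charged its binary length.
-/

namespace Vale.Agent.P317

/-- Bit cost of evaluating an expression: every node is charged the binary length of its value,
plus one. -/
def Expr.cost (m : Mem) : Expr → ℕ
  | .lit c => Nat.size c + 1
  | .get a i => i.cost m + Nat.size (m a (i.val m)) + 1
  | .add x y => x.cost m + y.cost m + Nat.size (x.val m + y.val m) + 1
  | .sub x y => x.cost m + y.cost m + Nat.size (x.val m - y.val m) + 1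

/-- At most `k` rounds of a while loop; every round is charged the cost of the guard and the
length of the round counter. -/
noncomputable def whileBit (c : Expr) (body : Mem × ℕ → PMF (Mem × ℕ)) :
    ℕ → Mem × ℕ → PMF (Mem × ℕ)
  | 0, s => PMF.pure s
  | k + 1, s =>
    if c.val s.1 = 0 then PMF.pure (s.1, s.2 + c.cost s.1 + Nat.size (k + 1))
    else (body (s.1, s.2 + c.cost s.1 + Nat.size (k + 1))).bind (whileBit c body k)

open Classical in
/-- Law of the final (memory, clock) pair under the bit cost measure. An oracle call is charged
the lengths of the `n` cells (and their addresses) that describe the queried set. -/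
noncomputable def Prog.runBit {n : ℕ} (O : Bool → Set (Fin n) → Prop) :
    Prog → Mem × ℕ → PMF (Mem × ℕ)
  | .set a i e, s =>
    PMF.pure (s.1.put a (i.val s.1) (e.val s.1), s.2 + i.cost s.1 + e.cost s.1)
  | .coin a i, s =>
    (PMF.uniformOfFintype Bool).map fun x => (s.1.put a (i.val s.1) x.toNat, s.2 + i.cost s.1)
  | .ask w b a i, s =>
    PMF.pure (s.1.put a (i.val s.1) (if O w {x : Fin n | s.1 b x.val ≠ 0} then 1 else 0),
      s.2 + i.cost s.1 + ∑ x : Fin n, (Nat.size x.val + Nat.size (s.1 b x.val) + 1))
  | .seq p q, s => (p.runBit O s).bind (q.runBit O)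
  | .ite c p q, s =>
    if c.val s.1 = 0 then q.runBit O (s.1, s.2 + c.cost s.1) else p.runBit O (s.1, s.2 + c.cost s.1)
  | .loop k c p, s => whileBit c (p.runBit O) (k.val s.1) (s.1, s.2 + k.cost s.1)

end Vale.Agent.P317
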