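import Vale.Agent.P317.Basic

/-! P317 task C: consequences of RKT (slack bound and rebalancing of the gauge). -/

namespace Vale.Agent.P317
open Finset

namespace Ga
variable {ι X : Type} [Fintype ι] [DecidableEq ι] [Fintype X]

theorem VV_update (g : Multiset X → ℝ) (v : ι → X → ℝ) (j : ι) (a : X → ℝ) :
    VV g (Function.update v j a)
      = ∑ σ : ι → X, a (σ j) * ((∏ i ∈ univ.erase j, v i (σ i)) * g (ms σ)) := by
  refine sum_congr rfl fun σ _ => ?_
  rw [wt, ← mul_prod_erase univ _ (mem_univ j), Function.update_self, mul_assoc]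
  congr 2
  exact prod_congr rfl fun i hi => by rw [Function.update_of_ne (ne_of_mem_erase hi)]

theorem VV_lin (g : Multiset X → ℝ) (v : ι → X → ℝ) (j : ι) (α β : ℝ) (a b : X → ℝ) :
    VV g (Function.update v j fun y => α * a y + β * b y)
      = α * VV g (Function.update v j a) + β * VV g (Function.update v j b) := by
  simp only [VV_update, mul_sum, ← sum_add_distrib]
  exact sum_congr rfl fun σ _ => by ring

theorem VV_sum {κ : Type} (s : Finset κ) (g : Multiset X → ℝ) (v : ι → X → ℝ) (j : ι)
    (a : κ → X → ℝ) :
    VV g (Function.update v j fun y => ∑ k ∈ s, a k y)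
      = ∑ k ∈ s, VV g (Function.update v j (a k)) := by
  simp only [VV_update, sum_mul]
  rw [sum_comm]

theorem VV_scale (g : Multiset X → ℝ) (v : ι → X → ℝ) (τ : ι → ℝ) :
    VV g (fun i y => τ i * v i y) = (∏ i, τ i) * VV g v := by
  simp only [VV, wt, prod_mul_distrib, mul_sum]
  exact sum_congr rfl fun σ _ => by ring

theorem VV_perm (g : Multiset X → ℝ) (v : ι → X → ℝ) (e : Equiv.Perm ι) :
    VV g (fun i => v (e i)) = VV g v := by
  unfold VV
  rw [← Equiv.sum_comp (Equiv.arrowCongr e.symm (Equiv.refl X))]
  refine sum_congr rfl fun σ _ => ?_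
  have h : ∀ i, (Equiv.arrowCongr e.symm (Equiv.refl X)) σ i = σ (e i) := fun i => by simp
  simp only [wt, ms, h]
  rw [Equiv.prod_comp e (fun i => v i (σ i)),
    Equiv.sum_comp e (fun i => ({σ i} : Multiset X))]

theorem VV_swap (g : Multiset X → ℝ) (v : ι → X → ℝ) {i j : ι} (hij : i ≠ j) (a b : X → ℝ) :
    VV g (Function.update (Function.update v i a) j b)
      = VV g (Function.update (Function.update v i b) j a) := by
  rw [← VV_perm g _ (Equiv.swap i j)]
  congr 1
  funext k
  by_cases hi : k = i
  · subst hi
    rw [Equiv.swap_apply_left, Function.update_self, Function.update_of_ne hij,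
      Function.update_self]
  · by_cases hj : k = j
    · subst hj
      rw [Equiv.swap_apply_right, Function.update_of_ne hij, Function.update_self,
        Function.update_self]
    · rw [Equiv.swap_apply_of_ne_of_ne hi hj, Function.update_of_ne hj, Function.update_of_ne hi,
        Function.update_of_ne hj, Function.update_of_ne hi]

theorem VV_nonneg {g : Multiset X → ℝ} (hg : ∀ S, 0 ≤ g S) {v : ι → X → ℝ}
    (hv : ∀ i y, 0 ≤ v i y) : 0 ≤ VV g v :=
  sum_nonneg fun _ _ => mul_nonneg (prod_nonneg fun i _ => hv i _) (hg _)

omit [Fintype ι] [Fintype X] in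
theorem upd_nonneg {v : ι → X → ℝ} (hv : ∀ i y, 0 ≤ v i y) {a : X → ℝ} (ha : ∀ y, 0 ≤ a y)
    (j : ι) : ∀ i y, 0 ≤ Function.update v j a i y := by
  intro i y
  by_cases h : i = j
  · subst h; rw [Function.update_self]; exact ha y
  · rw [Function.update_of_ne h]; exact hv i y

end Ga

theorem VV_mono {ι X : Type} [Fintype ι] [DecidableEq ι] [Fintype X] {g : Multiset X → ℝ}
    (hg : ∀ S, 0 ≤ g S) {v v' : ι → X → ℝ} (hv : ∀ i y, 0 ≤ v i y) (h : ∀ i y, v i y ≤ v' i y) :
    VV g v ≤ VV g v' := by
  refine sum_le_sum fun σ _ => mul_le_mul_of_nonneg_right ?_ (hg _)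
  exact prod_le_prod (fun i _ => hv i _) fun i _ => h i _

/-- Slack bound: switching on slack of size `η u` at every position at most doubles the
partition function. -/
theorem slack_bound {ι X : Type} [Fintype ι] [DecidableEq ι] [Fintype X] {g : Multiset X → ℝ}
    (hg : ∀ S, 0 ≤ g S) (hr : RKT ι g) (d : ι → X → ℝ) (u : X → ℝ) (hd : ∀ i y, 0 ≤ d i y)
    (hu : ∀ y, 0 ≤ u y) (hZ : 0 < VV g d) (β η : ℝ) (hη : 0 ≤ η) (hβ0 : 0 ≤ β)
    (hβ : ∀ j, VV g (Function.update d j u) ≤ β * VV g d)
    (hs : 4 * (Fintype.card ι : ℝ) * β * η ≤ 1) :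
    VV g (fun j y => d j y + η * u y) ≤ 2 * VV g d := by
  rcases isEmpty_or_nonempty ι with hι | hι
  · have : (fun j y => d j y + η * u y) = d := funext fun j => isEmptyElim j
    rw [this]; linarith
  set n : ℝ := ((Fintype.card ι : ℕ) : ℝ) with hn
  have hn0 : 0 < n := by rw [hn]; exact_mod_cast Fintype.card_pos
  set Z := VV g d with hZdef
  let vA : Finset ι → ι → X → ℝ := fun A j y => d j y + (if j ∈ A then η * u y else 0)
  have hvA : ∀ A i y, 0 ≤ vA A i y := fun A i y => by
    simp only [vA]
    split_ifs
    · exact add_nonneg (hd i y) (mul_nonneg hη (hu y))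
    · linarith [hd i y]
  have hZA : ∀ A, Z ≤ VV g (vA A) := fun A => VV_mono hg hd fun i y => by
    simp only [vA]
    split_ifs
    · linarith [mul_nonneg hη (hu y)]
    · linarith
  have key : ∀ A : Finset ι, VV g (vA A) ≤ (1 + A.card / n) * Z ∧
      ∀ j ∉ A, VV g (Function.update (vA A) j u) * Z ≤ β * VV g (vA A) ^ 2 := by
    intro A
    induction A using Finset.induction_on with
    | empty =>
      have e : vA ∅ = d := by funext i y; simp [vA]
      rw [e]
      refine ⟨by simp [hZdef], fun j _ => ?_⟩
      have := mul_le_mul_of_nonneg_right (hβ j) hZ.le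
      rw [← hZdef]; linarith
    | insert l A hl ih =>
      obtain ⟨ih1, ih2⟩ := ih
      have e : vA (insert l A) = Function.update (vA A) l fun y => 1 * vA A l y + η * u y := by
        funext i y
        by_cases h : i = l
        · subst h; simp [vA, hl]
        · simp [vA, h]
      set ψ := VV g (vA A) with hψ
      have hψ0 : 0 < ψ := hZ.trans_le (hZA A)
      have e1 : VV g (vA (insert l A)) = ψ + η * VV g (Function.update (vA A) l u) := by
        rw [e, Ga.VV_lin, Function.update_eq_self, one_mul]
      set al := VV g (Function.update (vA A) l u) with hal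
      have hal0 : 0 ≤ al := Ga.VV_nonneg hg (Ga.upd_nonneg (hvA A) hu l)
      have hcard : (A.card : ℝ) ≤ n := by rw [hn]; exact_mod_cast card_le_univ A
      have hψ2 : ψ ≤ 2 * Z := by
        have : (A.card : ℝ) / n ≤ 1 := (div_le_one hn0).2 hcard
        nlinarith
      constructor
      · rw [e1, card_insert_of_notMem hl]
        have a1 := ih2 l hl
        have a2 : β * ψ ^ 2 ≤ β * (2 * Z) ^ 2 :=
          mul_le_mul_of_nonneg_left (pow_le_pow_left₀ hψ0.le hψ2 2) hβ0
        have a3 : al ≤ 4 * β * Z := by
          refine le_of_mul_le_mul_right ?_ hZ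
          linarith
        have a4 : η * al ≤ Z / n := by
          rw [le_div_iff₀ hn0]
          have b1 := mul_le_mul_of_nonneg_left a3 (mul_nonneg hη hn0.le)
          have b2 := mul_le_mul_of_nonneg_right hs hZ.le
          linarith
        push_cast
        have : (1 + (A.card + 1) / n) * Z = (1 + A.card / n) * Z + Z / n := by ring
        linarith
      · intro j hj
        rw [mem_insert, not_or] at hj
        have hjl : j ≠ l := hj.1
        have e2 : VV g (Function.update (vA (insert l A)) j u) = VV g (Function.update (vA A) j u)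
            + η * VV g (Function.update (Function.update (vA A) j u) l u) := by
          rw [e, Function.update_comm hjl.symm, Ga.VV_lin, one_mul]
          congr 2
          rw [← Function.update_of_ne hjl.symm u (vA A), Function.update_eq_self]
        have r := hr (vA A) (hvA A) j l hjl (vA A j) u (vA A l) (hvA A j) hu (hvA A l)
        have e3 : Function.update (Function.update (vA A) j u) l (vA A l)
            = Function.update (vA A) j u := by
          rw [← Function.update_of_ne hjl.symm u (vA A), Function.update_eq_self]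
        rw [Function.update_eq_self, Function.update_eq_self, e3, ← hψ, ← hal] at r
        rw [e2, e1]
        set aj := VV g (Function.update (vA A) j u) with haj
        set b := VV g (Function.update (Function.update (vA A) j u) l u) with hb
        have haj0 : 0 ≤ aj := Ga.VV_nonneg hg (Ga.upd_nonneg (hvA A) hu j)
        have a1 := ih2 j hj.2
        have a2 : (aj + η * b) * ψ ^ 2 ≤ aj * (ψ + η * al) ^ 2 := by
          have b1 := mul_le_mul_of_nonneg_left r (mul_nonneg hη hψ0.le)
          have b2 : 0 ≤ aj * (η * al) ^ 2 := by positivity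
          nlinarith
        refine le_of_mul_le_mul_right ?_ (pow_pos hψ0 2)
        have a3 := mul_le_mul_of_nonneg_right a2 hZ.le
        have a4 := mul_le_mul_of_nonneg_right a1 (sq_nonneg (ψ + η * al))
        nlinarith
  have e : (fun j y => d j y + η * u y) = vA univ := by funext j y; simp [vA]
  have := (key univ).1
  rw [card_univ, ← hn, div_self hn0.ne'] at this
  rw [e]; linarith

/-- The direction supported on part `j` with element weights `w`. -/
def dpart {ι X : Type} [DecidableEq ι] (part : X → ι) (w : X → ℝ) (j : ι) (y : X) : ℝ :=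
  if part y = j then w y else 0

/-- Weight of the assignments whose only position outside its own part is `j`. -/
def offW {ι X : Type} [Fintype ι] [DecidableEq ι] [Fintype X] (g : Multiset X → ℝ)
    (part : X → ι) (w : X → ℝ) (j : ι) : ℝ :=
  VV g (Function.update (dpart part w) j (fun y => if part y = j then 0 else w y))

/-- Rebalancing: multiply by 4 the weights of the parts in `A`. -/
theorem rebalance {ι X : Type} [Fintype ι] [DecidableEq ι] [Fintype X] {g : Multiset X → ℝ}
    (hg : ∀ S, 0 ≤ g S) (hr : RKT ι g) (part : X → ι) (w : X → ℝ) (hw : ∀ y, 0 ≤ w y)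
    (hZ : 0 < VV g (dpart part w)) (P : ℝ) (hP : (Fintype.card ι : ℝ) ≤ P) (hP1 : 1 ≤ P)
    (A : Finset ι)
    (hB : ∀ j, offW g part w j ≤ 320 * P * VV g (dpart part w))
    (hA : ∀ j ∈ A, 16 * P * VV g (dpart part w) ≤ offW g part w j)
    (hA' : ∀ j ∉ A, offW g part w j ≤ 96 * P * VV g (dpart part w)) (j : ι) :
    offW g part (fun y => if part y ∈ A then 4 * w y else w y) j ≤
      160 * P * VV g (dpart part (fun y => if part y ∈ A then 4 * w y else w y)) := by
  set d := dpart part w with hd
  set Z := VV g d with hZdef
  have hd0 : ∀ i y, 0 ≤ d i y := fun i y => by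
    simp only [hd, dpart]; split_ifs; exacts [hw y, le_rfl]
  let D : ι → ℝ := fun i => VV g (Function.update d j (d i))
  have hD0 : ∀ i, 0 ≤ D i := fun i => Ga.VV_nonneg hg (Ga.upd_nonneg hd0 (hd0 i) j)
  have hoff0 : ∀ i, 0 ≤ offW g part w i := fun i =>
    Ga.VV_nonneg hg (Ga.upd_nonneg hd0 (fun y => by split_ifs; exacts [le_rfl, hw y]) i)
  have hfull : ∀ i, VV g (Function.update d i w) = Z + offW g part w i := by
    intro i
    have : w = fun y => 1 * d i y + 1 * (if part y = i then 0 else w y) := by
      funext y; simp only [hd, dpart]; split_ifs <;> simp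
    conv_lhs => rw [this]
    rw [Ga.VV_lin, Function.update_eq_self, one_mul, one_mul]
    rfl
  have hsum : offW g part w j = ∑ i ∈ univ.erase j, D i := by
    rw [← Ga.VV_sum, offW]
    congr 2
    funext y
    simp only [hd, dpart]
    rw [sum_ite_eq]
    simp only [mem_erase, mem_univ, and_true, ne_eq, ite_not]
  have hrk : ∀ i, i ≠ j → D i * (Z + offW g part w i) ≤ 2 * (Z + offW g part w j) * Z := by
    intro i hij
    have r := hr d hd0 i j hij w (d i) (d j) hw (hd0 i) (hd0 j)
    have e1 : Function.update (Function.update d i w) j (d j) = Function.update d i w := by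
      rw [← Function.update_of_ne hij.symm w d, Function.update_eq_self]
    rw [e1, Ga.VV_swap g d hij w (d i), Function.update_eq_self, Function.update_eq_self,
      hfull, hfull] at r
    simp only [D]
    linarith
  let τ : ι → ℝ := fun i => if i ∈ A then 4 else 1
  have hτ : ∀ i, 0 < τ i := fun i => by simp only [τ]; split_ifs <;> norm_num
  have ew : (fun y => if part y ∈ A then 4 * w y else w y) = fun y => τ (part y) * w y := by
    funext y; simp only [τ]; split_ifs <;> simp
  have ed : dpart part (fun y => τ (part y) * w y) = fun i y => τ i * d i y := by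
    funext i y
    simp only [hd, dpart]
    split_ifs with h
    · rw [h]
    · simp
  have hT : 0 < ∏ i, τ i := prod_pos fun i _ => hτ i
  have e1 : offW g part (fun y => τ (part y) * w y) j
      = (∏ i, τ i) * ∑ i ∈ univ.erase j, τ i / τ j * D i := by
    have f1 : Function.update (fun i y => τ i * d i y) j
        (fun y => if part y = j then 0 else τ (part y) * w y)
        = fun i y => τ i * Function.update d j
          (fun y => ∑ k ∈ univ.erase j, (τ k / τ j * d k y + 0 * d k y)) i y := by
      funext i y
      by_cases h : i = j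
      · subst h
        rw [Function.update_self, Function.update_self]
        simp only [hd, dpart, zero_mul, add_zero, mul_ite, mul_zero, ite_self]
        rw [sum_ite_eq]
        simp only [mem_erase, mem_univ, and_true, ne_eq, ite_not]
        have := hτ i
        split_ifs
        · simp
        · field_simp
      · rw [Function.update_of_ne h, Function.update_of_ne h]
    rw [offW, ed, f1, Ga.VV_scale, Ga.VV_sum]
    congr 1
    refine sum_congr rfl fun k _ => ?_
    rw [Ga.VV_lin, zero_mul, add_zero]
  rw [ew, e1, ed, Ga.VV_scale, mul_left_comm]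
  refine mul_le_mul_of_nonneg_left ?_ hT.le
  rw [← hZdef]
  have hP0 : 0 < P := by linarith
  have hcard : ∀ c : ℝ, 0 ≤ c → ∑ _i ∈ univ.erase j, c ≤ P * c := by
    intro c hc
    rw [sum_const, nsmul_eq_mul]
    refine mul_le_mul_of_nonneg_right (le_trans ?_ hP) hc
    exact_mod_cast card_le_univ _
  have hDA : ∀ c : ℝ, 2 * (Z + offW g part w j) ≤ c * (Z + 16 * P * Z) → 0 ≤ c →
      ∀ i ∈ A, i ≠ j → D i ≤ c * Z := by
    intro c hc hc0 i hi hij
    have a1 := hrk i hij
    have a2 := mul_le_mul_of_nonneg_left (hA i hi) (hD0 i)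
    have a3 := mul_le_mul_of_nonneg_right hc hZ.le
    refine le_of_mul_le_mul_right ?_ (by positivity : 0 < Z + 16 * P * Z)
    nlinarith
  have hPZ : Z ≤ P * Z := le_mul_of_one_le_left hZ.le hP1
  by_cases hj : j ∈ A
  · have a1 := hDA 40 (by linarith [hB j]) (by norm_num)
    have a2 : ∑ i ∈ univ.erase j, τ i / τ j * D i ≤ ∑ i ∈ univ.erase j, (1 / 4 * D i + 30 * Z) := by
      refine sum_le_sum fun i hi => ?_
      simp only [τ, hj, if_true]
      split_ifs with h
      · have := a1 i h (ne_of_mem_erase hi)
        linarith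
      · linarith
    rw [sum_add_distrib, ← mul_sum, ← hsum] at a2
    have a3 := hcard (30 * Z) (by positivity)
    linarith [hB j]
  · have a1 := hDA 12 (by linarith [hA' j hj]) (by norm_num)
    have a2 : ∑ i ∈ univ.erase j, τ i / τ j * D i ≤ ∑ i ∈ univ.erase j, (D i + 36 * Z) := by
      refine sum_le_sum fun i hi => ?_
      simp only [τ, hj, if_false]
      split_ifs with h
      · have := a1 i h (ne_of_mem_erase hi)
        linarith
      · linarith
    rw [sum_add_distrib, ← hsum] at a2
    have a3 := hcard (36 * Z) (by positivity)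
    linarith [hA' j hj]

/-- Annealing: lowering the weights inside one part `p` by a factor at most 2. -/
theorem anneal {ι X : Type} [Fintype ι] [DecidableEq ι] [Fintype X] {g : Multiset X → ℝ}
    (hg : ∀ S, 0 ≤ g S) (part : X → ι) (w w' : X → ℝ) (hw' : ∀ y, 0 ≤ w' y) (p : ι)
    (h1 : ∀ y, w' y ≤ w y) (h2 : ∀ y, w y ≤ 2 * w' y) (h3 : ∀ y, part y ≠ p → w' y = w y) :
    VV g (dpart part w) ≤ 2 * VV g (dpart part w') ∧
      ∀ j, offW g part w' j ≤ offW g part w j := by
  have hd' : ∀ i y, 0 ≤ dpart part w' i y := fun i y => by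
    simp only [dpart]; split_ifs; exacts [hw' y, le_rfl]
  have hle : ∀ i y, dpart part w' i y ≤ dpart part w i y := fun i y => by
    simp only [dpart]; split_ifs; exacts [h1 y, le_rfl]
  constructor
  · have e := Ga.VV_scale g (dpart part w') fun i => if i = p then 2 else 1
    rw [prod_ite_eq' univ p, if_pos (mem_univ _)] at e
    rw [← e]
    refine VV_mono hg (fun i y => (hd' i y).trans (hle i y)) fun i y => ?_
    simp only [dpart]
    split_ifs with a1 a2
    · exact h2 y
    · rw [h3 y (a1 ▸ a2), one_mul]
    · simp
    · simp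
  · intro j
    refine VV_mono hg (Ga.upd_nonneg hd' (fun y => by split_ifs; exacts [le_rfl, hw' y]) j)
      fun i y => ?_
    by_cases h : i = j
    · subst h
      rw [Function.update_self, Function.update_self]
      split_ifs; exacts [le_rfl, h1 y]
    · rw [Function.update_of_ne h, Function.update_of_ne h]
      exact hle i y

/-- Gauge covariance of the transversal partition function. -/
theorem VV_dpart_gauge {ι X : Type} [Fintype ι] [DecidableEq ι] [Fintype X] (g : Multiset X → ℝ)
    (part : X → ι) (w : X → ℝ) (τ : ι → ℝ) :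
    VV g (dpart part (fun y => τ (part y) * w y)) = (∏ i, τ i) * VV g (dpart part w) := by
  rw [← Ga.VV_scale]
  congr 1
  funext i y
  simp only [dpart]
  split_ifs with h
  · rw [h]
  · simp

end Vale.Agent.P317
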