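import Vale.Agent.P317.Basic

/-! P317 task A: the signed Lorentzian theorem (Bochner induction), rank links, RKT. -/

namespace Vale.Agent.P317
open Finset

theorem mix_split {ι Y : Type} [Fintype ι] [DecidableEq ι] [Fintype Y] (e : ι) (v : ι → Y → ℝ)
    (G : Multiset Y → ℝ) (S : Multiset Y) :
    mix v G S = ∑ a, v e a * mix (fun j : {j // j ≠ e} => v j.1) G (a ::ₘ S) := by
  unfold mix
  rw [← Equiv.sum_comp (Equiv.funSplitAt e Y).symm, Fintype.sum_prod_type]
  refine sum_congr rfl fun a _ => ?_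
  rw [mul_sum]
  refine sum_congr rfl fun τ _ => ?_
  have h1 : (Equiv.funSplitAt e Y).symm (a, τ) e = a := by simp
  have h2 : ∀ j : {j // j ≠ e}, (Equiv.funSplitAt e Y).symm (a, τ) j.1 = τ j := fun j => by
    simp [j.2]
  rw [Fintype.prod_eq_mul_prod_subtype_ne _ e, ms, Fintype.sum_eq_add_sum_subtype_ne _ e]
  simp only [h1, h2]
  rw [mul_assoc, ms, Multiset.add_cons, Multiset.singleton_add, Multiset.cons_add]

namespace Lo

variable {Y : Type} [Fintype Y]

theorem qf_eq (Q : Y → Y → ℝ) (a b : Y → ℝ) : qf Q a b = ∑ x, a x * ∑ y, Q x y * b y := by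
  unfold qf
  refine sum_congr rfl fun x _ => ?_
  rw [mul_sum]; exact sum_congr rfl fun y _ => by ring

theorem qf_symm {Q : Y → Y → ℝ} (hs : ∀ a b, Q a b = Q b a) (a b : Y → ℝ) :
    qf Q a b = qf Q b a := by
  unfold qf
  rw [sum_comm]
  exact sum_congr rfl fun x _ => sum_congr rfl fun y _ => by rw [hs y x]; ring

theorem qf_lin_left (Q : Y → Y → ℝ) (α β : ℝ) (c z w : Y → ℝ) :
    qf Q (fun y => α * c y + β * z y) w = α * qf Q c w + β * qf Q z w := by
  simp only [qf_eq, mul_sum, ← sum_add_distrib]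
  exact sum_congr rfl fun x _ => sum_congr rfl fun y _ => by ring

theorem qf_lin {Q : Y → Y → ℝ} (hs : ∀ a b, Q a b = Q b a) (α β : ℝ) (c z : Y → ℝ) :
    qf Q (fun y => α * c y + β * z y) (fun y => α * c y + β * z y)
      = α ^ 2 * qf Q c c + 2 * α * β * qf Q c z + β ^ 2 * qf Q z z := by
  rw [qf_lin_left, qf_symm hs c, qf_symm hs z, qf_lin_left, qf_lin_left, qf_symm hs z c]
  ring

theorem dot_lin (r : Y → ℝ) (α β : ℝ) (c z : Y → ℝ) :
    dot r (fun y => α * c y + β * z y) = α * dot r c + β * dot r z := by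
  simp only [dot, mul_sum, ← sum_add_distrib]
  exact sum_congr rfl fun x _ => by ring

theorem qf_nonneg {Q : Y → Y → ℝ} (hq : ∀ a b, 0 ≤ Q a b) {a b : Y → ℝ} (ha : ∀ y, 0 ≤ a y)
    (hb : ∀ y, 0 ≤ b y) : 0 ≤ qf Q a b :=
  sum_nonneg fun x _ => sum_nonneg fun y _ => mul_nonneg (mul_nonneg (hq x y) (ha x)) (hb y)

theorem nonneg_of_cont {F : ℝ → ℝ} (hF : Continuous F) (h : ∀ s, 0 < s → s ≤ 1 → 0 ≤ F s) :
    0 ≤ F 0 := by
  have h1 : Filter.Tendsto F (nhdsWithin 0 (Set.Ioi 0)) (nhds (F 0)) :=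
    (hF.tendsto 0).mono_left nhdsWithin_le_nhds
  refine ge_of_tendsto h1 ?_
  filter_upwards [Ioc_mem_nhdsGT (zero_lt_one' ℝ)] with s hs
  exact h s hs.1 hs.2

theorem diag_sub {Q : Y → Y → ℝ} (hs : ∀ a b, Q a b = Q b a) {v : Y → ℝ} (hv : ∀ y, 0 < v y)
    (x : Y → ℝ) :
    2 * (∑ a, (∑ b, Q a b * v b) / v a * x a ^ 2 - qf Q x x)
      = ∑ a, ∑ b, Q a b * v a * v b * (x a / v a - x b / v b) ^ 2 := by
  have e1 : ∑ a, (∑ b, Q a b * v b) / v a * x a ^ 2
      = ∑ a, ∑ b, Q a b * v a * v b * (x a / v a) ^ 2 := by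
    refine sum_congr rfl fun a _ => ?_
    rw [sum_div, sum_mul]
    refine sum_congr rfl fun b _ => ?_
    have := hv a
    field_simp
  have e2 : ∑ a, ∑ b, Q a b * v a * v b * (x a / v a) ^ 2
      = ∑ a, ∑ b, Q a b * v a * v b * (x b / v b) ^ 2 := by
    rw [sum_comm]
    exact sum_congr rfl fun a _ => sum_congr rfl fun b _ => by rw [hs b a]; ring
  have e3 : qf Q x x = ∑ a, ∑ b, Q a b * v a * v b * ((x a / v a) * (x b / v b)) := by
    refine sum_congr rfl fun a _ => sum_congr rfl fun b _ => ?_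
    have := hv a
    have := hv b
    field_simp
  have e4 : ∑ a, ∑ b, Q a b * v a * v b * (x a / v a - x b / v b) ^ 2
      = ∑ a, ∑ b, Q a b * v a * v b * (x a / v a) ^ 2
        + ∑ a, ∑ b, Q a b * v a * v b * (x b / v b) ^ 2
        - 2 * ∑ a, ∑ b, Q a b * v a * v b * ((x a / v a) * (x b / v b)) := by
    rw [mul_sum, ← sum_add_distrib, ← sum_sub_distrib]
    refine sum_congr rfl fun a _ => ?_
    rw [mul_sum, ← sum_add_distrib, ← sum_sub_distrib]
    exact sum_congr rfl fun b _ => by ring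
  rw [e4, ← e2, e1, e3]
  ring

theorem step {Q : Y → Y → ℝ} (hs : ∀ a b, Q a b = Q b a) (hq : ∀ a b, 0 < Q a b) {v : Y → ℝ}
    (hv : ∀ y, 0 < v y) (r : Y → ℝ) (R : ℝ)
    (h : ∀ (c : Y → ℝ) (t : ℝ), qf Q c c + 2 * t * dot r c - t ^ 2 * R
      ≤ ∑ a, (∑ b, Q a b * c b + t * r a) ^ 2 / ((∑ b, Q a b * v b) / v a))
    (c : Y → ℝ) (t : ℝ) (hc : dot (fun a => ∑ b, Q a b * v b) c + dot r v * t = 0) :
    qf Q c c + 2 * t * dot r c - t ^ 2 * R ≤ 0 := by
  rcases isEmpty_or_nonempty Y with hY | hY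
  · simpa using h c t
  let D : Y → ℝ := fun a => (∑ b, Q a b * v b) / v a
  have hD : ∀ a, 0 < D a := fun a =>
    div_pos (sum_pos (fun b _ => mul_pos (hq a b) (hv b)) univ_nonempty) (hv a)
  have hDv : ∀ a, D a * v a = ∑ b, Q a b * v b := fun a => div_mul_cancel₀ _ (hv a).ne'
  have hpsd : ∀ x : Y → ℝ, qf Q x x ≤ ∑ a, D a * x a ^ 2 := by
    intro x
    have h1 := diag_sub hs hv x
    have h2 : 0 ≤ ∑ a, ∑ b, Q a b * v a * v b * (x a / v a - x b / v b) ^ 2 :=
      sum_nonneg fun a _ => sum_nonneg fun b _ =>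
        mul_nonneg (mul_pos (mul_pos (hq a b) (hv a)) (hv b)).le (sq_nonneg _)
    simp only [D]
    linarith
  let L : (Y → ℝ) →ₗ[ℝ] (Y → ℝ) :=
    { toFun := fun x a => D a * x a - ∑ b, Q a b * x b + D a * v a * ∑ b, D b * v b * x b
      map_add' := fun x y => by
        funext a
        simp only [Pi.add_apply, mul_add, sum_add_distrib]; ring
      map_smul' := fun k x => by
        funext a
        have e1 : ∑ b, Q a b * (k * x b) = k * ∑ b, Q a b * x b := by
          rw [mul_sum]; exact sum_congr rfl fun b _ => by ring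
        have e2 : ∑ b, D b * v b * (k * x b) = k * ∑ b, D b * v b * x b := by
          rw [mul_sum]; exact sum_congr rfl fun b _ => by ring
        simp only [Pi.smul_apply, smul_eq_mul, RingHom.id_apply, e1, e2]; ring }
  have hL : ∀ x a, L x a = D a * x a - ∑ b, Q a b * x b + D a * v a * ∑ b, D b * v b * x b :=
    fun _ _ => rfl
  have hpair : ∀ x y : Y → ℝ, ∑ a, y a * L x a = ∑ a, D a * (y a * x a) - qf Q y x
      + (∑ b, D b * v b * y b) * ∑ b, D b * v b * x b := by
    intro x y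
    rw [qf_eq, sum_mul, ← sum_sub_distrib, ← sum_add_distrib]
    exact sum_congr rfl fun a _ => by rw [hL]; ring
  have hvv : 0 < ∑ b, D b * v b * v b :=
    sum_pos (fun b _ => mul_pos (mul_pos (hD b) (hv b)) (hv b)) univ_nonempty
  have hinj : Function.Injective L := by
    rw [injective_iff_map_eq_zero]
    intro x hx
    have h1 := hpair x x
    simp only [hx, Pi.zero_apply, mul_zero, sum_const_zero, ← sq] at h1
    have h2 := hpsd x
    have h3 : (∑ b, D b * v b * x b) ^ 2 = 0 := by nlinarith [sq_nonneg (∑ b, D b * v b * x b)]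
    have h4 := diag_sub hs hv x
    have h5 : ∑ a, ∑ b, Q a b * v a * v b * (x a / v a - x b / v b) ^ 2 = 0 := by
      rw [← h4]; simp only [D] at h1 h3; linarith
    have hnn : ∀ a b, 0 ≤ Q a b * v a * v b * (x a / v a - x b / v b) ^ 2 := fun a b =>
      mul_nonneg (mul_pos (mul_pos (hq a b) (hv a)) (hv b)).le (sq_nonneg _)
    obtain ⟨a0⟩ := hY
    have h6 : ∀ b, x b = x a0 / v a0 * v b := by
      intro b
      have a1 := (sum_eq_zero_iff_of_nonneg fun a _ => sum_nonneg fun b _ => hnn a b).1 h5 a0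
        (mem_univ _)
      have a2 := (sum_eq_zero_iff_of_nonneg fun b _ => hnn a0 b).1 a1 b (mem_univ _)
      have a3 := (mul_eq_zero.1 a2).resolve_left
        (mul_pos (mul_pos (hq a0 b) (hv a0)) (hv b)).ne'
      have a4 : x a0 / v a0 = x b / v b := sub_eq_zero.1 (pow_eq_zero_iff two_ne_zero |>.1 a3)
      rw [a4, div_mul_cancel₀ _ (hv b).ne']
    have h7 : ∑ b, D b * v b * x b = x a0 / v a0 * ∑ b, D b * v b * v b := by
      rw [mul_sum]; exact sum_congr rfl fun b _ => by rw [h6 b]; ring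
    have h8 : x a0 / v a0 = 0 := by
      have := pow_eq_zero_iff two_ne_zero |>.1 h3
      rw [h7] at this
      exact (mul_eq_zero.1 this).resolve_right hvv.ne'
    funext b
    rw [h6 b, h8, zero_mul]; rfl
  obtain ⟨x, hx⟩ := LinearMap.injective_iff_surjective.1 hinj fun a => D a * c a + t * r a
  have h0 : ∑ b, D b * v b * x b = 0 := by
    have h1 := hpair x v
    have h2 : ∑ a, D a * (v a * x a) = qf Q v x := by
      rw [qf_symm hs, qf_eq]
      exact sum_congr rfl fun a _ => by rw [← hDv]; ring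
    have h3 : ∑ a, v a * L x a = dot (fun a => ∑ b, Q a b * v b) c + dot r v * t := by
      simp only [hx, dot, sum_mul, ← sum_add_distrib]
      exact sum_congr rfl fun a _ => by rw [← sum_mul, ← hDv]; ring
    rw [h3, hc, h2, sub_self, zero_add] at h1
    exact (mul_eq_zero.1 h1.symm).resolve_left hvv.ne'
  let w : Y → ℝ := fun a => (∑ b, Q a b * x b + t * r a) / D a
  have hw : ∀ a, D a * w a = ∑ b, Q a b * x b + t * r a := fun a => mul_div_cancel₀ _ (hD a).ne'
  have hcw : c = fun a => 1 * x a + (-1) * w a := by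
    funext a
    have h1 := congrFun hx a
    rw [hL, h0] at h1
    have h2 := hw a
    refine mul_left_cancel₀ (hD a).ne' ?_
    linarith
  have h1 := h x t
  have h2 : ∑ a, (∑ b, Q a b * x b + t * r a) ^ 2 / ((∑ b, Q a b * v b) / v a)
      = ∑ a, D a * w a ^ 2 := by
    refine sum_congr rfl fun a _ => ?_
    rw [← hw a]
    change _ / D a = _
    have := hD a
    field_simp
  have h3 : qf Q x w + t * dot r w = ∑ a, D a * w a ^ 2 := by
    rw [qf_symm hs, qf_eq, dot, mul_sum, ← sum_add_distrib]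
    refine sum_congr rfl fun a _ => ?_
    rw [sq, ← mul_assoc (D a), hw a]; ring
  have h4 := hpsd w
  rw [hcw, qf_lin hs, dot_lin]
  linarith

theorem card_ms {ι : Type} [Fintype ι] (σ : ι → Y) : (ms σ).card = Fintype.card ι := by
  simp [ms, Multiset.card_sum]

theorem mix_cons {ι : Type} [Fintype ι] [DecidableEq ι] (v : ι → Y → ℝ) (G : Multiset Y → ℝ)
    (a : Y) (S : Multiset Y) : mix v G (a ::ₘ S) = mix v (fun T => G (a ::ₘ T)) S := by
  simp only [mix, Multiset.add_cons]

theorem mix_pos {ι : Type} [Fintype ι] [DecidableEq ι] [Nonempty Y] {v : ι → Y → ℝ}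
    (hv : ∀ i y, 0 < v i y) {G : Multiset Y → ℝ} {S : Multiset Y}
    (hG : ∀ T, T.card = Fintype.card ι + S.card → 0 < G T) : 0 < mix v G S :=
  sum_pos (fun σ _ => mul_pos (prod_pos fun i _ => hv i _)
    (hG _ (by rw [Multiset.card_add, card_ms]))) univ_nonempty

theorem mix_nonneg {ι : Type} [Fintype ι] [DecidableEq ι] {v : ι → Y → ℝ}
    (hv : ∀ i y, 0 ≤ v i y) {G : Multiset Y → ℝ} (hG : ∀ T, 0 ≤ G T) (S : Multiset Y) :
    0 ≤ mix v G S :=
  sum_nonneg fun σ _ => mul_nonneg (prod_nonneg fun i _ => hv i _) (hG _)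

theorem per_psd [DecidableEq Y] (sim : Y → Y → Prop) [DecidableRel sim]
    (hsy : ∀ a b, sim a b → sim b a) (htr : ∀ a b c, sim a b → sim b c → sim a c) (c : Y → ℝ) :
    0 ≤ ∑ a, ∑ b, (if sim a b then 1 else 0) * c a * c b := by
  let N : Y → ℝ := fun x => ((univ.filter fun y => sim y x).card : ℝ)
  have e1 : ∀ a b, (if sim a b then (1 : ℝ) else 0)
      = ∑ x, (if sim a x then 1 else 0) * (if sim b x then 1 else 0) / N x := by
    intro a b
    split_ifs with hab
    · have h1 : ∀ x, (if sim a x then (1 : ℝ) else 0) * (if sim b x then 1 else 0) / N x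
          = if sim x a then 1 / N a else 0 := by
        intro x
        by_cases hx : sim a x
        · have : N x = N a := by
            simp only [N]
            congr 2
            ext y
            simp only [mem_filter, mem_univ, true_and]
            exact ⟨fun h => htr _ _ _ h (hsy _ _ hx), fun h => htr _ _ _ h hx⟩
          rw [if_pos hx, if_pos (htr _ _ _ (hsy _ _ hab) hx), if_pos (hsy _ _ hx), this, one_mul]
        · rw [if_neg hx, if_neg (fun h => hx (hsy _ _ h)), zero_mul, zero_div]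
      simp only [h1]
      rw [← sum_filter, sum_const, nsmul_eq_mul]
      have : 0 < N a := by
        simp only [N]
        exact_mod_cast card_pos.2
          ⟨b, mem_filter.2 (⟨mem_univ _, hsy _ _ hab⟩ : b ∈ univ ∧ (fun y => sim y a) b)⟩
      change 1 = N a * (1 / N a)
      field_simp
    · refine (sum_eq_zero fun x _ => ?_).symm
      by_cases hx : sim a x
      · rw [if_neg (fun h : sim b x => hab (htr _ _ _ hx (hsy _ _ h))), mul_zero, zero_div]
      · rw [if_neg hx, zero_mul, zero_div]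
  have e2 : ∑ a, ∑ b, (if sim a b then 1 else 0) * c a * c b
      = ∑ x, (∑ a, (if sim a x then 1 else 0) * c a) ^ 2 / N x := by
    simp only [sq, sum_mul_sum, sum_div]
    rw [sum_comm (γ := Y) (α := Y) (s := univ) (t := univ)
      (f := fun x a => ∑ b, (if sim a x then 1 else 0) * c a * ((if sim b x then 1 else 0) * c b)
        / N x)]
    refine sum_congr rfl fun a _ => ?_
    rw [sum_comm]
    refine sum_congr rfl fun b _ => ?_
    rw [e1 a b, sum_mul, sum_mul]
    exact sum_congr rfl fun x _ => by ring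
  rw [e2]
  exact sum_nonneg fun x _ => div_nonneg (sq_nonneg _) (Nat.cast_nonneg _)

end Lo

/-- A symmetric nonnegative form that is nonpositive on a hyperplane satisfies `Lor`. -/
theorem lor_of_hyper {Y : Type} [Fintype Y] (Q : Y → Y → ℝ) (r : Y → ℝ) (R : ℝ)
    (hs : ∀ a b, Q a b = Q b a) (hq : ∀ a b, 0 ≤ Q a b) (l : Y → ℝ) (l0 : ℝ)
    (h : ∀ (c : Y → ℝ) (t : ℝ), dot l c + l0 * t = 0 →
      qf Q c c + 2 * t * dot r c - t ^ 2 * R ≤ 0) : Lor Q r R := by
  intro c z t hz
  have hzz := Lo.qf_nonneg hq hz hz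
  set a := dot l z with ha
  set b := dot l c + l0 * t with hb
  by_cases ha0 : a = 0
  · have h1 := h z 0 (by rw [← ha, ha0]; ring)
    have h2 : qf Q z z = 0 := by linarith
    rw [h2, mul_zero]
    exact sq_nonneg _
  · have h1 := h (fun y => a * c y + (-b) * z y) (a * t) (by rw [Lo.dot_lin, ← ha, hb]; ring)
    rw [Lo.qf_lin hs, Lo.dot_lin] at h1
    have h2 : 0 < a ^ 2 := by positivity
    refine le_of_mul_le_mul_left ?_ h2
    have h3 := mul_le_mul_of_nonneg_right h1 hzz
    nlinarith [sq_nonneg (a * (qf Q c z + t * dot r z) - b * qf Q z z)]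

theorem Lo.lor_mix_pos {Y : Type} [Fintype Y] [DecidableEq Y] (k : ℕ) :
    ∀ (ι : Type) [Fintype ι] [DecidableEq ι], Fintype.card ι = k →
    ∀ (G0 G1 G2 : Multiset Y → ℝ), (∀ S, S.card = k + 2 → 0 < G0 S) →
    (∀ T, T.card = k → Lor (fun a b => G0 (a ::ₘ b ::ₘ T)) (fun a => G1 (a ::ₘ T)) (G2 T)) →
    ∀ v : ι → Y → ℝ, (∀ i y, 0 < v i y) →
    Lor (fun a b => mix v G0 (a ::ₘ b ::ₘ 0)) (fun a => mix v G1 (a ::ₘ 0)) (mix v G2 0) := by
  induction k with
  | zero =>
    intro ι _ _ hι G0 G1 G2 _ hL v _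
    have : IsEmpty ι := Fintype.card_eq_zero_iff.1 hι
    have e : ∀ G S, mix v G S = G S := fun G S => by simp [mix, ms]
    simp only [e]
    exact hL 0 rfl
  | succ k ih =>
    intro ι _ _ hι G0 G1 G2 h0 hL v hv
    rcases isEmpty_or_nonempty Y with hY | hY
    · intro c z t _
      simp [qf, dot]
    obtain ⟨e⟩ : Nonempty ι := Fintype.card_pos_iff.1 (by omega)
    have hJ : Fintype.card {j // j ≠ e} = k := by
      rw [Fintype.card_subtype_compl, Fintype.card_subtype_eq]; omega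
    let v' : {j // j ≠ e} → Y → ℝ := fun j => v j.1
    have hs : ∀ a b, mix v G0 (a ::ₘ b ::ₘ 0) = mix v G0 (b ::ₘ a ::ₘ 0) := fun a b => by
      rw [Multiset.cons_swap]
    have hq : ∀ a b, 0 < mix v G0 (a ::ₘ b ::ₘ 0) := fun a b =>
      Lo.mix_pos hv fun T hT => h0 T (by simpa [hι] using hT)
    refine lor_of_hyper _ _ _ hs (fun a b => (hq a b).le) _ _
      (Lo.step hs hq (hv e) _ _ fun c t => ?_)
    have IH : ∀ a, Lor (fun x y => mix v' G0 (a ::ₘ x ::ₘ y ::ₘ 0))
        (fun x => mix v' G1 (a ::ₘ x ::ₘ 0)) (mix v' G2 (a ::ₘ 0)) := by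
      intro a
      simp only [Lo.mix_cons v' _ a]
      refine ih _ hJ _ _ _ (fun S hS => h0 _ (by simp [hS])) (fun T hT => ?_) v' fun i y => hv _ y
      have := hL (a ::ₘ T) (by simp [hT])
      simp only [Multiset.cons_swap a]
      exact this
    have e0 : ∀ a (c : Y → ℝ), qf (fun x y => mix v' G0 (a ::ₘ x ::ₘ y ::ₘ 0)) c (v e)
        = ∑ b, mix v G0 (a ::ₘ b ::ₘ 0) * c b := by
      intro a c
      rw [Lo.qf_eq]
      refine sum_congr rfl fun b _ => ?_
      rw [mix_split e v G0, mul_comm]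
      congr 1
      refine sum_congr rfl fun y _ => ?_
      rw [mul_comm, Multiset.cons_swap y a, Multiset.cons_swap y b]
    have e1 : ∀ a, dot (fun x => mix v' G1 (a ::ₘ x ::ₘ 0)) (v e) = mix v G1 (a ::ₘ 0) := by
      intro a
      rw [mix_split e v G1]
      refine sum_congr rfl fun y _ => ?_
      rw [mul_comm, Multiset.cons_swap y a]
    have e2 : qf (fun a b => mix v G0 (a ::ₘ b ::ₘ 0)) c c
        + 2 * t * dot (fun a => mix v G1 (a ::ₘ 0)) c - t ^ 2 * mix v G2 0
        = ∑ a, v e a * (qf (fun x y => mix v' G0 (a ::ₘ x ::ₘ y ::ₘ 0)) c c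
          + 2 * t * dot (fun x => mix v' G1 (a ::ₘ x ::ₘ 0)) c - t ^ 2 * mix v' G2 (a ::ₘ 0)) := by
      have f1 : qf (fun a b => mix v G0 (a ::ₘ b ::ₘ 0)) c c
          = ∑ a, v e a * qf (fun x y => mix v' G0 (a ::ₘ x ::ₘ y ::ₘ 0)) c c := by
        simp only [qf, mix_split e v G0, mul_sum, sum_mul]
        rw [sum_comm (f := fun a x => ∑ y, v e a * (mix v' G0 (a ::ₘ x ::ₘ y ::ₘ 0) * c x * c y))]
        refine sum_congr rfl fun x _ => ?_
        rw [sum_comm]
        exact sum_congr rfl fun y _ => sum_congr rfl fun a _ => by ring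
      have f2 : dot (fun a => mix v G1 (a ::ₘ 0)) c
          = ∑ a, v e a * dot (fun x => mix v' G1 (a ::ₘ x ::ₘ 0)) c := by
        simp only [dot, mix_split e v G1, mul_sum, sum_mul]
        rw [sum_comm]
        exact sum_congr rfl fun x _ => sum_congr rfl fun a _ => by ring
      rw [f1, f2, mix_split e v G2, mul_sum, mul_sum, ← sum_add_distrib, ← sum_sub_distrib]
      exact sum_congr rfl fun a _ => by ring
    rw [e2]
    refine sum_le_sum fun a _ => ?_
    have h1 := IH a c (v e) t fun y => (hv e y).le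
    rw [e0, e0, e1] at h1
    have h2 : 0 < ∑ b, mix v G0 (a ::ₘ b ::ₘ 0) * v e b :=
      sum_pos (fun b _ => mul_pos (hq a b) (hv e b)) univ_nonempty
    rw [div_div_eq_mul_div, le_div_iff₀ h2, mul_assoc, mul_comm _ (v e a)]
    exact mul_le_mul_of_nonneg_left h1 (hv e a).le

/-- The signed Lorentzian theorem. -/
theorem lor_mix {Y : Type} [Fintype Y] [DecidableEq Y] (k : ℕ) :
    ∀ (ι : Type) [Fintype ι] [DecidableEq ι], Fintype.card ι = k →
    ∀ (G0 G1 G2 : Multiset Y → ℝ), (∀ S, S.card = k + 2 → 0 < G0 S) →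
    (∀ T, T.card = k → Lor (fun a b => G0 (a ::ₘ b ::ₘ T)) (fun a => G1 (a ::ₘ T)) (G2 T)) →
    ∀ v : ι → Y → ℝ, (∀ i y, 0 ≤ v i y) →
    Lor (fun a b => mix v G0 (a ::ₘ b ::ₘ 0)) (fun a => mix v G1 (a ::ₘ 0)) (mix v G2 0) := by
  intro ι _ _ hι G0 G1 G2 h0 hL v hv c z t hz
  let w : ℝ → ι → Y → ℝ := fun s i y => v i y + s
  have := Lo.nonneg_of_cont (F := fun s =>
    (qf (fun a b => mix (w s) G0 (a ::ₘ b ::ₘ 0)) c z
      + t * dot (fun a => mix (w s) G1 (a ::ₘ 0)) z) ^ 2
    - (qf (fun a b => mix (w s) G0 (a ::ₘ b ::ₘ 0)) c c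
      + 2 * t * dot (fun a => mix (w s) G1 (a ::ₘ 0)) c - t ^ 2 * mix (w s) G2 0)
      * qf (fun a b => mix (w s) G0 (a ::ₘ b ::ₘ 0)) z z)
    (by simp only [qf, dot, mix, w]; fun_prop)
    (fun s hs _ => sub_nonneg.2 (Lo.lor_mix_pos k ι hι G0 G1 G2 h0 hL (w s)
      (fun i y => add_pos_of_nonneg_of_pos (hv i y) hs) c z t hz))
  have e : w 0 = v := by funext i y; simp [w]
  rw [e] at this
  exact sub_nonneg.1 this

theorem RankFn.le_card {Y : Type} {ρ : Multiset Y → ℕ} (h : RankFn ρ) (S : Multiset Y) :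
    ρ S ≤ S.card := by
  induction S using Multiset.induction_on with
  | empty => rw [h.zero]; exact Nat.zero_le _
  | cons a S ih =>
    rw [Multiset.card_cons]
    have := h.succ a S
    omega

theorem pl_gq {Y : Type} [Fintype Y] [DecidableEq Y] {ρ : Multiset Y → ℕ} (h : RankFn ρ)
    (q : ℝ) (hq : 0 < q) (hq1 : q ≤ 1) : PL (gq ρ q) := by
  refine ⟨fun S => pow_pos hq _, fun T => ?_⟩
  let u : Y → ℝ := fun a => if ρ (a ::ₘ T) = ρ T + 1 then 1 else q
  let sim : Y → Y → Prop := fun a b =>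
    ρ (a ::ₘ T) = ρ T + 1 ∧ ρ (b ::ₘ T) = ρ T + 1 ∧ ρ (a ::ₘ b ::ₘ T) = ρ T + 1
  have hsy : ∀ a b, sim a b → sim b a := fun a b hab =>
    ⟨hab.2.1, hab.1, by rw [Multiset.cons_swap]; exact hab.2.2⟩
  have htr : ∀ a b c, sim a b → sim b c → sim a c := by
    intro a b c hab hbc
    refine ⟨hab.1, hbc.2.1, ?_⟩
    have h1 := h.sub a c (b ::ₘ T)
    have h2 := h.mono b (a ::ₘ c ::ₘ T)
    have h3 := h.mono a (c ::ₘ T)
    have h4 := hbc.2.2
    rw [Multiset.cons_swap b a, Multiset.cons_swap b c] at h2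
    rw [Multiset.cons_swap b c] at h4
    have := hab.2.2
    have := hab.2.1
    have := hbc.2.1
    omega
  have hT := h.le_card T
  have entry : ∀ a b, gq ρ q (a ::ₘ b ::ₘ T)
      = q ^ (T.card - ρ T) * (u a * u b - (1 - q) * (if sim a b then 1 else 0)) := by
    intro a b
    have a1 := h.mono a T
    have a2 := h.succ a T
    have b1 := h.mono b T
    have b2 := h.succ b T
    have c1 := h.sub a b T
    have c2 := h.mono a (b ::ₘ T)
    have c3 := h.mono b (a ::ₘ T)
    rw [Multiset.cons_swap b a] at c3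
    simp only [gq, Multiset.card_cons, u, sim]
    by_cases ha : ρ (a ::ₘ T) = ρ T + 1 <;> by_cases hb : ρ (b ::ₘ T) = ρ T + 1
    · by_cases hc : ρ (a ::ₘ b ::ₘ T) = ρ T + 1
      · rw [show T.card + 1 + 1 - ρ (a ::ₘ b ::ₘ T) = T.card - ρ T + 1 by omega]
        simp only [ha, hb, hc, and_self, if_true]; ring
      · rw [show T.card + 1 + 1 - ρ (a ::ₘ b ::ₘ T) = T.card - ρ T by omega]
        simp only [ha, hb, hc, and_false, if_true, if_false]; ring
    · rw [show T.card + 1 + 1 - ρ (a ::ₘ b ::ₘ T) = T.card - ρ T + 1 by omega]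
      simp only [ha, hb, false_and, and_false, if_true, if_false]; ring
    · rw [show T.card + 1 + 1 - ρ (a ::ₘ b ::ₘ T) = T.card - ρ T + 1 by omega]
      simp only [ha, hb, false_and, if_true, if_false]; ring
    · rw [show T.card + 1 + 1 - ρ (a ::ₘ b ::ₘ T) = T.card - ρ T + 2 by omega]
      simp only [ha, hb, false_and, if_false]; ring
  refine lor_of_hyper _ _ _ (fun a b => by rw [Multiset.cons_swap]) (fun a b => (pow_pos hq _).le)
    u 0 fun c t hc => ?_
  have e1 : qf (fun a b => gq ρ q (a ::ₘ b ::ₘ T)) c c = q ^ (T.card - ρ T)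
      * (dot u c ^ 2 - (1 - q) * ∑ a, ∑ b, (if sim a b then 1 else 0) * c a * c b) := by
    rw [dot, sq, sum_mul_sum, mul_sum, ← sum_sub_distrib, mul_sum]
    refine sum_congr rfl fun a _ => ?_
    rw [mul_sum, ← sum_sub_distrib, mul_sum]
    exact sum_congr rfl fun b _ => by beta_reduce; rw [entry]; ring
  have e2 : dot u c = 0 := by linarith
  have e3 := Lo.per_psd sim hsy htr c
  have e4 : dot (fun _ : Y => (0 : ℝ)) c = 0 := by simp [dot]
  rw [e1, e2, e4]
  have e5 : 0 ≤ q ^ (T.card - ρ T) * ((1 - q) * ∑ a, ∑ b, (if sim a b then 1 else 0) * c a * c b) :=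
    mul_nonneg (pow_pos hq _).le (mul_nonneg (by linarith) e3)
  linarith

theorem rkt_of_pl (ι : Type) {X : Type} [Fintype ι] [DecidableEq ι] [Fintype X] [DecidableEq X]
    {g : Multiset X → ℝ} (h : PL g) : RKT ι g := by
  intro v hv i j hij a b c ha hb hc
  let v' : {k : {k // k ≠ i} // k ≠ ⟨j, hij.symm⟩} → X → ℝ := fun k => v k.1.1
  let Q : X → X → ℝ := fun x y => mix v' g (x ::ₘ y ::ₘ 0)
  have hs : ∀ x y, Q x y = Q y x := fun x y => by simp only [Q]; rw [Multiset.cons_swap]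
  have hQ : ∀ x y, 0 ≤ Q x y := fun x y =>
    Lo.mix_nonneg (fun k y => hv _ y) (fun T => (h.pos T).le) _
  have hVV : ∀ a c : X → ℝ, VV g (Function.update (Function.update v i a) j c) = qf Q a c := by
    intro a c
    have e1 : VV g (Function.update (Function.update v i a) j c)
        = mix (Function.update (Function.update v i a) j c) g 0 := by
      simp only [VV, wt, mix, add_zero]
    rw [e1, mix_split i, Lo.qf_eq, Function.update_of_ne hij, Function.update_self]
    refine sum_congr rfl fun x _ => ?_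
    rw [mix_split (⟨j, hij.symm⟩ : {k // k ≠ i})]
    congr 1
    refine sum_congr rfl fun y _ => ?_
    rw [Function.update_self, mul_comm, hs]
    congr 1
    simp only [Q]
    congr 1
    funext k
    have k1 : k.1.1 ≠ j := fun hk => k.2 (Subtype.ext hk)
    rw [Function.update_of_ne k1, Function.update_of_ne k.1.2]
  have hl := lor_mix _ _ rfl g (fun _ => 0) (fun _ => 0) (fun S _ => h.pos S) (fun T _ => h.lor T)
    v' fun k y => hv _ y
  rw [hVV, hVV, hVV, hVV, Lo.qf_symm hs b c]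
  have key : ∀ s : ℝ, 0 < s → 2 * s * (qf Q a c * qf Q b b) ≤ (qf Q a b + s * qf Q c b) ^ 2 := by
    intro s hs0
    have h1 := hl (fun y => 1 * a y + s * c y) b 0 hb
    change (qf Q _ _ + _ - _) * qf Q b b ≤ (qf Q _ b + _) ^ 2 at h1
    rw [Lo.qf_lin hs, Lo.qf_lin_left] at h1
    have h2 := mul_nonneg (Lo.qf_nonneg hQ ha ha) (Lo.qf_nonneg hQ hb hb)
    have h3 := mul_nonneg (sq_nonneg s)
      (mul_nonneg (Lo.qf_nonneg hQ hc hc) (Lo.qf_nonneg hQ hb hb))
    nlinarith
  have hA := Lo.qf_nonneg hQ ha hb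
  have hB := Lo.qf_nonneg hQ hc hb
  set A := qf Q a b
  set B := qf Q c b
  set P := qf Q a c * qf Q b b
  by_contra hcon
  push Not at hcon
  have hP : 0 < P := lt_of_le_of_lt (by positivity) hcon
  rcases eq_or_lt_of_le hB with hB0 | hB0
  · have := key ((A ^ 2 + 1) / P) (by positivity)
    rw [← hB0, mul_zero, add_zero, mul_assoc, div_mul_cancel₀ _ hP.ne'] at this
    nlinarith [sq_nonneg A]
  rcases eq_or_lt_of_le hA with hA0 | hA0
  · have := key (P / B ^ 2) (by positivity)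
    rw [← hA0, zero_add, mul_pow] at this
    have e : (P / B ^ 2) ^ 2 * B ^ 2 = P / B ^ 2 * P := by field_simp
    have : 0 < P / B ^ 2 * P := by positivity
    linarith
  · have := key (A / B) (by positivity)
    rw [div_mul_cancel₀ _ hB0.ne'] at this
    have h2 := mul_lt_mul_of_pos_left hcon (by positivity : 0 < 2 * (A / B))
    have e : 2 * (A / B) * (2 * A * B) = (A + A) ^ 2 := by field_simp; ring
    linarith

theorem rkt_gq (ι : Type) {X : Type} [Fintype ι] [DecidableEq ι] [Fintype X] [DecidableEq X]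
    {ρ : Multiset X → ℕ} (h : RankFn ρ) : RKT ι (gq ρ 0) := by
  intro v hv i j hij a b c ha hb hc
  have := Lo.nonneg_of_cont (F := fun q =>
    2 * VV (gq ρ q) (Function.update (Function.update v i a) j b) *
        VV (gq ρ q) (Function.update (Function.update v i b) j c)
    - VV (gq ρ q) (Function.update (Function.update v i a) j c) *
        VV (gq ρ q) (Function.update (Function.update v i b) j b))
    (by simp only [VV, wt, gq]; fun_prop)
    (fun q hq hq1 => sub_nonneg.2 (rkt_of_pl ι (pl_gq h q hq hq1) v hv i j hij a b c ha hb hc))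
  exact sub_nonneg.1 this

end Vale.Agent.P317
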