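import Vale.Agent.P317.Defs
import Vale.Agent.P317.Basic

/-! P317: expectation semantics, deterministic execution, frames, refinement rules, time bounds. -/

namespace Vale.Agent.P317
open Finset

variable {n : ℕ}

@[simp] theorem Mem.put_apply (m : Mem) (a i x b j : ℕ) :
    m.put a i x b j = if b = a ∧ j = i then x else m b j := by
  unfold Mem.put
  by_cases hb : b = a
  · subst hb
    by_cases hj : j = i
    · subst hj; simp
    · simp [hj]
  · simp [hb]

theorem Mem.put_ne (m : Mem) {a b : ℕ} (i x : ℕ) (h : b ≠ a) : m.put a i x b = m b := by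
  funext j; simp [h]

/-- Loop on expectation transformers. -/
noncomputable def exLoop (c : Expr) (body : (Mem → ℝ) → Mem → ℝ) (φ : Mem → ℝ) : ℕ → Mem → ℝ
  | 0, m => φ m
  | k + 1, m => if c.val m = 0 then φ m else body (exLoop c body φ k) m

open Classical in
/-- Expected value of `φ` of the final memory. -/
noncomputable def ex (O : Bool → Set (Fin n) → Prop) : Prog → (Mem → ℝ) → Mem → ℝ
  | .set a i e, φ, m => φ (m.put a (i.val m) (e.val m))
  | .coin a i, φ, m => (φ (m.put a (i.val m) 0) + φ (m.put a (i.val m) 1)) / 2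
  | .ask w b a i, φ, m => φ (m.put a (i.val m) (if O w {x : Fin n | m b x.val ≠ 0} then 1 else 0))
  | .seq p q, φ, m => ex O p (ex O q φ) m
  | .ite c p q, φ, m => if c.val m = 0 then ex O q φ m else ex O p φ m
  | .loop k c p, φ, m => exLoop c (ex O p) φ (k.val m) m

/-- Deterministic loop. -/
def execLoop (c : Expr) (body : Mem → Mem) : ℕ → Mem → Mem
  | 0, m => m
  | k + 1, m => if c.val m = 0 then m else execLoop c body k (body m)

open Classical in
/-- Deterministic execution (coins read as zero; only used for coin-free programs). -/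
noncomputable def exec (O : Bool → Set (Fin n) → Prop) : Prog → Mem → Mem
  | .set a i e, m => m.put a (i.val m) (e.val m)
  | .coin a i, m => m.put a (i.val m) 0
  | .ask w b a i, m => m.put a (i.val m) (if O w {x : Fin n | m b x.val ≠ 0} then 1 else 0)
  | .seq p q, m => exec O q (exec O p m)
  | .ite c p q, m => if c.val m = 0 then exec O q m else exec O p m
  | .loop k c p, m => execLoop c (exec O p) (k.val m) m

/-- No coin instruction. -/
def Prog.det : Prog → Bool
  | .set _ _ _ => true
  | .coin _ _ => false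
  | .ask _ _ _ _ => true
  | .seq p q => p.det && q.det
  | .ite _ p q => p.det && q.det
  | .loop _ _ p => p.det

/-- Arrays that a program may write. -/
def Prog.wr : Prog → List ℕ
  | .set a _ _ => [a]
  | .coin a _ => [a]
  | .ask _ _ a _ => [a]
  | .seq p q => p.wr ++ q.wr
  | .ite _ p q => p.wr ++ q.wr
  | .loop _ _ p => p.wr

/-- Two memories agree outside the arrays in `W`. -/
def Agree (W : List ℕ) (m m' : Mem) : Prop := ∀ a, a ∉ W → m' a = m a

theorem Agree.refl (W : List ℕ) (m : Mem) : Agree W m m := fun _ _ => rfl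

theorem Agree.trans {W : List ℕ} {m m' m'' : Mem} (h : Agree W m m') (h' : Agree W m' m'') :
    Agree W m m'' := fun a ha => (h' a ha).trans (h a ha)

theorem Agree.mono {W W' : List ℕ} {m m' : Mem} (h : Agree W m m') (hW : ∀ a ∈ W, a ∈ W') :
    Agree W' m m' := fun a ha => h a (fun h' => ha (hW a h'))

theorem agree_put (m : Mem) (a i x : ℕ) : Agree [a] m (m.put a i x) := fun b hb =>
  m.put_ne i x (by simpa using hb)

theorem exLoop_det (c : Expr) (B : (Mem → ℝ) → Mem → ℝ) (b : Mem → Mem)
    (h : ∀ φ m, B φ m = φ (b m)) (φ : Mem → ℝ) (k : ℕ) :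
    ∀ m, exLoop c B φ k m = φ (execLoop c b k m) := by
  induction k with
  | zero => intro m; rfl
  | succ k ih =>
    intro m
    simp only [exLoop, execLoop]
    split_ifs
    · rfl
    · rw [h, ih]

theorem ex_det (O : Bool → Set (Fin n) → Prop) (p : Prog) (hp : p.det = true) :
    ∀ φ m, ex O p φ m = φ (exec O p m) := by
  induction p with
  | set a i e => intro φ m; rfl
  | coin a i => simp [Prog.det] at hp
  | ask w b a i => intro φ m; rfl
  | seq p q ihp ihq =>
    simp only [Prog.det, Bool.and_eq_true] at hp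
    intro φ m
    simp only [ex, exec]
    rw [ihp hp.1, ihq hp.2]
  | ite c p q ihp ihq =>
    simp only [Prog.det, Bool.and_eq_true] at hp
    intro φ m
    simp only [ex, exec]
    split_ifs
    · exact ihq hp.2 φ m
    · exact ihp hp.1 φ m
  | loop k c p ih =>
    intro φ m
    simp only [ex, exec]
    exact exLoop_det c _ _ (ih hp) φ _ m

theorem execLoop_agree (c : Expr) (b : Mem → Mem) (W : List ℕ) (h : ∀ m, Agree W m (b m))
    (k : ℕ) : ∀ m, Agree W m (execLoop c b k m) := by
  induction k with
  | zero => intro m; exact Agree.refl _ _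
  | succ k ih =>
    intro m
    simp only [execLoop]
    split_ifs
    · exact Agree.refl _ _
    · exact (h m).trans (ih _)

theorem exec_agree (O : Bool → Set (Fin n) → Prop) (p : Prog) :
    ∀ m, Agree p.wr m (exec O p m) := by
  induction p with
  | set a i e => intro m; exact agree_put _ _ _ _
  | coin a i => intro m; exact agree_put _ _ _ _
  | ask w b a i => intro m; exact agree_put _ _ _ _
  | seq p q ihp ihq =>
    intro m
    exact ((ihp m).mono (by simp +contextual [Prog.wr])).trans
      ((ihq _).mono (by simp +contextual [Prog.wr]))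
  | ite c p q ihp ihq =>
    intro m
    simp only [exec]
    split_ifs
    · exact (ihq m).mono (by simp +contextual [Prog.wr])
    · exact (ihp m).mono (by simp +contextual [Prog.wr])
  | loop k c p ih => intro m; exact execLoop_agree c _ _ ih _ m

theorem exec_frame (O : Bool → Set (Fin n) → Prop) (p : Prog) (m : Mem) (a : ℕ)
    (ha : a ∉ p.wr) : exec O p m a = m a := exec_agree O p m a ha

theorem exec_ite_ne (O : Bool → Set (Fin n) → Prop) {c : Expr} (p q : Prog) {m : Mem}
    (h : c.val m ≠ 0) : exec O (.ite c p q) m = exec O p m := by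
  simp only [exec, if_neg h]

theorem exec_ite_zero (O : Bool → Set (Fin n) → Prop) {c : Expr} (p q : Prog) {m : Mem}
    (h : c.val m = 0) : exec O (.ite c p q) m = exec O q m := by
  simp only [exec, if_pos h]

theorem exec_seq (O : Bool → Set (Fin n) → Prop) (p q : Prog) (m : Mem) :
    exec O (.seq p q) m = exec O q (exec O p m) := rfl

theorem exec_set (O : Bool → Set (Fin n) → Prop) (a : ℕ) (i e : Expr) (m : Mem) :
    exec O (.set a i e) m = m.put a (i.val m) (e.val m) := rfl

/-- Invariant rule for deterministic loops whose guard is the constant 1. -/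
theorem execLoop_inv (b : Mem → Mem) (I : ℕ → Mem → Prop) (k : ℕ)
    (h : ∀ i < k, ∀ m, I i m → I (i + 1) (b m)) (m : Mem) (h0 : I 0 m) :
    I k (execLoop (.lit 1) b k m) := by
  have key : ∀ j i, i + j = k → ∀ m, I i m → I k (execLoop (.lit 1) b j m) := by
    intro j
    induction j with
    | zero => intro i hi m hm; simp only [Nat.add_zero] at hi; subst hi; exact hm
    | succ j ih =>
      intro i hi m hm
      simp only [execLoop, Expr.val, one_ne_zero, if_false]
      exact ih (i + 1) (by omega) _ (h i (by omega) m hm)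
  exact key k 0 (by omega) m h0

/-- Invariant rule for guarded deterministic loops: the loop stops after `i` rounds, where
either `i = k` or the guard is zero. -/
theorem execLoop_guard (c : Expr) (b : Mem → Mem) (I : ℕ → Mem → Prop) (k : ℕ)
    (h : ∀ i < k, ∀ m, I i m → c.val m ≠ 0 → I (i + 1) (b m)) (m : Mem) (h0 : I 0 m) :
    ∃ i ≤ k, I i (execLoop c b k m) ∧ (i = k ∨ c.val (execLoop c b k m) = 0) := by
  have key : ∀ j i, i + j = k → ∀ m, I i m →
      ∃ i' ≤ k, I i' (execLoop c b j m) ∧ (i' = k ∨ c.val (execLoop c b j m) = 0) := by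
    intro j
    induction j with
    | zero => intro i hi m hm; exact ⟨i, by omega, hm, Or.inl (by omega)⟩
    | succ j ih =>
      intro i hi m hm
      simp only [execLoop]
      split_ifs with hc
      · exact ⟨i, by omega, hm, Or.inr hc⟩
      · exact ih (i + 1) (by omega) _ (h i (by omega) m hm hc)
  exact key k 0 (by omega) m h0

/-- Refinement: started in a memory representing `a`, the program `p` only writes arrays in `W`,
ends in memories representing abstract states, and has the abstract law `T`. -/
def Impl {A B : Type} (O : Bool → Set (Fin n) → Prop) (W : List ℕ) (p : Prog)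
    (RA : A → Mem → Prop) (RB : B → Mem → Prop) (T : (B → ℝ) → A → ℝ) : Prop :=
  ∀ a m, RA a m → ∀ (φ : Mem → ℝ) (ψ : B → ℝ),
    (∀ b m', RB b m' → Agree W m m' → φ m' = ψ b) → ex O p φ m = T ψ a

theorem Impl.det {A B : Type} {O : Bool → Set (Fin n) → Prop} {W : List ℕ} {p : Prog}
    {RA : A → Mem → Prop} {RB : B → Mem → Prop} (F : A → B) (hp : p.det = true)
    (hW : ∀ a ∈ p.wr, a ∈ W) (h : ∀ a m, RA a m → RB (F a) (exec O p m)) :
    Impl O W p RA RB (fun ψ a => ψ (F a)) := by
  intro a m ha φ ψ hφ
  rw [ex_det O p hp]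
  exact hφ _ _ (h a m ha) ((exec_agree O p m).mono hW)

theorem Impl.seq {A B C : Type} {O : Bool → Set (Fin n) → Prop} {W : List ℕ} {p q : Prog}
    {RA : A → Mem → Prop} {RB : B → Mem → Prop} {RC : C → Mem → Prop}
    {T : (B → ℝ) → A → ℝ} {U : (C → ℝ) → B → ℝ}
    (hp : Impl O W p RA RB T) (hq : Impl O W q RB RC U) :
    Impl O W (.seq p q) RA RC (fun ψ => T (U ψ)) := by
  intro a m ha φ ψ hφ
  simp only [ex]
  refine hp a m ha _ _ ?_
  intro b m' hb hm'
  exact hq b m' hb φ ψ (fun c m'' hc hm'' => hφ c m'' hc (hm'.trans hm''))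

theorem Impl.mono {A B : Type} {O : Bool → Set (Fin n) → Prop} {W W' : List ℕ} {p : Prog}
    {RA : A → Mem → Prop} {RB : B → Mem → Prop} {T : (B → ℝ) → A → ℝ}
    (hp : Impl O W p RA RB T) (hW : ∀ a ∈ W, a ∈ W') : Impl O W' p RA RB T :=
  fun a m ha φ ψ hφ => hp a m ha φ ψ (fun b m' hb hm' => hφ b m' hb (hm'.mono hW))

/-- General consequence rule, including frames and changes of the abstract state. -/
theorem Impl.conseq {A B A' B' : Type} {O : Bool → Set (Fin n) → Prop} {W W' : List ℕ} {p : Prog}
    {RA' : A' → Mem → Prop} {RB' : B' → Mem → Prop} {T' : (B' → ℝ) → A' → ℝ}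
    (hW : ∀ a ∈ W, a ∈ W')
    (RA : A' → A → Mem → Prop) (RB : A' → B → Mem → Prop) (T : A' → (B → ℝ) → A → ℝ)
    (hp : ∀ a', Impl O W p (RA a') (RB a') (T a'))
    (f : A' → A) (g : A' → B → B')
    (h1 : ∀ a' m, RA' a' m → RA a' (f a') m)
    (h2 : ∀ a' m b m', RA' a' m → RB a' b m' → Agree W m m' → RB' (g a' b) m')
    (h3 : ∀ ψ a', T' ψ a' = T a' (fun b => ψ (g a' b)) (f a')) :
    Impl O W' p RA' RB' T' := by
  intro a' m ha φ ψ hφ
  rw [h3]
  exact hp a' (f a') m (h1 a' m ha) φ _
    (fun b m' hb hm' => hφ _ m' (h2 a' m b m' ha hb hm') (hm'.mono hW))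

theorem Impl.loop {A : Type} {O : Bool → Set (Fin n) → Prop} {W : List ℕ} {p : Prog}
    (e : Expr) (k : ℕ) (R : ℕ → A → Mem → Prop) {T : (A → ℝ) → A → ℝ}
    (he : ∀ a m, R 0 a m → e.val m = k)
    (hp : ∀ i < k, Impl O W p (R i) (R (i + 1)) T) :
    Impl O W (.loop e (.lit 1) p) (R 0) (R k) (fun ψ => T^[k] ψ) := by
  have key : ∀ j i, i + j = k → ∀ a m, R i a m → ∀ (φ : Mem → ℝ) (ψ : A → ℝ),
      (∀ b m', R k b m' → Agree W m m' → φ m' = ψ b) →
      exLoop (.lit 1) (ex O p) φ j m = T^[j] ψ a := by
    intro j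
    induction j with
    | zero =>
      intro i hi a m ha φ ψ hφ
      simp only [Nat.add_zero] at hi; subst hi
      exact hφ a m ha (Agree.refl _ _)
    | succ j ih =>
      intro i hi a m ha φ ψ hφ
      simp only [exLoop, Expr.val, one_ne_zero, if_false]
      rw [Function.iterate_succ_apply']
      refine hp i (by omega) a m ha _ _ ?_
      intro b m' hb hm'
      exact ih (i + 1) (by omega) b m' hb φ ψ (fun c m'' hc hm'' => hφ c m'' hc (hm'.trans hm''))
  intro a m ha φ ψ hφ
  simp only [ex]
  rw [he a m ha]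
  exact key k 0 (by omega) a m ha φ ψ hφ

end Vale.Agent.P317
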