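import Vale.Agent.P317.Stage2

/-! P317 task F: one annealing stage and the whole abstract algorithm. -/

namespace Vale.Agent.P317
open Finset

variable {n : ℕ}

theorem trig_num (P x Pj P0 o Z : ℝ) (hP : 2048 ≤ P) (hZ : 0 < Z) (h0 : 1 / 2 ≤ P0) (h1 : P0 ≤ 1)
    (ho : 0 ≤ o) (e : P ^ 3 * Pj * Z = P0 * o) (a : |x - Pj| ≤ 1 / P ^ 5) :
    (32 / P ^ 2 ≤ x → 16 * P * Z ≤ o) ∧ (x ≤ 32 / P ^ 2 → o ≤ 96 * P * Z) := by
  obtain ⟨b1, b2⟩ := abs_le.1 a
  have hP0 : 0 < P := by linarith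
  have c1 : P ^ 3 * (32 / P ^ 2) = 32 * P := by field_simp
  have c2 : P ^ 3 * (1 / P ^ 5) ≤ 16 * P := by
    have : P ^ 3 * (1 / P ^ 5) = 1 / P ^ 2 := by field_simp
    rw [this]
    have : 1 / P ^ 2 ≤ 1 := by
      rw [div_le_one (by positivity)]; exact one_le_pow₀ (by linarith)
    linarith
  have h3 : 0 ≤ P ^ 3 := by positivity
  constructor
  · intro hx
    have d1 : 32 / P ^ 2 - 1 / P ^ 5 ≤ Pj := by linarith
    have d2 := mul_le_mul_of_nonneg_left d1 h3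
    have d3 : 16 * P ≤ P ^ 3 * Pj := by linarith
    have d4 := mul_le_mul_of_nonneg_right d3 hZ.le
    have d5 : P0 * o ≤ 1 * o := mul_le_mul_of_nonneg_right h1 ho
    linarith
  · intro hx
    have d1 : Pj ≤ 32 / P ^ 2 + 1 / P ^ 5 := by linarith
    have d2 := mul_le_mul_of_nonneg_left d1 h3
    have d3 : P ^ 3 * Pj ≤ 48 * P := by linarith
    have d4 := mul_le_mul_of_nonneg_right d3 hZ.le
    have d5 : 1 / 2 * o ≤ P0 * o := mul_le_mul_of_nonneg_right h0 ho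
    linarith

/-- Deterministic part of a stage: accurate counters give a good next state. -/
theorem good_upd (M₁ M₂ : Matroid (Fin n)) (h₁ : M₁.E = Set.univ) (h₂ : M₂.E = Set.univ)
    (L p u : ℕ) (hL : n + 2048 ≤ 2 ^ L) (hp : p < n) (hu : u < 2 * pB L) (s : St n)
    (hs : Good M₁ M₂ L p u s) (c : Cnt n)
    (h0 : |(c.c0 : ℝ) / pK L -
        (∑ σ, WM M₁ M₂ L s.w σ * if offs σ = 0 then 1 else 0) / (∑ σ, WM M₁ M₂ L s.w σ)| ≤
      1 / ((2 : ℝ) ^ L) ^ 5)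
    (h1 : |(c.c1 : ℝ) / pK L -
        (∑ σ, WM M₁ M₂ L s.w σ *
          if offs σ = 0 ∧ ∀ j : Fin n, j.val = p → (σ j).1 ≠ 2 then 1 else 0) /
            (∑ σ, WM M₁ M₂ L s.w σ)| ≤ 1 / ((2 : ℝ) ^ L) ^ 5)
    (hn : ∀ j, |(c.cn j : ℝ) / pK L -
        (∑ σ, WM M₁ M₂ L s.w σ * if offs σ = 1 ∧ (σ j).2 ≠ j then 1 else 0) /
          (∑ σ, WM M₁ M₂ L s.w σ)| ≤ 1 / ((2 : ℝ) ^ L) ^ 5) :
    Good M₁ M₂ L p (u + 1) (updSt L p s c) := by
  classical
  obtain ⟨⟨t, ht, htb⟩, hbal, hden, hlo, hup⟩ := hs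
  have hLr : (n : ℝ) + 2048 ≤ 2 ^ L := by exact_mod_cast hL
  have hn0 : (0 : ℝ) ≤ n := Nat.cast_nonneg _
  have hH : (2 : ℝ) ^ pH L = ((2 : ℝ) ^ L) ^ 3 := by unfold pH; rw [← pow_mul, mul_comm]
  have hW := WM_nonneg M₁ M₂ h₁ h₂ L s.w
  have hZt := WM_sum_pos M₁ M₂ h₁ h₂ L s.w
  have hZ := Z0_pos M₁ M₂ h₁ h₂ s.w
  have htot := total_le M₁ M₂ h₁ h₂ L hL s.w hbal
  have hc0 := class0_sum M₁ M₂ L s.w
  have hind : ∀ (q : (Fin n → XX n) → Prop) [DecidablePred q],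
      0 ≤ (∑ σ, WM M₁ M₂ L s.w σ * if q σ then 1 else 0) / (∑ σ, WM M₁ M₂ L s.w σ) ∧
      (∑ σ, WM M₁ M₂ L s.w σ * if q σ then 1 else 0) / (∑ σ, WM M₁ M₂ L s.w σ) ≤ 1 := by
    intro q _
    refine ⟨div_nonneg (sum_nonneg fun σ _ => mul_nonneg (hW σ) (by split_ifs <;> norm_num))
      hZt.le, (div_le_one hZt).2 (sum_le_sum fun σ _ => ?_)⟩
    split_ifs
    · rw [mul_one]
    · rw [mul_zero]; exact hW σ
  have hP0 := hind (fun σ => offs σ = 0)
  have hP1 := hind (fun σ => offs σ = 0 ∧ ∀ j : Fin n, j.val = p → (σ j).1 ≠ 2)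
  have hhalf := half_sum M₁ M₂ L s.w (fun y => t y.2 + act L p (u + 1) y) p hp
    (fun y => by rw [ht, act_succ L p u hu y, add_assoc])
  rw [Z0_gauge M₁ M₂ _ (act L p (u + 1)) t (fun _ => rfl)] at hhalf
  have hg := Z0_gauge M₁ M₂ s.w (act L p u) t ht
  have hP0' : 1 / 2 ≤ (∑ σ, WM M₁ M₂ L s.w σ * if offs σ = 0 then 1 else 0) /
      (∑ σ, WM M₁ M₂ L s.w σ) := by
    rw [le_div_iff₀ hZt, hc0]; linarith
  have hK : (pK L : ℝ) = ((2 : ℝ) ^ L) ^ 14 := by unfold pK; push_cast; rfl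
  have hK0 : (0 : ℝ) < pK L := by rw [hK]; positivity
  have hα : 1 / ((2 : ℝ) ^ L) ^ 5 ≤ 1 / 100 := by
    refine one_div_le_one_div_of_le (by norm_num) ?_
    exact le_trans (by linarith) (le_self_pow₀ (by linarith) (by norm_num))
  have hrat := ratio_num _ _ _ _ _ hP0' hP1.1 (by positivity) hα h0 h1
  obtain ⟨b1, b2⟩ := abs_le.1 h0
  obtain ⟨b3, b4⟩ := abs_le.1 h1
  have k0 : c.c0 ≤ 2 * pK L := by
    have : (c.c0 : ℝ) / pK L ≤ 2 := by linarith [hP0.2]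
    rw [div_le_iff₀ hK0] at this
    exact_mod_cast this
  have k1 : c.c1 ≤ 2 * pK L := by
    have : (c.c1 : ℝ) / pK L ≤ 2 := by linarith [hP1.2]
    rw [div_le_iff₀ hK0] at this
    exact_mod_cast this
  have k2 : 0 < c.c0 := by
    have : 0 < (c.c0 : ℝ) / pK L := by linarith
    have := (div_pos_iff_of_pos_right hK0).1 this
    exact_mod_cast this
  have m1 : min (c.c0 + c.c1) (4 * pK L) = c.c0 + c.c1 := min_eq_left (by omega)
  have m2 : min (c.c0 + c.c0) (4 * pK L) = c.c0 + c.c0 := min_eq_left (by omega)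
  have hZa := Z0_pos M₁ M₂ h₁ h₂ (act L p u)
  have hZa' := Z0_pos M₁ M₂ h₁ h₂ (act L p (u + 1))
  have hγ : pγ L = 10 * (1 / ((2 : ℝ) ^ L) ^ 5) := by unfold pγ; ring
  have hγ0 : 0 ≤ pγ L := by rw [hγ]; positivity
  have hγ1 : pγ L ≤ 1 := by rw [hγ]; linarith
  have key : (1 - pγ L) * Z0 M₁ M₂ (act L p (u + 1)) * (c.c0 + c.c0) ≤
        (c.c0 + c.c1) * Z0 M₁ M₂ (act L p u) ∧
      (c.c0 + c.c1) * Z0 M₁ M₂ (act L p u) ≤
        (1 + pγ L) * Z0 M₁ M₂ (act L p (u + 1)) * (c.c0 + c.c0) := by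
    rw [← add_div, ← hhalf, hc0, hg, ← hγ] at hrat
    set A := ((2 : ℝ) ^ pH L) ^ n * (∏ j, (2 : ℝ) ^ t j) / (∑ σ, WM M₁ M₂ L s.w σ) / pK L with hA
    have hA0 : 0 < A := by rw [hA]; positivity
    obtain ⟨r1, r2⟩ := hrat
    constructor
    · refine le_of_mul_le_mul_left ?_ hA0
      refine le_of_eq_of_le ?_ (r1.trans (le_of_eq ?_)) <;> (rw [hA]; ring)
    · refine le_of_mul_le_mul_left ?_ hA0
      refine le_of_eq_of_le ?_ (r2.trans (le_of_eq ?_)) <;> (rw [hA]; ring)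
  refine ⟨⟨fun j => t j + if pK1 L ≤ c.cn j then 2 else 0, fun y => ?_, fun j => ?_⟩,
    ?_, ?_, ?_, ?_⟩
  · simp only [updSt]
    rw [ht, act_succ L p u hu y]
    omega
  · have := htb j
    beta_reduce
    split_ifs <;> omega
  · intro j
    have htr : ∀ i, (32 / ((2 : ℝ) ^ L) ^ 2 ≤ (c.cn i : ℝ) / pK L →
          16 * (2 : ℝ) ^ L * Z0 M₁ M₂ s.w ≤ offM M₁ M₂ s.w i) ∧
        ((c.cn i : ℝ) / pK L ≤ 32 / ((2 : ℝ) ^ L) ^ 2 →
          offM M₁ M₂ s.w i ≤ 96 * (2 : ℝ) ^ L * Z0 M₁ M₂ s.w) := by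
      intro i
      have e := classj_sum M₁ M₂ L s.w i
      have hi := hind (fun σ => offs σ = 1 ∧ (σ i).2 ≠ i)
      have ho : 0 ≤ offM M₁ M₂ s.w i := by
        have h3 : 0 ≤ (2 : ℝ) ^ pH L *
            (∑ σ, WM M₁ M₂ L s.w σ * if offs σ = 1 ∧ (σ i).2 ≠ i then 1 else 0) :=
          mul_nonneg (by positivity)
            (sum_nonneg fun σ _ => mul_nonneg (hW σ) (by split_ifs <;> norm_num))
        rw [e] at h3
        exact nonneg_of_mul_nonneg_right h3 (by positivity)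
      refine trig_num _ _ _ _ _ _ (by linarith) hZ hP0' hP0.2 ho ?_ (hn i)
      rw [hc0, ← hH, mul_div_assoc', e]
      ring
    have hK1 : (pK1 L : ℝ) / pK L = 32 / ((2 : ℝ) ^ L) ^ 2 := by
      rw [hK]; unfold pK1; push_cast; field_simp
    have hreb := rebalance (gM_nonneg M₁ M₂) (rkt_gq (Fin n) (rankFn_rhoM M₁ M₂)) Prod.snd
      (fun y => (2 : ℝ) ^ s.w y) (fun y => by positivity) hZ ((2 : ℝ) ^ L)
      (by rw [Fintype.card_fin]; linarith) (by linarith) (univ.filter fun i => pK1 L ≤ c.cn i)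
      hbal
      (fun i hi => (htr i).1 (by
        rw [← hK1]
        have : pK1 L ≤ c.cn i := by simpa using hi
        gcongr))
      (fun i hi => (htr i).2 (by
        rw [← hK1]
        have : c.cn i ≤ pK1 L := by
          have : ¬ pK1 L ≤ c.cn i := by simpa using hi
          omega
        gcongr)) j
    have e4 : (fun y : XX n => if y.2 ∈ (univ.filter fun i => pK1 L ≤ c.cn i) then
        4 * (2 : ℝ) ^ s.w y else 2 ^ s.w y) =
        fun y => (2 : ℝ) ^ (s.w y + if pK1 L ≤ c.cn y.2 then 2 else 0) := by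
      funext y
      by_cases h : pK1 L ≤ c.cn y.2
      · simp [h, pow_add]; ring
      · simp [h]
    rw [e4] at hreb
    have han := anneal (gM_nonneg M₁ M₂) Prod.snd
      (fun y => (2 : ℝ) ^ (s.w y + if pK1 L ≤ c.cn y.2 then 2 else 0))
      (fun y => (2 : ℝ) ^ (updSt L p s c).w y) (fun y => by positivity) ⟨p, hp⟩
      (fun y => pow_le_pow_right₀ (by norm_num) (Nat.sub_le _ _))
      (fun y => by
        rw [← pow_succ']
        refine pow_le_pow_right₀ (by norm_num) ?_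
        simp only [updSt]
        split_ifs <;> omega)
      (fun y hy => by
        have : y.2.val ≠ p := fun hh => hy (Fin.ext hh)
        simp [updSt, this])
    have := han.2 j
    have h5 := mul_le_mul_of_nonneg_left han.1 (show 0 ≤ 160 * (2 : ℝ) ^ L by positivity)
    unfold offM Z0
    linarith
  · simp only [updSt, m2]
    exact Nat.mul_pos hden (by omega)
  · simp only [updSt, m1, m2]
    push_cast
    rw [← add_assoc, pow_succ]
    have q0 : 0 ≤ (1 - pγ L) ^ (p * (2 * pB L) + u) * 2 ^ (pB L * n) * (s.den : ℝ) :=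
      mul_nonneg (mul_nonneg (pow_nonneg (by linarith) _) (by positivity)) (by positivity)
    have q1 := mul_le_mul_of_nonneg_left key.1 q0
    have q2 := mul_le_mul_of_nonneg_right hlo (show (0 : ℝ) ≤ c.c0 + c.c1 by positivity)
    linarith
  · simp only [updSt, m1, m2]
    push_cast
    rw [← add_assoc, pow_succ]
    have q0 : 0 ≤ (1 + pγ L) ^ (p * (2 * pB L) + u) * 2 ^ (pB L * n) * (s.den : ℝ) := by
      positivity
    have q1 := mul_le_mul_of_nonneg_left key.2 q0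
    have q2 := mul_le_mul_of_nonneg_right hup (show (0 : ℝ) ≤ c.c0 + c.c1 by positivity)
    linarith

open Classical in
/-- One counter is accurate with high probability. -/
theorem counter_fail (M₁ M₂ : Matroid (Fin n)) (h₁ : M₁.E = Set.univ) (h₂ : M₂.E = Set.univ)
    (L p : ℕ) (hL : n + 2048 ≤ 2 ^ L) (w : XX n → ℕ) (hw : ∀ y, w y ≤ 13 * (2 ^ L) ^ 2)
    (χ : Cnt n → ℕ) (q : (Fin n → XX n) → Prop) [DecidablePred q]
    (hχ : ∀ c σ, χ (count p c σ) = χ c + if q σ then 1 else 0) (h0 : χ ⟨0, 0, fun _ => 0⟩ = 0) :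
    (sampleOp M₁ M₂ L p w)^[pK L] (fun c => if |(χ c : ℝ) / pK L -
        (∑ σ, WM M₁ M₂ L w σ * if q σ then 1 else 0) / (∑ σ, WM M₁ M₂ L w σ)| ≤
          1 / ((2 : ℝ) ^ L) ^ 5 then 0 else 1) ⟨0, 0, fun _ => 0⟩ ≤
      2 * Real.exp (-(((2 : ℝ) ^ L) ^ 4 / 16)) := by
  have hM := (markov_step M₁ M₂ L (by omega) w).iterate (pT L)
  have hS := markov_sampleOp M₁ M₂ L p (by omega) w
  have hb := sample_bias M₁ M₂ h₁ h₂ L hL w hw (fun σ => if q σ then 1 else 0)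
    (fun σ => by split_ifs <;> norm_num) (fun σ => by split_ifs <;> norm_num)
  set pr := (stepG (pθ L) (accM M₁ M₂ L w))^[pT L] (fun σ => if q σ then (1 : ℝ) else 0) (sig0 n)
    with hpr
  have p0 : 0 ≤ pr := by
    have := hM.mono (fun _ => 0) (fun σ => if q σ then (1 : ℝ) else 0)
      (fun σ => by split_ifs <;> norm_num) (sig0 n)
    rwa [hM.const] at this
  have p1 : pr ≤ 1 := by
    have := hM.mono (fun σ => if q σ then (1 : ℝ) else 0) (fun _ => 1)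
      (fun σ => by split_ifs <;> norm_num) (sig0 n)
    rwa [hM.const] at this
  have hP1 : (1 : ℝ) ≤ 2 ^ L := one_le_pow₀ (by norm_num)
  have hK : (pK L : ℝ) = ((2 : ℝ) ^ L) ^ 14 := by unfold pK; push_cast; rfl
  have hK0 : (0 : ℝ) < pK L := by rw [hK]; positivity
  have hc := chernoff hS χ pr p0 p1 (by
      intro ψ c
      have e : (fun σ => ψ (χ (count p c σ))) =
          fun σ => ψ (χ c) + (ψ (χ c + 1) - ψ (χ c)) * if q σ then (1 : ℝ) else 0 := by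
        funext σ; rw [hχ]; split_ifs <;> simp
      unfold sampleOp
      rw [e]
      have a := hM.add (fun _ => ψ (χ c))
        (fun σ => (ψ (χ c + 1) - ψ (χ c)) * if q σ then (1 : ℝ) else 0) (sig0 n)
      have b := hM.smul (ψ (χ c + 1) - ψ (χ c)) (fun σ => if q σ then (1 : ℝ) else 0) (sig0 n)
      have d := hM.const (ψ (χ c)) (sig0 n)
      rw [a, b, d, ← hpr]; ring)
    ⟨0, 0, fun _ => 0⟩ h0 (pK L) (1 / (2 * ((2 : ℝ) ^ L) ^ 5)) (by positivity) (by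
      rw [div_le_one (by positivity)]
      have : (1 : ℝ) ≤ ((2 : ℝ) ^ L) ^ 5 := one_le_pow₀ hP1
      linarith)
  have e : (pK L : ℝ) * (1 / (2 * ((2 : ℝ) ^ L) ^ 5)) ^ 2 / 4 = ((2 : ℝ) ^ L) ^ 4 / 16 := by
    rw [hK]; field_simp; norm_num
  rw [e] at hc
  refine le_trans ((hS.iterate (pK L)).mono _ _ (fun c => ?_) _) hc
  split_ifs with a1 a2 a2
  · norm_num
  · norm_num
  · norm_num
  · exfalso
    apply a1
    have a3 : |(χ c : ℝ) / pK L - pr| ≤ 1 / (2 * ((2 : ℝ) ^ L) ^ 5) := by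
      have : (χ c : ℝ) / pK L - pr = ((χ c : ℝ) - pr * pK L) / pK L := by field_simp
      rw [this, abs_div, abs_of_pos hK0, div_le_iff₀ hK0]
      exact not_lt.1 a2
    have a4 : 1 / ((2 : ℝ) ^ L) ^ 5 = 1 / (2 * ((2 : ℝ) ^ L) ^ 5) + 1 / (2 * ((2 : ℝ) ^ L) ^ 5) := by
      field_simp; norm_num
    rw [a4]
    exact (abs_sub_le _ pr _).trans (add_le_add a3 hb)

open Classical in
theorem stage_fail (M₁ M₂ : Matroid (Fin n)) (h₁ : M₁.E = Set.univ) (h₂ : M₂.E = Set.univ)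
    (L p u : ℕ) (hL : n + 2048 ≤ 2 ^ L) (hp : p < n) (hu : u < 2 * pB L) (s : St n)
    (hs : Good M₁ M₂ L p u s) :
    stageOp M₁ M₂ L p (fun s' => if Good M₁ M₂ L p (u + 1) s' then 0 else 1) s ≤
      2 * ((n : ℝ) + 2) * Real.exp (-(((2 : ℝ) ^ L) ^ 4 / 16)) := by
  have hw : ∀ y, s.w y ≤ 13 * (2 ^ L) ^ 2 := by
    obtain ⟨t, ht, htb⟩ := hs.gauge
    intro y
    have a1 := htb y.2
    have a2 : act L p u y ≤ 2 * pB L := by unfold act; split_ifs <;> omega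
    rw [ht]
    unfold pB at *
    generalize 2 ^ L = P at *
    have a3 : (p + 1) * (2 * (2 * P)) ≤ P * (2 * (2 * P)) := Nat.mul_le_mul_right _ (by omega)
    nlinarith
  have hS := (markov_sampleOp M₁ M₂ L p (by omega) s.w).iterate (pK L)
  have f0 := counter_fail M₁ M₂ h₁ h₂ L p hL s.w hw (fun c => c.c0) (fun σ => offs σ = 0)
    (fun _ _ => rfl) rfl
  have f1 := counter_fail M₁ M₂ h₁ h₂ L p hL s.w hw (fun c => c.c1)
    (fun σ => offs σ = 0 ∧ ∀ j : Fin n, j.val = p → (σ j).1 ≠ 2) (fun _ _ => rfl) rfl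
  have fn := fun j => counter_fail M₁ M₂ h₁ h₂ L p hL s.w hw (fun c => c.cn j)
    (fun σ => offs σ = 1 ∧ (σ j).2 ≠ j) (fun _ _ => rfl) rfl
  have fs := sum_le_sum fun j (_ : j ∈ (univ : Finset (Fin n))) => fn j
  rw [← hS.sum, sum_const, card_univ, Fintype.card_fin, nsmul_eq_mul] at fs
  have tot := add_le_add (add_le_add f0 f1) fs
  rw [← hS.add, ← hS.add] at tot
  unfold stageOp
  refine le_trans (hS.mono _ _ (fun c => ?_) _) (tot.trans (le_of_eq (by ring)))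
  have z : ∀ (P : Prop) [Decidable P], (0 : ℝ) ≤ if P then 0 else 1 := by
    intro P _; split_ifs <;> norm_num
  beta_reduce
  by_cases hg : Good M₁ M₂ L p (u + 1) (updSt L p s c)
  · rw [if_pos hg]
    exact add_nonneg (add_nonneg (z _) (z _)) (sum_nonneg fun j _ => z _)
  · rw [if_neg hg]
    by_contra hcon
    apply hg
    refine good_upd M₁ M₂ h₁ h₂ L p u hL hp hu s hs c ?_ ?_ (fun j => ?_)
    · by_contra a
      rw [if_neg a] at hcon
      exact hcon (le_add_of_le_of_nonneg (le_add_of_nonneg_right (z _))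
        (sum_nonneg fun j _ => z _))
    · by_contra a
      rw [if_neg a] at hcon
      exact hcon (le_add_of_le_of_nonneg (le_add_of_nonneg_left (z _))
        (sum_nonneg fun j _ => z _))
    · by_contra a
      refine hcon (le_add_of_nonneg_of_le (add_nonneg (z _) (z _)) ?_)
      refine le_trans (le_of_eq (if_neg a).symm) (single_le_sum (f := fun j =>
        if |(c.cn j : ℝ) / pK L -
          (∑ σ, WM M₁ M₂ L s.w σ * if offs σ = 1 ∧ (σ j).2 ≠ j then 1 else 0) /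
            (∑ σ, WM M₁ M₂ L s.w σ)| ≤ 1 / ((2 : ℝ) ^ L) ^ 5 then (0 : ℝ) else 1)
        (fun j _ => z _) (mem_univ j))

theorem fail_num (P a : ℝ) (l : ℕ) (hP : 2048 ≤ P) (ha0 : 0 ≤ a) (ha : a + 2 ≤ P)
    (hl : (l : ℝ) ≤ P) :
    a * (4 * P * (2 * (a + 2) * Real.exp (-(P ^ 4 / 16)))) ≤ (1 / 2) ^ l := by
  have b1 : P ≤ Real.exp P := by have := Real.add_one_le_exp P; linarith
  have hP0 : 0 < P := by linarith
  have b2 : a * (4 * P * (2 * (a + 2))) ≤ Real.exp (4 * P) := by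
    have : Real.exp (4 * P) = Real.exp P ^ 4 := by rw [← Real.exp_nat_mul]; norm_num
    rw [this]
    calc a * (4 * P * (2 * (a + 2))) = 8 * a * P * (a + 2) := by ring
      _ ≤ P * P * P * P := by gcongr <;> linarith
      _ = P ^ 4 := by ring
      _ ≤ _ := by gcongr
  have b3 : Real.exp (-P) ≤ (1 / 2) ^ l := by
    have e2 : Real.exp (-1) ≤ 1 / 2 := by
      rw [Real.exp_neg, one_div]
      refine inv_anti₀ (by norm_num) ?_
      have := Real.add_one_le_exp 1; linarith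
    calc Real.exp (-P) ≤ Real.exp (l * (-1)) := Real.exp_le_exp.2 (by linarith)
      _ = Real.exp (-1) ^ l := by rw [Real.exp_nat_mul]
      _ ≤ _ := by gcongr
  have b4 : 4 * P + -(P ^ 4 / 16) ≤ -P := by
    have a3 : P ≤ P ^ 3 := le_self_pow₀ (by linarith) (by norm_num)
    have : P ^ 4 = P ^ 3 * P := by ring
    nlinarith
  calc a * (4 * P * (2 * (a + 2) * Real.exp (-(P ^ 4 / 16))))
      = a * (4 * P * (2 * (a + 2))) * Real.exp (-(P ^ 4 / 16)) := by ring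
    _ ≤ Real.exp (4 * P) * Real.exp (-(P ^ 4 / 16)) := by gcongr
    _ ≤ Real.exp (-P) := by rw [← Real.exp_add]; exact Real.exp_le_exp.2 b4
    _ ≤ _ := b3

open Classical in
theorem analysis (M₁ M₂ : Matroid (Fin n)) (h₁ : M₁.E = Set.univ) (h₂ : M₂.E = Set.univ)
    (hr : M₁.eRank = M₂.eRank) (L k l : ℕ) (ε : ℚ) (hε1 : ε < 1) (hk : 1 ≤ (k : ℚ) * ε)
    (hL : n + k + l + 2048 ≤ 2 ^ L) :
    (outerOp M₁ M₂ L)^[n] (fun x => if AccSt (commonBases M₁ M₂) ε x.1 then 0 else 1)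
      (st0 n L, 0) ≤ (1 / 2) ^ l := by
  have hO := markov_outerOp M₁ M₂ L (show n ≤ 2 ^ L by omega)
  have h := fail_iterate hO (fun i (x : St n × ℕ) => x.2 = i ∧ Good M₁ M₂ L i 0 x.1) n
    ((2 * pB L : ℕ) * (2 * ((n : ℝ) + 2) * Real.exp (-(((2 : ℝ) ^ L) ^ 4 / 16)))) (by positivity)
    (by
      rintro i hi ⟨s, i'⟩ ⟨rfl, hs⟩
      have hSt := markov_stageOp M₁ M₂ L i' (show n ≤ 2 ^ L by omega)
      have h' := fail_iterate hSt (fun u s => Good M₁ M₂ L i' u s) (2 * pB L) _ (by positivity)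
        (fun u hu s hs => stage_fail M₁ M₂ h₁ h₂ L i' u (by omega) hi hu s hs) s hs
      unfold outerOp
      refine le_trans ((hSt.iterate _).mono _ _ (fun s' => ?_) _) h'
      beta_reduce
      by_cases hg : Good M₁ M₂ L i' (2 * pB L) s'
      · rw [if_pos hg, if_pos ⟨rfl, good_next M₁ M₂ L i' s' hg⟩]
      · rw [if_neg hg]; split_ifs <;> norm_num)
    (st0 n L, 0) ⟨rfl, good_init M₁ M₂ h₁ h₂ L (by omega)⟩
  refine le_trans ((hO.iterate n).mono _ _ (fun x => ?_) _) (h.trans ?_)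
  · by_cases hg : x.2 = n ∧ Good M₁ M₂ L n 0 x.1
    · rw [if_pos hg, if_pos (good_final M₁ M₂ h₁ h₂ hr L k ε hε1 hk (by omega) x.1 hg.2)]
    · rw [if_neg hg]; split_ifs <;> norm_num
  · have hLr : (n : ℝ) + k + l + 2048 ≤ 2 ^ L := by exact_mod_cast hL
    have hn0 : (0 : ℝ) ≤ n := Nat.cast_nonneg _
    have hk0 : (0 : ℝ) ≤ k := Nat.cast_nonneg _
    have hl0 : (0 : ℝ) ≤ l := Nat.cast_nonneg _
    have e : ((2 * pB L : ℕ) : ℝ) = 4 * (2 : ℝ) ^ L := by unfold pB; push_cast; ring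
    rw [e]
    exact fail_num _ _ l (by linarith) hn0 (by linarith) (by linarith)

end Vale.Agent.P317
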