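import Vale.Agent.P317.RefProb
import Vale.Agent.P317.Bridge
import Vale.Agent.P317.Stage

/-! P317: setup phase, running time, and the final theorem. -/

namespace Vale.Agent.P317
open Finset

variable {n : ℕ}

theorem TB.two (O : Bool → Set (Fin n) → Prop) (a b : ℕ) (e e' : Expr) (m : Mem) :
    TB O (.seq (asg a e) (asg b e')) m 2
      (fun m' => m' = (m.put a 0 (e.val m)).put b 0 (e'.val (m.put a 0 (e.val m)))) :=
  TB.seq (B := 1) (B' := 1) (TB.set O a (.lit 0) e m)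
    (fun m' h => by subst h; exact TB.set O b (.lit 0) e' _)

theorem findK_tb (O : Bool → Set (Fin n) → Prop) (m : Mem) (a d : ℕ) (ha : 0 < a)
    (h1 : m 1 0 = a) (h2 : m 2 0 = d) :
    TB O findK m (3 + (d / a + 2) * 3)
      (fun m' => Agree [7, 46] m m' ∧ d ≤ m' 7 0 * a ∧ m' 7 0 ≤ d / a + 1) := by
  have hl : ∀ m1, (Agree [7, 46] m m1 ∧ m1 46 0 = 0 ∧ m1 7 0 = 0) →
      TB O (.loop (V 2) (ltE (V 46) (V 2)) (.seq (asg 46 (.add (V 46) (V 1))) (inc 7))) m1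
        (1 + (d / a + 1 + 1) * (2 + 1))
        (fun m' => Agree [7, 46] m m' ∧ d ≤ m' 7 0 * a ∧ m' 7 0 ≤ d / a + 1) := by
    intro m1 hm1
    refine (TB.loop _ _ (fun i m' => Agree [7, 46] m m' ∧ m' 46 0 = i * a ∧ m' 7 0 = i ∧
      i ≤ d / a + 1) (d / a + 1) 2 ?_ m1 ⟨hm1.1, by simp [hm1.2.1], hm1.2.2, Nat.zero_le _⟩).mono
      le_rfl ?_
    · intro i m' ⟨g1, g2, g3, g4⟩ hc
      have e1 : m' 1 0 = a := by rw [g1 1 (by decide)]; exact h1
      have e2 : m' 2 0 = d := by rw [g1 2 (by decide)]; exact h2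
      simp only [ltE, V, Expr.val, g2, e2] at hc
      have hi : i ≤ d / a := (Nat.le_div_iff_mul_le ha).2 (by omega)
      refine ⟨by omega, (TB.two O _ _ _ _ m').mono le_rfl ?_⟩
      rintro _ rfl
      refine ⟨(g1.trans ((agree_put _ _ _ _).mono (by decide))).trans
        ((agree_put _ _ _ _).mono (by decide)), ?_, ?_, by omega⟩
      · simp [V, Expr.val, g2, e1]; ring
      · simp [V, Expr.val, g3]
    · rintro m' ⟨i, ⟨g1, g2, g3, g4⟩, g5⟩
      have e2 : m' 2 0 = d := by rw [g1 2 (by decide)]; exact h2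
      have e2' : m1 2 0 = d := by rw [hm1.1 2 (by decide)]; exact h2
      refine ⟨g1, ?_, by omega⟩
      rw [g3]
      rcases g5 with g5 | g5
      · simp only [V, Expr.val, e2'] at g5
        rw [g5]; exact Nat.le_mul_of_pos_right _ ha
      · simp only [ltE, V, Expr.val, g2, e2] at g5
        omega
  refine ((TB.set O 7 (.lit 0) (.lit 0) m).seq (Q' := _) (B' := _) (fun m' h =>
    (TB.set O 46 (.lit 0) (.lit 0) m').seq (fun m'' h' => hl m'' ?_))).mono (by omega)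
      (fun _ h => h)
  subst h h'
  exact ⟨((agree_put _ _ _ _).mono (by decide)).trans ((agree_put _ _ _ _).mono (by decide)),
    by simp [Expr.val], by simp [Expr.val]⟩

/-- Doubling until a target is reached. -/
theorem dblLoop_tb (O : Bool → Set (Fin n) → Prop) (x c t : ℕ) (hxc : x ≠ c) (htx : t ≠ x)
    (htc : t ≠ c) (m : Mem) (a d N : ℕ) (ha : 0 < a) (hx : m x 0 = a) (hc : m c 0 = 0)
    (ht : m t 0 = d) (hN : d ≤ a * 2 ^ N) :
    TB O (.loop (V t) (ltE (V x) (V t)) (.seq (asg x (.add (V x) (V x))) (inc c))) m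
      (1 + (N + 1) * 3)
      (fun m' => Agree [x, c] m m' ∧ m' x 0 = a * 2 ^ m' c 0 ∧ d ≤ a * 2 ^ m' c 0 ∧
        (m' c 0 = 0 ∨ a * 2 ^ m' c 0 < 2 * d)) := by
  refine (TB.loop _ _ (fun i m' => Agree [x, c] m m' ∧ m' x 0 = a * 2 ^ i ∧ m' c 0 = i ∧
    (i = 0 ∨ a * 2 ^ i < 2 * d)) N 2 ?_ m ⟨Agree.refl _ _, by simp [hx], hc, Or.inl rfl⟩).mono
    le_rfl ?_
  · intro i m' ⟨g1, g2, g3, g4⟩ hg
    have e2 : m' t 0 = d := by rw [g1 t (by simp [htx, htc])]; exact ht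
    simp only [ltE, V, Expr.val, g2, e2] at hg
    have hi : i < N := by
      by_contra hcon
      have : 2 ^ N ≤ 2 ^ i := Nat.pow_le_pow_right (by norm_num) (by omega)
      have := Nat.mul_le_mul_left a this
      omega
    refine ⟨hi, (TB.two O _ _ _ _ m').mono le_rfl ?_⟩
    rintro _ rfl
    refine ⟨(g1.trans ((agree_put _ _ _ _).mono (by simp))).trans
      ((agree_put _ _ _ _).mono (by simp)), ?_, ?_, Or.inr ?_⟩
    · simp [V, Expr.val, g2, hxc]; ring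
    · simp [V, Expr.val, g3, hxc.symm]
    · rw [pow_succ, ← mul_assoc]; omega
  · rintro m' ⟨i, ⟨g1, g2, g3, g4⟩, g5⟩
    have e2 : m' t 0 = d := by rw [g1 t (by simp [htx, htc])]; exact ht
    rw [g3]
    refine ⟨g1, g2, ?_, g4⟩
    rcases g5 with g5 | g5
    · simp only [V, Expr.val, ht] at g5
      rw [g5]
      exact (Nat.lt_two_pow_self).le.trans (Nat.le_mul_of_pos_left _ ha)
    · simp only [ltE, V, Expr.val, g2, e2] at g5
      omega

theorem phase0_tb (O : Bool → Set (Fin n) → Prop) (m : Mem) (a d a' d' N : ℕ) (ha : 0 < a)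
    (ha' : 0 < a') (h0 : m 0 0 = n) (h1 : m 1 0 = a) (h2 : m 2 0 = d) (h3 : m 3 0 = a')
    (h4 : m 4 0 = d') (hN : d' ≤ a' * 2 ^ N) :
    TB O phase0 m (30 * (n + d / a + N + 2048))
      (fun m' => Agree [7, 8, 9, 10, 46, 47] m m' ∧ d ≤ m' 7 0 * a ∧ m' 7 0 ≤ d / a + 1 ∧
        d' ≤ a' * 2 ^ m' 8 0 ∧ m' 8 0 ≤ N ∧ m' 10 0 = 2 ^ m' 9 0 ∧
        n + m' 7 0 + m' 8 0 + 2048 ≤ 2 ^ m' 9 0 ∧ 2 ^ m' 9 0 ≤ 2 * (n + m' 7 0 + m' 8 0 + 2048)) := by
  have hL : ∀ m1, (Agree [7, 46] m m1 ∧ d ≤ m1 7 0 * a ∧ m1 7 0 ≤ d / a + 1) →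
      TB O findL m1 (1 + (1 + (1 + (N + 1) * 3))) (fun m' => Agree [7, 8, 46] m m' ∧
        d ≤ m' 7 0 * a ∧ m' 7 0 ≤ d / a + 1 ∧ d' ≤ a' * 2 ^ m' 8 0 ∧ m' 8 0 ≤ N) := by
    intro m1 ⟨g1, g2, g3⟩
    refine (TB.set O 8 (.lit 0) (.lit 0) m1).seq (fun m' h =>
      (TB.set O 46 (.lit 0) (V 3) m').seq (fun m'' h' => ?_))
    subst h h'
    have e3 : m1 3 0 = a' := by rw [g1 3 (by decide)]; exact h3
    have e4 : m1 4 0 = d' := by rw [g1 4 (by decide)]; exact h4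
    refine (dblLoop_tb O 46 8 4 (by decide) (by decide) (by decide) _ a' d' N ha'
      (by simp [V, Expr.val, e3]) (by simp [Expr.val]) (by simp [e4]) hN).mono le_rfl ?_
    intro m' ⟨k1, k2, k3, k4⟩
    have ag : Agree [8, 46] m1 m' := (((agree_put _ _ _ _).mono (by decide)).trans
      ((agree_put _ _ _ _).mono (by decide))).trans (k1.mono (by decide))
    refine ⟨(g1.mono (by decide)).trans (ag.mono (by decide)), ?_, ?_, k3, ?_⟩
    · rw [ag 7 (by decide)]; exact g2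
    · rw [ag 7 (by decide)]; exact g3
    · rcases k4 with k4 | k4
      · omega
      · by_contra hcon
        have : 2 ^ (N + 1) ≤ 2 ^ m' 8 0 := Nat.pow_le_pow_right (by norm_num) (by omega)
        have := Nat.mul_le_mul_left a' this
        rw [pow_succ, ← mul_assoc] at this
        omega
  have hP : ∀ m1, (Agree [7, 8, 46] m m1 ∧
        d ≤ m1 7 0 * a ∧ m1 7 0 ≤ d / a + 1 ∧ d' ≤ a' * 2 ^ m1 8 0 ∧ m1 8 0 ≤ N) →
      TB O findP m1 (1 + (1 + (1 + (1 + (n + (d / a + 1) + N + 2048 + 1) * 3))))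
      (fun m' => Agree [7, 8, 9, 10, 46, 47] m m' ∧ d ≤ m' 7 0 * a ∧ m' 7 0 ≤ d / a + 1 ∧
        d' ≤ a' * 2 ^ m' 8 0 ∧ m' 8 0 ≤ N ∧ m' 10 0 = 2 ^ m' 9 0 ∧
        n + m' 7 0 + m' 8 0 + 2048 ≤ 2 ^ m' 9 0 ∧
          2 ^ m' 9 0 ≤ 2 * (n + m' 7 0 + m' 8 0 + 2048)) := by
    intro m1 ⟨g1, g2, g3, g4, g5⟩
    refine (TB.set O 47 (.lit 0) _ m1).seq (fun m' h =>
      (TB.set O 9 (.lit 0) _ m').seq (fun m'' h' =>
        (TB.set O 10 (.lit 0) _ m'').seq (fun m''' h'' => ?_)))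
    subst h h' h''
    have e0 : m1 0 0 = n := by rw [g1 0 (by decide)]; exact h0
    refine (dblLoop_tb O 10 9 47 (by decide) (by decide) (by decide) _ 1
      (n + m1 7 0 + m1 8 0 + 2048) (n + (d / a + 1) + N + 2048) one_pos
      (by simp [Expr.val]) (by simp [Expr.val]) (by simp [V, Expr.val, e0]; omega) ?_).mono
      le_rfl ?_
    · have : n + (d / a + 1) + N + 2048 < 2 ^ (n + (d / a + 1) + N + 2048) := Nat.lt_two_pow_self
      omega
    · intro m' ⟨k1, k2, k3, k4⟩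
      have ag : Agree [9, 10, 47] m1 m' := ((((agree_put _ _ _ _).mono (by decide)).trans
        ((agree_put _ _ _ _).mono (by decide))).trans
          ((agree_put _ _ _ _).mono (by decide))).trans (k1.mono (by decide))
      rw [ag 7 (by decide), ag 8 (by decide)]
      refine ⟨(g1.mono (by decide)).trans (ag.mono (by decide)), g2, g3, g4, g5, by omega,
        by omega, ?_⟩
      rcases k4 with k4 | k4
      · rw [k4]; omega
      · omega
  exact ((findK_tb O m a d ha h1 h2).seq (fun m1 h => (hL m1 h).seq hP)).mono (by omega)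
    (fun _ h => h)

theorem time12 (O : Bool → Set (Fin n) → Prop) (L : ℕ) (m : Mem) (h0 : m 0 0 = n)
    (h9 : m 9 0 = L) (h10 : m 10 0 = 2 ^ L) (hn : n + 2048 ≤ 2 ^ L) :
    TB O (.seq phase1 phase2) m (2 * (3 * (2 ^ L) ^ 21) ^ (phase1.deg + phase2.deg))
      (fun _ => True) := by
  have hL : L < 2 ^ L := Nat.lt_two_pow_self
  generalize hP : 2 ^ L = P at *
  have p1 : ∀ j, j ≤ 21 → P ^ j ≤ P ^ 21 := fun j hj => Nat.pow_le_pow_right (by omega) hj
  have p2 : ∀ j, j < 21 → 2048 * P ^ j ≤ P ^ 21 := by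
    intro j hj
    calc 2048 * P ^ j ≤ P * P ^ j := Nat.mul_le_mul_right _ (by omega)
      _ = P ^ (j + 1) := by ring
      _ ≤ P ^ 21 := p1 _ hj
  have q1 := p2 1 (by norm_num)
  rw [pow_one] at q1
  have t1 := (TB_static O [9] (P ^ 21) phase1 (by decide) m (by simp [h9]; omega)).det (by decide)
  have hpar := phase1_spec O L m h0 h9 (by rw [h10, hP]) (by omega)
  have t2 := TB_static O [0, 9, 12, 13, 14, 15, 17, 19, 20, 48] (P ^ 21) phase2 (by decide)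
    (exec O phase1 m) (by
      have q4 := p1 4 (by norm_num)
      have q14 := p2 14 (by norm_num)
      simp only [List.mem_cons, List.not_mem_nil, or_false, forall_eq_or_imp, forall_eq,
        hpar.r0, hpar.r9, hpar.r12, hpar.r13, hpar.r14, hpar.r15, hpar.r17, hpar.r19, hpar.r20,
        hpar.r48, pB, pD, pT, pK, hP]
      refine ⟨?_, ?_, ?_, ?_, ?_, ?_, ?_, ?_, ?_, ?_⟩ <;> omega)
  refine (t1.seq (fun m' h => h ▸ t2)).mono ?_ (fun _ _ => trivial)
  have b : P ^ 21 + n + 2 ≤ 3 * P ^ 21 := by omega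
  have c1 : (P ^ 21 + n + 2) ^ phase1.deg ≤ (3 * P ^ 21) ^ (phase1.deg + phase2.deg) :=
    (Nat.pow_le_pow_left b _).trans (Nat.pow_le_pow_right (by omega) (by omega))
  have c2 : (P ^ 21 + n + 2) ^ phase2.deg ≤ (3 * P ^ 21) ^ (phase1.deg + phase2.deg) :=
    (Nat.pow_le_pow_left b _).trans (Nat.pow_le_pow_right (by omega) (by omega))
  omega

theorem rat_num_den (q : ℚ) (hq : 0 < q) :
    0 < q.num.toNat ∧ (q.num.toNat : ℚ) = q * q.den := by
  have h : 0 < q.num := Rat.num_pos.2 hq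
  refine ⟨by omega, ?_⟩
  have : ((q.num.toNat : ℤ) : ℚ) = q.num := by rw [Int.toNat_of_nonneg h.le]
  rw [Rat.mul_den_eq_num, ← this, Int.cast_natCast]

theorem time_num (a P D t c : ℕ) (x : ℝ) (hc : 4102 ≤ c) (hx1 : 1 ≤ x) (b1 : (a : ℝ) ≤ 2050 * x)
    (hP : P ≤ 2 * a + 2) (ht : t ≤ 30 * a + 2 * (3 * P ^ 21) ^ D) :
    (t : ℝ) ≤ ((61530 + 2 * (3 * c ^ 21) ^ D : ℕ) : ℝ) * x ^ (21 * D + 1) := by
  have hc' : (4102 : ℝ) ≤ c := by exact_mod_cast hc
  have b2 : (P : ℝ) ≤ c * x := by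
    have h' : (P : ℝ) ≤ 2 * (a : ℝ) + 2 := by exact_mod_cast hP
    nlinarith
  have b3 : (t : ℝ) ≤ 30 * (a : ℝ) + 2 * (3 * (P : ℝ) ^ 21) ^ D := by exact_mod_cast ht
  have b4 : (3 * (P : ℝ) ^ 21) ^ D ≤ (3 * (c * x) ^ 21) ^ D := by gcongr
  have b5 : (3 * ((c : ℝ) * x) ^ 21) ^ D = (3 * (c : ℝ) ^ 21) ^ D * x ^ (21 * D) := by
    rw [mul_pow (c : ℝ) x, ← mul_assoc, mul_pow, ← pow_mul]
  have b6 : x ^ (21 * D) ≤ x ^ (21 * D + 1) := pow_le_pow_right₀ hx1 (by omega)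
  have b7 : x ≤ x ^ (21 * D + 1) := le_self_pow₀ hx1 (by omega)
  have b8 : (0 : ℝ) ≤ (3 * (c : ℝ) ^ 21) ^ D := by positivity
  have b9 := mul_le_mul_of_nonneg_left b6 b8
  push_cast
  rw [b5] at b4
  generalize (3 * (c : ℝ) ^ 21) ^ D = e at *
  generalize (3 * (P : ℝ) ^ 21) ^ D = f at *
  generalize x ^ (21 * D) = y at *
  generalize x ^ (21 * D + 1) = z at *
  nlinarith

theorem main_theorem : ∃ (P : Prog) (C d : ℕ), ∀ (n : ℕ) (M₁ M₂ : Matroid (Fin n)),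
    M₁.E = Set.univ → M₂.E = Set.univ → M₁.eRank = M₂.eRank →
    ∀ ε δ : ℚ, 0 < ε → ε < 1 → 0 < δ → δ < 1 →
      (∀ s ∈ (P.run (oracle M₁ M₂) (input n ε δ, 0)).support,
        (s.2 : ℝ) ≤ C * ((n : ℝ) + 1 / (ε : ℝ) + Real.log (1 / (δ : ℝ)) + 1) ^ d) ∧
      1 - (δ : ℝ) ≤ ((P.run (oracle M₁ M₂) (input n ε δ, 0)).toOuterMeasure
        {s | Accurate (commonBases M₁ M₂) ε s.1}).toReal := by
  classical
  refine ⟨fpras, 61530 + 2 * (3 * 4102 ^ 21) ^ (phase1.deg + phase2.deg),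
    21 * (phase1.deg + phase2.deg) + 1, ?_⟩
  intro n M₁ M₂ h₁ h₂ hr ε δ hε0 hε1 hδ0 hδ1
  obtain ⟨ha, ea⟩ := rat_num_den ε hε0
  obtain ⟨ha', ea'⟩ := rat_num_den δ hδ0
  have hδR : (0 : ℝ) < δ := by exact_mod_cast hδ0
  have hδR1 : (δ : ℝ) < 1 := by exact_mod_cast hδ1
  have hεR : (0 : ℝ) < ε := by exact_mod_cast hε0
  have hlog : 0 ≤ Real.log (1 / (δ : ℝ)) :=
    Real.log_nonneg (by rw [le_div_iff₀ hδR]; linarith)
  have hεinv : (0 : ℝ) ≤ 1 / (ε : ℝ) := by positivity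
  obtain ⟨N, hN1, hN2⟩ : ∃ N : ℕ, δ.den ≤ δ.num.toNat * 2 ^ N ∧
      (N : ℝ) ≤ 2 * Real.log (1 / (δ : ℝ)) + 1 := by
    refine ⟨⌈2 * Real.log (1 / (δ : ℝ))⌉₊, ?_, (Nat.ceil_lt_add_one (by positivity)).le⟩
    have h1 : 2 * Real.log (1 / (δ : ℝ)) ≤ ⌈2 * Real.log (1 / (δ : ℝ))⌉₊ := Nat.le_ceil _
    generalize ⌈2 * Real.log (1 / (δ : ℝ))⌉₊ = N at h1
    have h2 : Real.log (1 / (δ : ℝ)) ≤ Real.log (2 ^ N) := by
      rw [Real.log_pow]
      have := Real.log_two_gt_d9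
      nlinarith
    have h3 : 1 / (δ : ℝ) ≤ 2 ^ N :=
      (Real.log_le_log_iff (by positivity) (by positivity)).1 h2
    rw [div_le_iff₀ hδR] at h3
    have h4 : (δ.num.toNat : ℝ) = δ * δ.den := by exact_mod_cast ea'
    have h5 : (δ.den : ℝ) ≤ δ.num.toNat * 2 ^ N := by
      rw [h4]
      have : (0 : ℝ) ≤ δ.den := by positivity
      nlinarith
    exact_mod_cast h5
  have hdiv : ((ε.den / ε.num.toNat : ℕ) : ℝ) ≤ 1 / (ε : ℝ) := by
    have h4 : (ε.num.toNat : ℝ) = ε * ε.den := by exact_mod_cast ea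
    have hd : (0 : ℝ) < ε.den := by exact_mod_cast ε.den_pos
    refine Nat.cast_div_le.trans (le_of_eq ?_)
    rw [h4]; field_simp
  have t0 := phase0_tb (oracle M₁ M₂) (input n ε δ) ε.num.toNat ε.den δ.num.toNat δ.den N ha ha'
    (by simp [input]) (by simp [input]) (by simp [input]) (by simp [input]) (by simp [input]) hN1
  obtain ⟨g1, g2, g3, g4, g5, g6, g7, g8⟩ := t0.exec (by decide)
  have t0' := t0.det (by decide)
  generalize hm0 : exec (oracle M₁ M₂) phase0 (input n ε δ) = m0 at *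
  have e0 : m0 0 0 = n := by rw [g1 0 (by decide)]; simp [input]
  generalize hk : m0 7 0 = k at *
  generalize hl : m0 8 0 = l at *
  generalize hL : m0 9 0 = L at *
  constructor
  · have t1 := time12 (oracle M₁ M₂) L m0 e0 hL g6 (by omega)
    have t := t0'.seq (fun m' h => h ▸ t1)
    intro s hs
    have ht := (t 0 s hs).1
    rw [zero_add] at ht
    have hn0 : (0 : ℝ) ≤ n := by positivity
    refine time_num _ _ _ _ 4102 _ le_rfl (by linarith) ?_ ?_ ht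
    · rw [Nat.cast_add, Nat.cast_add, Nat.cast_add, Nat.cast_ofNat]
      linarith
    · linarith
  · rw [run_prob (oracle M₁ M₂) fpras (Accurate (commonBases M₁ M₂) ε)]
    simp only [fpras, ex]
    rw [ex_det _ phase0 (by decide), hm0]
    show _ ≤ ex _ phase1 _ m0
    rw [ex_det _ phase1 (by decide)]
    have hpar := phase1_spec (oracle M₁ M₂) L m0 e0 hL g6 (by omega)
    rw [phase2_ex M₁ M₂ h₂ L _ hpar (by
      intro i
      rw [exec_frame _ _ _ _ (by decide), g1 24 (by decide)]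
      simp [input])]
    have hkε : 1 ≤ (k : ℚ) * ε := by
      have h1 : (ε.den : ℚ) ≤ k * ε.num.toNat := by exact_mod_cast g2
      rw [ea] at h1
      have hd : (0 : ℚ) < ε.den := by exact_mod_cast ε.den_pos
      nlinarith
    have hA := analysis M₁ M₂ h₁ h₂ hr L k l ε hε1 hkε g7
    have hM := (markov_outerOp M₁ M₂ L (by omega)).iterate n
    have hs := hM.add (fun x => if AccSt (commonBases M₁ M₂) ε x.1 then 1 else 0)
      (fun x => if AccSt (commonBases M₁ M₂) ε x.1 then 0 else 1) (st0 n L, 0)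
    have h1 : (fun x : St n × ℕ => (if AccSt (commonBases M₁ M₂) ε x.1 then (1 : ℝ) else 0) +
        if AccSt (commonBases M₁ M₂) ε x.1 then 0 else 1) = fun _ => 1 := by
      funext x; split_ifs <;> norm_num
    simp only [h1] at hs
    have h2 := hM.one (st0 n L, 0)
    have h3 : ((1 : ℝ) / 2) ^ l ≤ δ := by
      have h4 : (δ.num.toNat : ℝ) = δ * δ.den := by exact_mod_cast ea'
      have h5 : (δ.den : ℝ) ≤ δ.num.toNat * 2 ^ l := by exact_mod_cast g4
      have hd : (0 : ℝ) < δ.den := by exact_mod_cast δ.den_pos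
      rw [h4] at h5
      rw [one_div, inv_pow, inv_le_iff_one_le_mul₀ (by positivity)]
      nlinarith
    linarith

end Vale.Agent.P317
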