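import Vale.Agent.P317.BridgeB
import Vale.Agent.P317.Main

/-! P317: the main theorem under the bit cost measure. -/

namespace Vale.Agent.P317

theorem input_bits (n : ℕ) (ε δ : ℚ) (hε0 : 0 < ε) (hε1 : ε < 1) (hδ0 : 0 < δ) (hδ1 : δ < 1) :
    Bits (n + Nat.size ε.den + Nat.size δ.den) (input n ε δ) := by
  have mono : ∀ a b : ℕ, a ≤ b → 2 ^ a ≤ 2 ^ b := fun a b h => Nat.pow_le_pow_right (by norm_num) h
  have key : ∀ q : ℚ, 0 < q → q < 1 → q.num.toNat ≤ q.den := by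
    intro q h0 h1
    have h2 : q.num < q.den := Rat.num_lt_denom_iff.2 h1
    omega
  have a1 : n < 2 ^ (n + Nat.size ε.den + Nat.size δ.den) :=
    Nat.lt_two_pow_self.trans_le (mono _ _ (by omega))
  have a2 : ε.den < 2 ^ (n + Nat.size ε.den + Nat.size δ.den) :=
    (Nat.lt_size_self _).trans_le (mono _ _ (by omega))
  have a3 : δ.den < 2 ^ (n + Nat.size ε.den + Nat.size δ.den) :=
    (Nat.lt_size_self _).trans_le (mono _ _ (by omega))
  have a4 := key ε hε0 hε1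
  have a5 := key δ hδ0 hδ1
  intro a i
  unfold input
  split_ifs <;> omega

theorem bit_num (u C c d n B : ℕ) (y x : ℝ) (hy : 1 ≤ y) (hyx : y ≤ x) (hB : (B : ℝ) ≤ x)
    (hn : (n : ℝ) ≤ x) (hu : (u : ℝ) ≤ C * y ^ d) :
    ((u * gB n c (B + c * u) : ℕ) : ℝ) ≤
      ((C * (2 * (c + 1) * (c * C + c + 3)) : ℕ) : ℝ) * x ^ (2 * d + 1) := by
  have hx : 1 ≤ x := hy.trans hyx
  have h1 : (u : ℝ) ≤ C * x ^ d :=
    hu.trans (mul_le_mul_of_nonneg_left (pow_le_pow_left₀ (by linarith) hyx d) (by positivity))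
  have h2 : x ^ d ≤ x ^ (d + 1) := pow_le_pow_right₀ hx (by omega)
  have h3 : x ≤ x ^ (d + 1) := by
    calc x = x ^ 1 := (pow_one x).symm
      _ ≤ x ^ (d + 1) := pow_le_pow_right₀ hx (by omega)
  have hc : (0 : ℝ) ≤ c := by positivity
  have hC : (0 : ℝ) ≤ C := by positivity
  have h4 : (B : ℝ) + c * u + c + n + 1 ≤ (c * C + c + 3) * x ^ (d + 1) := by
    have k1 : (c : ℝ) * u ≤ c * (C * x ^ (d + 1)) :=
      mul_le_mul_of_nonneg_left (h1.trans (mul_le_mul_of_nonneg_left h2 hC)) hc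
    have k2 : (c : ℝ) * 1 ≤ c * x ^ (d + 1) := mul_le_mul_of_nonneg_left (hx.trans h3) hc
    nlinarith
  have e : x ^ (2 * d + 1) = x ^ d * x ^ (d + 1) := by rw [← pow_add]; congr 1; ring
  unfold gB
  push_cast
  rw [e]
  calc (u : ℝ) * (2 * (c + 1) * (B + c * u + c + n + 1))
      ≤ (C * x ^ d) * (2 * (c + 1) * ((c * C + c + 3) * x ^ (d + 1))) := by
        apply mul_le_mul h1 (mul_le_mul_of_nonneg_left h4 (by positivity)) (by positivity)
          (by positivity)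
    _ = _ := by ring

theorem main_bit : ∃ (P : Prog) (C d : ℕ), ∀ (n : ℕ) (M₁ M₂ : Matroid (Fin n)),
    M₁.E = Set.univ → M₂.E = Set.univ → M₁.eRank = M₂.eRank →
    ∀ ε δ : ℚ, 0 < ε → ε < 1 → 0 < δ → δ < 1 →
      (∀ s ∈ (P.runBit (oracle M₁ M₂) (input n ε δ, 0)).support,
        (s.2 : ℝ) ≤ C * ((n : ℝ) + 1 / (ε : ℝ) + Real.log (1 / (δ : ℝ)) +
          Nat.size ε.den + Nat.size δ.den + 1) ^ d) ∧
      1 - (δ : ℝ) ≤ ((P.runBit (oracle M₁ M₂) (input n ε δ, 0)).toOuterMeasure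
        {s | Accurate (commonBases M₁ M₂) ε s.1}).toReal := by
  obtain ⟨P, C, d, H⟩ := main_theorem
  refine ⟨P, C * (2 * ((P.sz + 1) + 1) * ((P.sz + 1) * C + (P.sz + 1) + 3)), 2 * d + 1, ?_⟩
  intro n M₁ M₂ h₁ h₂ hr ε δ hε0 hε1 hδ0 hδ1
  obtain ⟨H1, H2⟩ := H n M₁ M₂ h₁ h₂ hr ε δ hε0 hε1 hδ0 hδ1
  have hδR : (0 : ℝ) < δ := by exact_mod_cast hδ0
  have hδR1 : (δ : ℝ) < 1 := by exact_mod_cast hδ1
  have hεR : (0 : ℝ) < ε := by exact_mod_cast hε0
  have hlog : 0 ≤ Real.log (1 / (δ : ℝ)) :=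
    Real.log_nonneg (by rw [le_div_iff₀ hδR]; linarith)
  have hεinv : (0 : ℝ) ≤ 1 / (ε : ℝ) := by positivity
  constructor
  · intro s hs
    obtain ⟨u, k1, -, k3⟩ := runBit_rel (oracle M₁ M₂) (P.sz + 1) (by omega) P (by omega) _
      (input n ε δ, 0) (input_bits n ε δ hε0 hε1 hδ0 hδ1) s hs
    have hu := H1 _ (k1 0)
    simp only [zero_add] at hu k3
    have hn0 : (0 : ℝ) ≤ n := by positivity
    have s1 : (0 : ℝ) ≤ Nat.size ε.den := by positivity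
    have s2 : (0 : ℝ) ≤ Nat.size δ.den := by positivity
    refine (Nat.cast_le.2 k3).trans (bit_num u C _ d n _ _ _ (by linarith) (by linarith) ?_
      (by linarith) hu)
    push_cast
    linarith
  · rw [runBit_prob (oracle M₁ M₂) P (Accurate (commonBases M₁ M₂) ε),
      ← run_prob (oracle M₁ M₂) P (Accurate (commonBases M₁ M₂) ε)]
    exact H2

end Vale.Agent.P317
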