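import Vale.Agent.P317.Model

/-! P317 task E: from the two matroids to the weight function; start and end of the annealing. -/

namespace Vale.Agent.P317
open Finset

variable {n : ℕ}

namespace MB

lemma eRk_ne_top {Y : Type} [Finite Y] (M : Matroid Y) (X : Set Y) : M.eRk X ≠ ⊤ :=
  ne_top_of_le_ne_top (Set.toFinite X).encard_lt_top.ne (M.eRk_le_encard X)

lemma set_cons {Y : Type} (a : Y) (S : Multiset Y) :
    {y | y ∈ a ::ₘ S} = insert a {y | y ∈ S} := by
  ext y; simp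

lemma set_ms {ι Y : Type} [Fintype ι] (σ : ι → Y) : {y | y ∈ ms σ} = Set.range σ := by
  ext y
  simp only [ms, Set.mem_setOf_eq, Multiset.mem_sum, mem_univ, Multiset.mem_singleton, true_and,
    Set.mem_range]
  exact ⟨fun ⟨i, h⟩ => ⟨i, h.symm⟩, fun ⟨i, h⟩ => ⟨i, h.symm⟩⟩

lemma card_ms {ι Y : Type} [Fintype ι] (σ : ι → Y) : (ms σ).card = Fintype.card ι := by
  simp [ms]

lemma indep_big (M₁ M₂ : Matroid (Fin n)) (σ : Fin n → XX n) :
    (bigM M₁ M₂).Indep (Set.range σ) ↔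
      M₁.Indep {p | ∃ j, σ j = (0, p)} ∧ M₂.Coindep {p | ∃ j, σ j = (1, p)} := by
  unfold bigM
  rw [Matroid.sum'_indep_iff, Fin.forall_fin_succ, Fin.forall_fin_succ, Fin.forall_fin_succ]
  simp only [Matrix.cons_val_zero, Matrix.cons_val_succ, Matroid.freeOn_indep_iff,
    Set.subset_univ, IsEmpty.forall_iff, and_true]
  rfl

lemma VV_le_prod {ι X : Type} [Fintype ι] [DecidableEq ι] [Fintype X] {g : Multiset X → ℝ}
    (hg : ∀ σ : ι → X, g (ms σ) ≤ 1) {v : ι → X → ℝ} (hv : ∀ i y, 0 ≤ v i y) :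
    VV g v ≤ ∏ i, ∑ y, v i y := by
  rw [Fintype.prod_sum]
  refine sum_le_sum fun σ _ => ?_
  unfold wt
  exact mul_le_of_le_one_right (prod_nonneg fun i _ => hv _ _) (hg σ)

lemma pow_le_of {x δ : ℝ} {m : ℕ} (hx : 0 ≤ x) (h : m * x ≤ δ) (hδ : δ ≤ 1 / 2) :
    (1 + x) ^ m ≤ 1 + 2 * δ := by
  have h0 : 0 ≤ δ := le_trans (by positivity) h
  have h1 : (1 + x) ^ m ≤ Real.exp δ := by
    calc (1 + x) ^ m ≤ (Real.exp x) ^ m := by
          gcongr; linarith [Real.add_one_le_exp x]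
      _ = Real.exp (m * x) := by rw [Real.exp_nat_mul]
      _ ≤ Real.exp δ := Real.exp_le_exp.2 h
  have h2 := Real.exp_bound_div_one_sub_of_interval h0 (by linarith)
  refine h1.trans (h2.trans ?_)
  rw [div_le_iff₀ (by linarith)]
  nlinarith

lemma three_four (P : ℕ) (hP : 20 ≤ P) : 8 * P * 3 ^ P ≤ 4 ^ P := by
  induction P, hP using Nat.le_induction with
  | base => norm_num
  | succ P hP ih =>
    have h : 3 * (P + 1) ≤ 4 * P := by omega
    calc 8 * (P + 1) * 3 ^ (P + 1) = 8 * (3 * (P + 1)) * 3 ^ P := by ring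
      _ ≤ 8 * (4 * P) * 3 ^ P := by gcongr
      _ = 4 * (8 * P * 3 ^ P) := by ring
      _ ≤ 4 * 4 ^ P := by gcongr
      _ = 4 ^ (P + 1) := by ring

lemma sq_four (P : ℕ) (hP : 20 ≤ P) : 32 * P ^ 2 ≤ 4 ^ P := by
  induction P, hP using Nat.le_induction with
  | base => norm_num
  | succ P hP ih =>
    have h : P + 1 ≤ 2 * P := by omega
    calc 32 * (P + 1) ^ 2 ≤ 32 * (2 * P) ^ 2 := by gcongr
      _ = 4 * (32 * P ^ 2) := by ring
      _ ≤ 4 * 4 ^ P := by gcongr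
      _ = 4 ^ (P + 1) := by ring

lemma two_pow_pB (L : ℕ) : (2 : ℝ) ^ pB L = 4 ^ (2 ^ L) := by
  unfold pB; rw [pow_mul]; norm_num

lemma sum_part (j : Fin n) (f : Fin 3 → ℝ) :
    ∑ y : XX n, (if y.2 = j then f y.1 else 0) = f 0 + f 1 + f 2 := by
  rw [Fintype.sum_prod_type]
  simp [Fin.sum_univ_three]

end MB

open MB

theorem rankFn_rhoM (M₁ M₂ : Matroid (Fin n)) : RankFn (rhoM M₁ M₂) := by
  have key : ∀ X : Set (XX n), ∃ m : ℕ, (bigM M₁ M₂).eRk X = m := fun X =>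
    ⟨_, (ENat.coe_toNat (eRk_ne_top _ X)).symm⟩
  refine ⟨?_, fun a S => ?_, fun a S => ?_, fun a b S => ?_⟩
  · simp [rhoM]
  · unfold rhoM
    rw [set_cons]
    exact ENat.toNat_le_toNat ((bigM M₁ M₂).eRk_mono (Set.subset_insert _ _)) (eRk_ne_top _ _)
  · unfold rhoM
    rw [set_cons]
    have h := (bigM M₁ M₂).eRk_insert_le_add_one a {y | y ∈ S}
    obtain ⟨m1, h1⟩ := key (insert a {y | y ∈ S})
    obtain ⟨m2, h2⟩ := key {y | y ∈ S}
    rw [h1, h2] at h ⊢
    exact_mod_cast h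
  · unfold rhoM
    rw [set_cons, set_cons, set_cons]
    generalize {y | y ∈ S} = T
    have h := (bigM M₁ M₂).eRk_inter_add_eRk_union_le (insert a T) (insert b T)
    have hu : insert a T ∪ insert b T = insert a (insert b T) := by
      ext y; simp only [Set.mem_union, Set.mem_insert_iff]; tauto
    have hi : (bigM M₁ M₂).eRk T ≤ (bigM M₁ M₂).eRk (insert a T ∩ insert b T) :=
      (bigM M₁ M₂).eRk_mono (Set.subset_inter (Set.subset_insert _ _) (Set.subset_insert _ _))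
    rw [hu] at h
    have h' := (add_le_add hi le_rfl).trans h
    obtain ⟨m1, h1⟩ := key (insert a (insert b T))
    obtain ⟨m2, h2⟩ := key T
    obtain ⟨m3, h3⟩ := key (insert a T)
    obtain ⟨m4, h4⟩ := key (insert b T)
    rw [h1, h2, h3, h4] at h' ⊢
    simp only [ENat.toNat_coe]
    have : m2 + m1 ≤ m3 + m4 := by exact_mod_cast h'
    omega

open Classical in
theorem gM_ms (M₁ M₂ : Matroid (Fin n)) (h₁ : M₁.E = Set.univ) (h₂ : M₂.E = Set.univ)
    (σ : Fin n → XX n) : gM M₁ M₂ (ms σ) = if Valid M₁ M₂ σ then 1 else 0 := by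
  unfold gM gq rhoM
  rw [set_ms, card_ms, Fintype.card_fin]
  have hle := (bigM M₁ M₂).eRk_le_encard (Set.range σ)
  have hcard : (Set.range σ).encard = ((univ.image σ).card : ℕ) := by
    rw [← Set.encard_coe_eq_coe_finsetCard]; simp
  have hc : (univ.image σ).card ≤ n := card_image_le.trans (by simp)
  obtain ⟨m, hm⟩ : ∃ m : ℕ, (bigM M₁ M₂).eRk (Set.range σ) = m :=
    ⟨_, (ENat.coe_toNat (eRk_ne_top _ _)).symm⟩
  have hiff := (bigM M₁ M₂).indep_iff_eRk_eq_encard_of_finite (Set.toFinite (Set.range σ))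
  rw [indep_big, hm, hcard] at hiff
  rw [hm, hcard] at hle
  rw [hm, ENat.toNat_coe]
  have hle' : m ≤ (univ.image σ).card := by exact_mod_cast hle
  have hinj : (univ.image σ).card = n ↔ Function.Injective σ := by
    have := Finset.card_image_iff (s := (univ : Finset (Fin n))) (f := σ)
    simpa using this
  split_ifs with hV
  · have h1 : m = (univ.image σ).card := by exact_mod_cast hiff.1 hV.2
    have h2 := hinj.2 hV.1
    rw [show n - m = 0 by omega, pow_zero]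
  · refine zero_pow fun h0 => hV ?_
    have h1 : m = (univ.image σ).card := by omega
    exact ⟨hinj.1 (by omega), hiff.2 (by exact_mod_cast h1)⟩

theorem gM_nonneg (M₁ M₂ : Matroid (Fin n)) (S : Multiset (XX n)) : 0 ≤ gM M₁ M₂ S := by
  unfold gM gq; positivity

theorem valid_sig0 (M₁ M₂ : Matroid (Fin n)) : Valid M₁ M₂ (sig0 n) := by
  refine ⟨fun a b h => (Prod.ext_iff.1 h).2, ?_, ?_⟩
  · have : {p | ∃ j, sig0 n j = (0, p)} = ∅ := by
      ext p; simp [sig0]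
    rw [this]; exact M₁.empty_indep
  · have : {p | ∃ j, sig0 n j = (1, p)} = ∅ := by
      ext p; simp [sig0]
    rw [this]; exact M₂.dual.empty_indep

open Classical in
theorem WM_eq (M₁ M₂ : Matroid (Fin n)) (h₁ : M₁.E = Set.univ) (h₂ : M₂.E = Set.univ) (L : ℕ)
    (w : XX n → ℕ) (σ : Fin n → XX n) :
    WM M₁ M₂ L w σ = if Valid M₁ M₂ σ then (2 : ℝ) ^ Kx L w σ else 0 := by
  unfold WM wt
  rw [gM_ms M₁ M₂ h₁ h₂]
  have : ∏ i, vM L w i (σ i) = (2 : ℝ) ^ Kx L w σ := by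
    unfold Kx vM
    rw [← prod_pow_eq_pow_sum]
    refine prod_congr rfl fun i _ => ?_
    split_ifs <;> simp [pow_add]
  rw [this]
  split_ifs <;> simp

namespace MB

lemma gM_le_one (M₁ M₂ : Matroid (Fin n)) (h₁ : M₁.E = Set.univ) (h₂ : M₂.E = Set.univ)
    (σ : Fin n → XX n) : gM M₁ M₂ (ms σ) ≤ 1 := by
  rw [gM_ms M₁ M₂ h₁ h₂]; split_ifs <;> norm_num

lemma dpart_nonneg (w : XX n → ℝ) (hw : ∀ y, 0 ≤ w y) (j : Fin n) (y : XX n) :
    0 ≤ dpart Prod.snd w j y := by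
  unfold dpart; split_ifs
  · exact hw y
  · exact le_rfl

lemma Z0_ge (M₁ M₂ : Matroid (Fin n)) (h₁ : M₁.E = Set.univ) (h₂ : M₂.E = Set.univ)
    (w : XX n → ℕ) : ∏ j : Fin n, (2 : ℝ) ^ w (2, j) ≤ Z0 M₁ M₂ w := by
  unfold Z0 VV
  refine le_trans (le_of_eq ?_) (single_le_sum (f := wt (gM M₁ M₂)
    (dpart Prod.snd fun y => (2 : ℝ) ^ w y)) (fun σ _ => ?_) (mem_univ (sig0 n)))
  · unfold wt
    rw [gM_ms M₁ M₂ h₁ h₂, if_pos (valid_sig0 M₁ M₂), mul_one]
    refine prod_congr rfl fun j _ => ?_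
    simp [dpart, sig0]
  · exact mul_nonneg (prod_nonneg fun i _ => dpart_nonneg _ (fun y => by positivity) _ _)
      (gM_nonneg _ _ _)

end MB

theorem Z0_pos (M₁ M₂ : Matroid (Fin n)) (h₁ : M₁.E = Set.univ) (h₂ : M₂.E = Set.univ)
    (w : XX n → ℕ) : 0 < Z0 M₁ M₂ w :=
  lt_of_lt_of_le (prod_pos fun j _ => by positivity) (Z0_ge M₁ M₂ h₁ h₂ w)

namespace MB

lemma both_base (M₁ M₂ : Matroid (Fin n)) (h₂ : M₂.E = Set.univ)
    (hr : M₁.eRank = M₂.eRank) (B : Set (Fin n)) :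
    (M₁.Indep B ∧ M₂.Coindep Bᶜ) ↔ (M₁.IsBase B ∧ M₂.IsBase B) := by
  constructor
  · rintro ⟨hI, hC⟩
    obtain ⟨B', hB', hsub⟩ := hC.exists_isBase_subset_compl
    rw [h₂, ← Set.compl_eq_univ_diff, compl_compl] at hsub
    have h1 := hI.encard_le_eRank
    have h2 := hB'.encard_eq_eRank
    have heq : B' = B := (Set.toFinite B').eq_of_subset_of_encard_le hsub (by rw [h2, ← hr]; exact h1)
    subst heq
    exact ⟨hI.isBase_of_eRk_ge (Set.toFinite _) (by rw [hI.eRk_eq_encard, h2, hr]), hB'⟩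
  · rintro ⟨hB1, hB2⟩
    refine ⟨hB1.indep, Matroid.coindep_iff_subset_compl_isBase.2 ⟨B, hB2, ?_⟩⟩
    rw [h₂, ← Set.compl_eq_univ_diff]

end MB

/-- Valid transversals without free elements are in bijection with common bases. -/
theorem count_bases (M₁ M₂ : Matroid (Fin n)) (h₁ : M₁.E = Set.univ) (h₂ : M₂.E = Set.univ)
    (hr : M₁.eRank = M₂.eRank) :
    VV (gM M₁ M₂) (dpart Prod.snd (fun y : XX n => if y.1 = 2 then (0 : ℝ) else 1)) =
      commonBases M₁ M₂ := by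
  classical
  let F : Set (Fin n) → Fin n → XX n := fun B j => (if j ∈ B then 0 else 1, j)
  have hF0 : ∀ B, {p | ∃ j, F B j = (0, p)} = B := by
    intro B; ext p
    simp only [F, Prod.mk.injEq, Set.mem_setOf_eq]
    constructor
    · rintro ⟨j, h, rfl⟩
      by_contra hj
      simp [hj] at h
    · intro h; exact ⟨p, by simp [h], rfl⟩
  have hF1 : ∀ B, {p | ∃ j, F B j = (1, p)} = Bᶜ := by
    intro B; ext p
    simp only [F, Prod.mk.injEq, Set.mem_setOf_eq, Set.mem_compl_iff]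
    constructor
    · rintro ⟨j, h, rfl⟩ hj
      simp [hj] at h
    · intro h; exact ⟨p, by simp [h], rfl⟩
  have hFinj : Function.Injective F := fun B B' h => by rw [← hF0 B, h, hF0]
  have hV : ∀ B, Valid M₁ M₂ (F B) ↔ (M₁.IsBase B ∧ M₂.IsBase B) := by
    intro B
    unfold Valid
    rw [hF0, hF1, both_base M₁ M₂ h₂ hr]
    exact and_iff_right fun a b h => (Prod.ext_iff.1 h).2
  unfold VV
  rw [← sum_subset (subset_univ (univ.image F)), sum_image (fun a _ b _ h => hFinj h)]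
  · have : ∀ B, wt (gM M₁ M₂) (dpart Prod.snd (fun y : XX n => if y.1 = 2 then (0 : ℝ) else 1))
        (F B) = if M₁.IsBase B ∧ M₂.IsBase B then 1 else 0 := by
      intro B
      unfold wt
      rw [gM_ms M₁ M₂ h₁ h₂, prod_eq_one, one_mul]
      · simp only [hV]
      · intro j _
        by_cases hj : j ∈ B <;> simp [dpart, F, hj]
    simp only [this]
    rw [sum_boole]
    unfold commonBases
    rw [← Set.ncard_coe_finset]
    simp
  · intro σ _ hσ
    unfold wt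
    refine mul_eq_zero_of_left ?_ _
    by_contra hne
    have hall := prod_ne_zero_iff.1 hne
    refine hσ (mem_image.2 ⟨{j | (σ j).1 = 0}, mem_univ _, funext fun j => ?_⟩)
    have hj := hall j (mem_univ _)
    simp only [dpart, ne_eq, ite_eq_right_iff, one_ne_zero, imp_false, not_forall] at hj
    obtain ⟨hj1, hj2⟩ := hj
    refine Prod.ext ?_ hj1.symm
    simp only [F, Set.mem_setOf_eq]
    split_ifs with h0
    · exact h0.symm
    · have hj3 : (σ j).1 ≠ 2 := by simpa using hj2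
      generalize (σ j).1 = t at *
      fin_cases t <;> simp_all

namespace MB

lemma act00 (L : ℕ) (y : XX n) : act L 0 0 y = if y.1 = 2 then 2 * pB L else pB L := by
  unfold act; simp

lemma actn (L : ℕ) (y : XX n) : act L n 0 y = if y.1 = 2 then 0 else pB L := by
  unfold act; simp [y.2.isLt]

lemma part_sum (L : ℕ) (j : Fin n) :
    ∑ y : XX n, dpart Prod.snd (fun y => (2 : ℝ) ^ act L 0 0 y) j y =
      (2 ^ pB L) ^ 2 * (1 + 2 / 2 ^ pB L) := by
  simp only [dpart, act00]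
  rw [sum_part j (fun t => (2 : ℝ) ^ (if t = 2 then 2 * pB L else pB L))]
  simp only [Fin.reduceEq, if_false, if_true]
  rw [mul_comm 2 (pB L), pow_mul]
  field_simp
  ring

lemma small (L : ℕ) (hL : n + 2048 ≤ 2 ^ L) :
    (1 + 2 / (2 : ℝ) ^ pB L) ^ n ≤ 1 + 1 / (8 * 2 ^ L) := by
  have hP : (2048 : ℝ) ≤ 2 ^ L := by exact_mod_cast (by omega : 2048 ≤ 2 ^ L)
  have hn : (n : ℝ) ≤ 2 ^ L := by exact_mod_cast (by omega : n ≤ 2 ^ L)
  have h4 : 32 * ((2 : ℝ) ^ L) ^ 2 ≤ 2 ^ pB L := by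
    rw [two_pow_pB]; exact_mod_cast sq_four (2 ^ L) (by omega)
  generalize (2 : ℝ) ^ L = P at *
  have hB : (0 : ℝ) < 2 ^ pB L := by positivity
  generalize (2 : ℝ) ^ pB L = B at *
  have := pow_le_of (x := 2 / B) (δ := 1 / (16 * P)) (m := n) (by positivity) (by
    rw [← mul_div_assoc, div_le_div_iff₀ hB (by positivity)]
    nlinarith) (by
    rw [div_le_div_iff₀ (by positivity) (by positivity)]; linarith)
  refine this.trans (le_of_eq ?_)
  field_simp
  ring

lemma Z00_ge (M₁ M₂ : Matroid (Fin n)) (h₁ : M₁.E = Set.univ) (h₂ : M₂.E = Set.univ) (L : ℕ) :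
    (((2 : ℝ) ^ pB L) ^ 2) ^ n ≤ Z0 M₁ M₂ (act L 0 0) := by
  refine le_trans (le_of_eq ?_) (Z0_ge M₁ M₂ h₁ h₂ _)
  simp only [act00, if_true, prod_const, card_univ, Fintype.card_fin]
  rw [mul_comm 2 (pB L), pow_mul]

lemma Z00_le (M₁ M₂ : Matroid (Fin n)) (h₁ : M₁.E = Set.univ) (h₂ : M₂.E = Set.univ) (L : ℕ)
    (hL : n + 2048 ≤ 2 ^ L) :
    Z0 M₁ M₂ (act L 0 0) ≤ (((2 : ℝ) ^ pB L) ^ 2) ^ n * (1 + 1 / (8 * 2 ^ L)) := by
  refine (VV_le_prod (gM_le_one M₁ M₂ h₁ h₂) (dpart_nonneg _ fun y => by positivity)).trans ?_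
  simp only [part_sum, prod_const, card_univ, Fintype.card_fin, mul_pow]
  gcongr
  exact small L hL

end MB

theorem good_init (M₁ M₂ : Matroid (Fin n)) (h₁ : M₁.E = Set.univ) (h₂ : M₂.E = Set.univ)
    (L : ℕ) (hL : n + 2048 ≤ 2 ^ L) : Good M₁ M₂ L 0 0 (st0 n L) := by
  have hw : (st0 n L).w = act L 0 0 := funext fun y => by rw [act00]; rfl
  refine ⟨⟨fun _ => 0, fun y => by rw [hw, zero_add], fun _ => Nat.zero_le _⟩, fun j => ?_, Nat.one_pos,
    ?_, ?_⟩
  · rw [hw]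
    have hP : (2048 : ℝ) ≤ 2 ^ L := by exact_mod_cast (by omega : 2048 ≤ 2 ^ L)
    have hn : (n : ℝ) ≤ 2 ^ L := by exact_mod_cast (by omega : n ≤ 2 ^ L)
    set c : ℝ := (2 ^ pB L) ^ 2 * (1 + 2 / 2 ^ pB L) with hc
    have hc0 : 0 ≤ c := by positivity
    have h1 : offM M₁ M₂ (act L 0 0) j ≤ n * c ^ n := by
      unfold offM offW
      refine (VV_le_prod (gM_le_one M₁ M₂ h₁ h₂) fun i y => ?_).trans ?_
      · by_cases hi : i = j
        · subst hi
          rw [Function.update_self]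
          split_ifs <;> positivity
        · rw [Function.update_of_ne hi]
          exact dpart_nonneg _ (fun y => by positivity) _ _
      · have h2 : ∑ y : XX n, (if y.2 = j then (0 : ℝ) else 2 ^ act L 0 0 y) ≤ n * c := by
          calc ∑ y : XX n, (if y.2 = j then (0 : ℝ) else 2 ^ act L 0 0 y)
              ≤ ∑ y : XX n, ∑ i : Fin n, dpart Prod.snd (fun y => (2 : ℝ) ^ act L 0 0 y) i y := by
                refine sum_le_sum fun y _ => ?_
                simp only [dpart, sum_ite_eq, mem_univ, if_true]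
                split_ifs
                · positivity
                · exact le_rfl
            _ = n * c := by
                rw [sum_comm]
                simp only [part_sum, sum_const, card_univ, Fintype.card_fin, nsmul_eq_mul, hc]
        rw [← mul_prod_erase _ _ (mem_univ j), Function.update_self]
        have h3 : ∏ i ∈ univ.erase j, ∑ y : XX n, Function.update
            (dpart Prod.snd fun y => (2 : ℝ) ^ act L 0 0 y) j
            (fun y => if y.2 = j then 0 else 2 ^ act L 0 0 y) i y = ∏ i ∈ univ.erase j, c := by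
          refine prod_congr rfl fun i hi => ?_
          rw [Function.update_of_ne (ne_of_mem_erase hi), part_sum]
        have h4 : c ^ n = c * ∏ i ∈ univ.erase j, c := by
          rw [mul_prod_erase univ (fun _ => c) (mem_univ j)]; simp
        rw [h3, h4, ← mul_assoc]
        exact mul_le_mul_of_nonneg_right h2 (prod_nonneg fun _ _ => hc0)
    have h5 := small L hL
    have h6 := Z00_ge M₁ M₂ h₁ h₂ L
    have h7 : (1 : ℝ) / (8 * 2 ^ L) ≤ 1 := by
      rw [div_le_one (by positivity)]; linarith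
    refine h1.trans ?_
    rw [hc, mul_pow]
    calc (n : ℝ) * ((((2 : ℝ) ^ pB L) ^ 2) ^ n * (1 + 2 / 2 ^ pB L) ^ n)
        ≤ 2 ^ L * (Z0 M₁ M₂ (act L 0 0) * 320) := by
          have := (Z0_pos M₁ M₂ h₁ h₂ (act L 0 0)).le
          gcongr
          linarith
      _ = _ := by ring
  · simp [st0, mul_comm]
  · simp [st0, mul_comm]

theorem good_next (M₁ M₂ : Matroid (Fin n)) (L p : ℕ) (s : St n)
    (h : Good M₁ M₂ L p (2 * pB L) s) : Good M₁ M₂ L (p + 1) 0 s := by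
  have ha : (act L (p + 1) 0 : XX n → ℕ) = act L p (2 * pB L) := by
    funext y
    unfold act
    split_ifs <;> omega
  have he : (p + 1) * (2 * pB L) + 0 = p * (2 * pB L) + 2 * pB L := by ring
  refine ⟨?_, h.bal, h.den, ?_, ?_⟩
  · rw [ha, he]; exact h.gauge
  · rw [ha, he]; exact h.lower
  · rw [ha, he]; exact h.upper

namespace MB

lemma Zn_ge (M₁ M₂ : Matroid (Fin n)) (h₁ : M₁.E = Set.univ) (h₂ : M₂.E = Set.univ)
    (hr : M₁.eRank = M₂.eRank) (L : ℕ) :
    ((2 : ℝ) ^ pB L) ^ n * commonBases M₁ M₂ ≤ Z0 M₁ M₂ (act L n 0) := by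
  rw [← count_bases M₁ M₂ h₁ h₂ hr]
  unfold Z0 VV wt
  rw [mul_sum]
  refine sum_le_sum fun σ _ => ?_
  rw [← mul_assoc]
  refine mul_le_mul_of_nonneg_right ?_ (gM_nonneg _ _ _)
  rw [show ((2 : ℝ) ^ pB L) ^ n = ∏ _j : Fin n, (2 : ℝ) ^ pB L by simp, ← prod_mul_distrib]
  refine prod_le_prod (fun j _ => mul_nonneg (by positivity)
    (dpart_nonneg _ (fun y => by split_ifs <;> norm_num) _ _)) fun j _ => ?_
  simp only [dpart, actn]
  split_ifs <;> simp

lemma Zn_le (M₁ M₂ : Matroid (Fin n)) (h₁ : M₁.E = Set.univ) (h₂ : M₂.E = Set.univ)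
    (hr : M₁.eRank = M₂.eRank) (L : ℕ) :
    2 ^ pB L * Z0 M₁ M₂ (act L n 0) ≤
      ((2 : ℝ) ^ pB L) ^ n * (2 ^ pB L * commonBases M₁ M₂ + 3 ^ n) := by
  have h3 : VV (gM M₁ M₂) (dpart Prod.snd (fun _ : XX n => (1 : ℝ))) ≤ 3 ^ n := by
    refine (VV_le_prod (gM_le_one M₁ M₂ h₁ h₂) (dpart_nonneg _ fun y => zero_le_one)).trans ?_
    have : ∀ j : Fin n, ∑ y : XX n, dpart Prod.snd (fun _ : XX n => (1 : ℝ)) j y = 3 := by
      intro j
      simp only [dpart]
      rw [sum_part j (fun _ => (1 : ℝ))]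
      norm_num
    simp [this]
  have hB : (1 : ℝ) ≤ 2 ^ pB L := one_le_pow₀ (by norm_num)
  refine le_trans ?_ (mul_le_mul_of_nonneg_left (add_le_add le_rfl h3) (by positivity))
  rw [← count_bases M₁ M₂ h₁ h₂ hr]
  unfold Z0 VV wt
  simp only [mul_sum, ← sum_add_distrib]
  refine sum_le_sum fun σ _ => ?_
  rw [← mul_assoc, ← mul_assoc, ← add_mul, ← mul_assoc]
  refine mul_le_mul_of_nonneg_right ?_ (gM_nonneg _ _ _)
  have hp0 : 0 ≤ ∏ i, dpart Prod.snd (fun y : XX n => if y.1 = 2 then (0 : ℝ) else 1) i (σ i) :=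
    prod_nonneg fun i _ => dpart_nonneg _ (fun y => by split_ifs <;> norm_num) _ _
  have hp1 : 0 ≤ ∏ i, dpart Prod.snd (fun _ : XX n => (1 : ℝ)) i (σ i) :=
    prod_nonneg fun i _ => dpart_nonneg _ (fun y => zero_le_one) _ _
  have hBn : ((2 : ℝ) ^ pB L) ^ n = ∏ _j : Fin n, (2 : ℝ) ^ pB L := by simp
  by_cases hall : ∀ j, (σ j).1 ≠ 2
  · have : ∏ i, dpart Prod.snd (fun y : XX n => (2 : ℝ) ^ act L n 0 y) i (σ i) =
        ((2 : ℝ) ^ pB L) ^ n *
          ∏ i, dpart Prod.snd (fun y : XX n => if y.1 = 2 then (0 : ℝ) else 1) i (σ i) := by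
      rw [hBn, ← prod_mul_distrib]
      refine prod_congr rfl fun j _ => ?_
      simp only [dpart, actn, hall j, if_false]
      split_ifs <;> simp
    rw [this]
    have : 0 ≤ ((2 : ℝ) ^ pB L) ^ n * ∏ i, dpart Prod.snd (fun _ : XX n => (1 : ℝ)) i (σ i) := by
      positivity
    linarith
  · push Not at hall
    obtain ⟨j, hj⟩ := hall
    have : 2 ^ pB L * ∏ i, dpart Prod.snd (fun y : XX n => (2 : ℝ) ^ act L n 0 y) i (σ i) ≤
        ((2 : ℝ) ^ pB L) ^ n * ∏ i, dpart Prod.snd (fun _ : XX n => (1 : ℝ)) i (σ i) := by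
      rw [hBn, ← prod_mul_distrib, ← mul_prod_erase _ _ (mem_univ j),
        ← mul_prod_erase _ _ (mem_univ j), ← mul_assoc]
      refine mul_le_mul ?_ (prod_le_prod (fun i _ => dpart_nonneg _ (fun y => by positivity) _ _)
        fun i _ => ?_) (prod_nonneg fun i _ => dpart_nonneg _ (fun y => by positivity) _ _)
        (mul_nonneg (by positivity) (dpart_nonneg _ (fun y => zero_le_one) _ _))
      · simp [dpart, actn, hj]
      · simp only [dpart, actn]
        split_ifs <;> simp [hB]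
    have h2 : 0 ≤ ((2 : ℝ) ^ pB L) ^ n * (2 ^ pB L *
        ∏ i, dpart Prod.snd (fun y : XX n => if y.1 = 2 then (0 : ℝ) else 1) i (σ i)) := by
      positivity
    linarith

lemma final_real {N : ℕ} {e x D Zi Zf a b r : ℝ} (he : 0 < e) (he1 : e < 1 / 8) (hD : 0 < D)
    (hZi1 : D ≤ Zi) (hZi2 : Zi ≤ D * (1 + e)) (hZf1 : D * N ≤ Zf) (hZf2 : Zf ≤ D * (N + e))
    (ha : 1 - e ≤ a) (hb : b ≤ 1 + e) (hx : 0 ≤ x) (hr : 0 < r)
    (hl : a * Zf * r ≤ x * Zi) (hu : x * Zi ≤ b * Zf * r) :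
    (1 - 2 * e) * N * r ≤ x ∧ x ≤ (1 + e) * (N + e) * r := by
  have hN : (0 : ℝ) ≤ N := Nat.cast_nonneg N
  have hZf0 : 0 ≤ Zf := le_trans (by positivity) hZf1
  constructor
  · have h1 : (1 - e) * (D * N) * r ≤ x * (D * (1 + e)) := by
      calc (1 - e) * (D * N) * r ≤ a * Zf * r := by
            gcongr
            linarith
        _ ≤ x * Zi := hl
        _ ≤ _ := by gcongr
    have h2 : (1 - 2 * e) * N * r * (D * (1 + e)) ≤ (1 - e) * (D * N) * r := by
      have : 0 ≤ e ^ 2 * (D * N * r) := by positivity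
      nlinarith
    exact le_of_mul_le_mul_right (h2.trans h1) (by positivity)
  · have h1 : x * D ≤ (1 + e) * (N + e) * r * D := by
      calc x * D ≤ x * Zi := by gcongr
        _ ≤ b * Zf * r := hu
        _ ≤ (1 + e) * (D * (N + e)) * r := by gcongr
        _ = _ := by ring
    exact le_of_mul_le_mul_right h1 hD

end MB

theorem good_final (M₁ M₂ : Matroid (Fin n)) (h₁ : M₁.E = Set.univ) (h₂ : M₂.E = Set.univ)
    (hr : M₁.eRank = M₂.eRank) (L k : ℕ) (ε : ℚ) (hε1 : ε < 1) (hk : 1 ≤ (k : ℚ) * ε)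
    (hL : n + k + 2048 ≤ 2 ^ L) (s : St n) (h : Good M₁ M₂ L n 0 s) :
    AccSt (commonBases M₁ M₂) ε s := by
  have hP : (2048 : ℝ) ≤ 2 ^ L := by exact_mod_cast (by omega : 2048 ≤ 2 ^ L)
  have hn : (n : ℝ) ≤ 2 ^ L := by exact_mod_cast (by omega : n ≤ 2 ^ L)
  have hkP : (k : ℝ) ≤ 2 ^ L := by exact_mod_cast (by omega : k ≤ 2 ^ L)
  have hk' : (1 : ℝ) ≤ k * (ε : ℝ) := by exact_mod_cast hk
  have hε1' : (ε : ℝ) < 1 := by exact_mod_cast hε1
  have hε0 : (0 : ℝ) < ε := by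
    by_contra hc
    have : (k : ℝ) * ε ≤ 0 := mul_nonpos_of_nonneg_of_nonpos (Nat.cast_nonneg k) (not_lt.1 hc)
    linarith
  have hPe : 1 / (8 * (2 : ℝ) ^ L) ≤ ε / 8 := by
    rw [div_le_div_iff₀ (by positivity) (by norm_num)]
    nlinarith
  have hB0 : (0 : ℝ) < 2 ^ pB L := by positivity
  have hS : ((n * (2 * pB L) + 0 : ℕ) : ℝ) * pγ L ≤ 1 / (16 * 2 ^ L) := by
    unfold pγ pB
    push_cast
    generalize (2 : ℝ) ^ L = P at *
    rw [← mul_div_assoc, div_le_div_iff₀ (by positivity) (by positivity)]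
    have h1 : (n : ℝ) * P ^ 2 ≤ P * P ^ 2 := by gcongr
    have h2 : 640 * P ^ 3 ≤ P ^ 2 * P ^ 3 := by gcongr; nlinarith
    nlinarith
  have hγ0 : 0 ≤ pγ L := by unfold pγ; positivity
  have hγ1 : pγ L ≤ 1 := by
    unfold pγ
    rw [div_le_one (by positivity)]
    calc (10 : ℝ) ≤ 2048 ^ 5 := by norm_num
      _ ≤ _ := by gcongr
  have h16 : 2 * (1 / (16 * (2 : ℝ) ^ L)) = 1 / (8 * 2 ^ L) := by field_simp; norm_num
  have h16' : 0 < 1 / (16 * (2 : ℝ) ^ L) := by positivity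
  have hb := pow_le_of hγ0 hS (by linarith)
  have ha := one_add_mul_le_pow (a := -pγ L) (by linarith) (n * (2 * pB L) + 0)
  have h3 : (3 : ℝ) ^ n ≤ 2 ^ pB L * (ε / 8) := by
    have h1 : 8 * (2 : ℝ) ^ L * 3 ^ (2 ^ L) ≤ 2 ^ pB L := by
      rw [two_pow_pB]; exact_mod_cast three_four (2 ^ L) (by omega)
    have h2 : (3 : ℝ) ^ n ≤ 3 ^ (2 ^ L) := pow_le_pow_right₀ (by norm_num) (by omega)
    calc (3 : ℝ) ^ n ≤ 8 * (2 : ℝ) ^ L * 3 ^ (2 ^ L) * (1 / (8 * 2 ^ L)) := by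
          refine h2.trans (le_of_eq ?_); field_simp
      _ ≤ _ := by gcongr
  have hZf2 : Z0 M₁ M₂ (act L n 0) ≤ ((2 : ℝ) ^ pB L) ^ n * (commonBases M₁ M₂ + ε / 8) := by
    refine le_of_mul_le_mul_left ((Zn_le M₁ M₂ h₁ h₂ hr L).trans ?_) hB0
    calc ((2 : ℝ) ^ pB L) ^ n * (2 ^ pB L * commonBases M₁ M₂ + 3 ^ n)
        ≤ ((2 : ℝ) ^ pB L) ^ n * (2 ^ pB L * commonBases M₁ M₂ + 2 ^ pB L * (ε / 8)) := by gcongr
      _ = _ := by ring
  have hden : (0 : ℝ) < s.den := by exact_mod_cast h.den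
  have hBn : (0 : ℝ) < (2 ^ pB L) ^ n := by positivity
  have hsq : (((2 : ℝ) ^ pB L) ^ 2) ^ n = (2 ^ pB L) ^ n * (2 ^ pB L) ^ n := by
    rw [← mul_pow, sq]
  obtain ⟨k1, k2⟩ := final_real (N := commonBases M₁ M₂) (e := ε / 8) (x := s.num)
    (D := (((2 : ℝ) ^ pB L) ^ 2) ^ n) (Zi := Z0 M₁ M₂ (act L 0 0))
    (Zf := Z0 M₁ M₂ (act L n 0) * (2 ^ pB L) ^ n) (a := (1 - pγ L) ^ (n * (2 * pB L) + 0))
    (b := (1 + pγ L) ^ (n * (2 * pB L) + 0)) (r := s.den) (by linarith) (by linarith)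
    (by positivity) (Z00_ge M₁ M₂ h₁ h₂ L)
    ((Z00_le M₁ M₂ h₁ h₂ L (by omega)).trans (by gcongr))
    (by
      have := mul_le_mul_of_nonneg_right (Zn_ge M₁ M₂ h₁ h₂ hr L) hBn.le
      rw [hsq]; linarith)
    (by
      have := mul_le_mul_of_nonneg_right hZf2 hBn.le
      rw [hsq]; linarith)
    (by rw [sub_eq_add_neg 1 (pγ L)]; linarith) (by linarith) (Nat.cast_nonneg _) hden
    (by have := h.lower; rw [pow_mul] at this; linarith)
    (by have := h.upper; rw [pow_mul] at this; linarith)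
  generalize commonBases M₁ M₂ = N at *
  have key : (1 - (ε : ℝ)) * N ≤ (outNum s : ℝ) / s.den ∧
      (outNum s : ℝ) / s.den ≤ (1 + (ε : ℝ)) * N := by
    rw [le_div_iff₀ hden, div_le_iff₀ hden]
    rcases Nat.eq_zero_or_pos N with rfl | hN
    · have h1 : (s.num : ℝ) + s.num < s.den := by
        have : (1 + (ε : ℝ) / 8) * (ε / 8) ≤ 1 / 4 := by nlinarith
        simp only [Nat.cast_zero, zero_add] at k2
        nlinarith
      have h2 : s.num + s.num < s.den := by exact_mod_cast h1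
      simp [outNum, h2]
    · have hN' : (1 : ℝ) ≤ N := by exact_mod_cast hN
      have hNd : (s.den : ℝ) ≤ N * s.den := by nlinarith
      have h1 : ¬ (s.num + s.num < s.den) := by
        intro hc
        have hc' : (s.num : ℝ) + s.num < s.den := by exact_mod_cast hc
        have : 3 / 4 * (N * s.den) ≤ (1 - 2 * ((ε : ℝ) / 8)) * (N * s.den) := by
          gcongr; linarith
        linarith
      rw [outNum, if_neg h1]
      have hNd0 : (0 : ℝ) ≤ ε * (N * s.den) := by positivity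
      constructor
      · linarith
      · refine k2.trans (mul_le_mul_of_nonneg_right ?_ hden.le)
        nlinarith
  refine ⟨h.den.ne', ?_, ?_⟩
  · have := key.1
    rw [← Rat.cast_le (K := ℝ)]
    push_cast
    exact this
  · have := key.2
    rw [← Rat.cast_le (K := ℝ)]
    push_cast
    exact this

end Vale.Agent.P317
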