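import Vale.Agent.P317.Gauge
import Vale.Agent.P317.Defs

/-! P317: the abstract algorithm (as expectation transformers) and the invariants of its analysis. -/

namespace Vale.Agent.P317
open Finset

/-- Ground set: type 0 = element of the first matroid, type 1 = element of the dual of the second
matroid, type 2 = free element. The second coordinate is the part. -/
abbrev XX (n : ℕ) : Type := Fin 3 × Fin n

variable {n : ℕ}

def Valid (M₁ M₂ : Matroid (Fin n)) (σ : Fin n → XX n) : Prop :=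
  Function.Injective σ ∧ M₁.Indep {p | ∃ j, σ j = (0, p)} ∧ M₂.Coindep {p | ∃ j, σ j = (1, p)}

def pP (L : ℕ) : ℕ := 2 ^ L
def pH (L : ℕ) : ℕ := 3 * L
def pB (L : ℕ) : ℕ := 2 * 2 ^ L
def pD (L : ℕ) : ℕ := (2 ^ L) ^ 4
def pT (L : ℕ) : ℕ := (2 ^ L) ^ 21
def pK (L : ℕ) : ℕ := (2 ^ L) ^ 14
def pK1 (L : ℕ) : ℕ := 32 * (2 ^ L) ^ 12
noncomputable def pθ (L : ℕ) : ℝ := 1 / (8 * ((2 : ℝ) ^ L) ^ 3)

/-- Exponent of the weight of an assignment. -/
def Kx (L : ℕ) (w : XX n → ℕ) (σ : Fin n → XX n) : ℕ :=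
  ∑ j, (w (σ j) + if (σ j).2 = j then pH L else 0)

open Classical in
/-- Acceptance probability. -/
noncomputable def accM (M₁ M₂ : Matroid (Fin n)) (L : ℕ) (w : XX n → ℕ)
    (σ σ' : Fin n → XX n) : ℝ :=
  if Valid M₁ M₂ σ' then (2 : ℝ) ^ (pD L - (Kx L w σ - Kx L w σ')) / 2 ^ pD L else 0

/-- The all-free start state. -/
def sig0 (n : ℕ) : Fin n → XX n := fun j => (2, j)

/-- Number of positions outside their own part. -/
def offs (σ : Fin n → XX n) : ℕ := (univ.filter fun j => (σ j).2 ≠ j).card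

structure Cnt (n : ℕ) : Type where
  c0 : ℕ
  c1 : ℕ
  cn : Fin n → ℕ

def count (p : ℕ) (c : Cnt n) (σ : Fin n → XX n) : Cnt n where
  c0 := c.c0 + if offs σ = 0 then 1 else 0
  c1 := c.c1 + if offs σ = 0 ∧ ∀ j : Fin n, j.val = p → (σ j).1 ≠ 2 then 1 else 0
  cn := fun j => c.cn j + if offs σ = 1 ∧ (σ j).2 ≠ j then 1 else 0

noncomputable def sampleOp (M₁ M₂ : Matroid (Fin n)) (L p : ℕ) (w : XX n → ℕ)
    (ψ : Cnt n → ℝ) (c : Cnt n) : ℝ :=
  (stepG (pθ L) (accM M₁ M₂ L w))^[pT L] (fun σ => ψ (count p c σ)) (sig0 n)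

structure St (n : ℕ) : Type where
  w : XX n → ℕ
  num : ℕ
  den : ℕ

def updSt (L p : ℕ) (s : St n) (c : Cnt n) : St n where
  w := fun y => (s.w y + if pK1 L ≤ c.cn y.2 then 2 else 0) -
    if y.1 = 2 ∧ y.2.val = p then 1 else 0
  num := s.num * min (c.c0 + c.c1) (4 * pK L)
  den := s.den * min (c.c0 + c.c0) (4 * pK L)

noncomputable def stageOp (M₁ M₂ : Matroid (Fin n)) (L p : ℕ) (ψ : St n → ℝ) (s : St n) : ℝ :=
  (sampleOp M₁ M₂ L p s.w)^[pK L] (fun c => ψ (updSt L p s c)) ⟨0, 0, fun _ => 0⟩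

noncomputable def outerOp (M₁ M₂ : Matroid (Fin n)) (L : ℕ) (ψ : St n × ℕ → ℝ)
    (x : St n × ℕ) : ℝ :=
  (stageOp M₁ M₂ L x.2)^[2 * pB L] (fun s => ψ (s, x.2 + 1)) x.1

def st0 (n L : ℕ) : St n where
  w := fun y => if y.1 = 2 then 2 * pB L else pB L
  num := 2 ^ (pB L * n)
  den := 1

/-- The numerator that is finally output. -/
def outNum (s : St n) : ℕ := if s.num + s.num < s.den then 0 else s.num

def AccSt (N : ℕ) (ε : ℚ) (s : St n) : Prop :=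
  s.den ≠ 0 ∧ (1 - ε) * N ≤ (outNum s : ℚ) / (s.den : ℚ) ∧
    (outNum s : ℚ) / (s.den : ℚ) ≤ (1 + ε) * N

/-! Objects of the analysis. -/

/-- The matroid on `XX n`: first matroid, dual of the second, free matroid. -/
noncomputable def bigM (M₁ M₂ : Matroid (Fin n)) : Matroid (XX n) :=
  Matroid.sum' ![M₁, M₂.dual, Matroid.freeOn Set.univ]

noncomputable def rhoM (M₁ M₂ : Matroid (Fin n)) (S : Multiset (XX n)) : ℕ :=
  ((bigM M₁ M₂).eRk {y | y ∈ S}).toNat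

noncomputable def gM (M₁ M₂ : Matroid (Fin n)) : Multiset (XX n) → ℝ := gq (rhoM M₁ M₂) 0

/-- Transversal partition function for the exponents `w`. -/
noncomputable def Z0 (M₁ M₂ : Matroid (Fin n)) (w : XX n → ℕ) : ℝ :=
  VV (gM M₁ M₂) (dpart Prod.snd (fun y => (2 : ℝ) ^ w y))

noncomputable def offM (M₁ M₂ : Matroid (Fin n)) (w : XX n → ℕ) (j : Fin n) : ℝ :=
  offW (gM M₁ M₂) Prod.snd (fun y => (2 : ℝ) ^ w y) j

/-- Directions of the slack model. -/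
noncomputable def vM (L : ℕ) (w : XX n → ℕ) (j : Fin n) (y : XX n) : ℝ :=
  (2 : ℝ) ^ w y * if y.2 = j then (2 : ℝ) ^ pH L else 1

/-- Stationary weight. -/
noncomputable def WM (M₁ M₂ : Matroid (Fin n)) (L : ℕ) (w : XX n → ℕ) : (Fin n → XX n) → ℝ :=
  wt (gM M₁ M₂) (vM L w)

/-- Exponents without gauge after `u` stages for part `p`. -/
def act (L p u : ℕ) (y : XX n) : ℕ :=
  if y.1 = 2 then (if y.2.val < p then 0 else if y.2.val = p then 2 * pB L - u else 2 * pB L)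
  else pB L

noncomputable def pγ (L : ℕ) : ℝ := 10 / ((2 : ℝ) ^ L) ^ 5

structure Good (M₁ M₂ : Matroid (Fin n)) (L p u : ℕ) (s : St n) : Prop where
  gauge : ∃ t : Fin n → ℕ, (∀ y, s.w y = t y.2 + act L p u y) ∧
    ∀ j, t j ≤ 2 * (p * (2 * pB L) + u)
  bal : ∀ j, offM M₁ M₂ s.w j ≤ 320 * (2 : ℝ) ^ L * Z0 M₁ M₂ s.w
  den : 0 < s.den
  lower : (1 - pγ L) ^ (p * (2 * pB L) + u) * Z0 M₁ M₂ (act L p u) * 2 ^ (pB L * n) * s.den ≤
    s.num * Z0 M₁ M₂ (act L 0 0)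
  upper : s.num * Z0 M₁ M₂ (act L 0 0) ≤
    (1 + pγ L) ^ (p * (2 * pB L) + u) * Z0 M₁ M₂ (act L p u) * 2 ^ (pB L * n) * s.den

end Vale.Agent.P317
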