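import Vale.Agent.P317.Lor

/-! P317: the dual-norm inequality obtained from the signed Lorentzian theorem. -/

namespace Vale.Agent.P317.Po
open Finset

variable {Y : Type} [Fintype Y] [DecidableEq Y]

def phi (C m : ℕ) : ℝ := (m : ℝ) * ((C : ℝ) - m)

def G0 (C : ℕ) (g : Multiset Y → ℝ) (S : Multiset Y) : ℝ :=
  ∑ y, phi C (S.count y) * g (S.erase y)

noncomputable def G2 (g F κ : Multiset Y → ℝ) (T : Multiset Y) : ℝ :=
  (∑ y, g (y ::ₘ T) * (F (y ::ₘ T) - κ T) ^ 2) / 2

theorem G0_entry (C : ℕ) (g : Multiset Y → ℝ) (T : Multiset Y) (a b : Y) :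
    G0 C g (a ::ₘ b ::ₘ T) =
      ∑ y, phi C (T.count y) * g (a ::ₘ b ::ₘ T.erase y) +
        (phi C (T.count a + 1) - phi C (T.count a)) * g (b ::ₘ T) +
        (phi C (T.count b + 1) - phi C (T.count b)) * g (a ::ₘ T) -
        if a = b then 2 * g (a ::ₘ T) else 0 := by
  have key : ∀ y, phi C ((a ::ₘ b ::ₘ T).count y) * g ((a ::ₘ b ::ₘ T).erase y) =
      phi C (T.count y) * g (a ::ₘ b ::ₘ T.erase y) +
        (if y = a then (phi C (T.count a + 1) - phi C (T.count a)) * g (b ::ₘ T) else 0) +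
        (if y = b then (phi C (T.count b + 1) - phi C (T.count b)) * g (a ::ₘ T) else 0) -
        (if y = a then (if a = b then 2 * g (a ::ₘ T) else 0) else 0) := by
    intro y
    have h0 : phi C (T.count y) * g (a ::ₘ b ::ₘ T.erase y) =
        phi C (T.count y) * g ((a ::ₘ b ::ₘ T).erase y) := by
      by_cases hy : y ∈ T
      · rw [Multiset.erase_cons_tail_of_mem (Multiset.mem_cons_of_mem hy),
          Multiset.erase_cons_tail_of_mem hy]
      · simp [Multiset.count_eq_zero_of_notMem hy, phi]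
    rw [h0]
    by_cases ha : y = a
    · subst ha
      by_cases hb : y = b
      · subst hb
        simp only [Multiset.count_cons_self, Multiset.erase_cons_head, if_true, phi]
        push_cast; ring
      · simp only [Multiset.count_cons_self, Multiset.count_cons_of_ne hb,
          Multiset.erase_cons_head, if_true, if_neg hb]
        ring
    · by_cases hb : y = b
      · subst hb
        rw [Multiset.cons_swap a y T]
        simp only [Multiset.count_cons_self, Multiset.count_cons_of_ne ha,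
          Multiset.erase_cons_head, if_true, if_neg ha]
        ring
      · simp only [Multiset.count_cons_of_ne ha, Multiset.count_cons_of_ne hb, if_neg ha,
          if_neg hb]
        ring
  unfold G0
  simp only [key, sum_sub_distrib, sum_add_distrib, sum_ite_eq', mem_univ, if_true]

theorem G0_link (C : ℕ) (g : Multiset Y → ℝ) (T : Multiset Y) (c : Y → ℝ) :
    qf (fun a b => G0 C g (a ::ₘ b ::ₘ T)) c c =
      ∑ y, phi C (T.count y) * qf (fun a b => g (a ::ₘ b ::ₘ T.erase y)) c c +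
        2 * (∑ y, c y * g (y ::ₘ T)) *
          (∑ y, (phi C (T.count y + 1) - phi C (T.count y)) * c y) -
        2 * ∑ y, g (y ::ₘ T) * c y ^ 2 := by
  unfold qf
  simp only [G0_entry, sub_mul, add_mul, sum_sub_distrib, sum_add_distrib]
  have e1 : ∑ x, ∑ y, (∑ z, phi C (T.count z) * g (x ::ₘ y ::ₘ T.erase z)) * c x * c y =
      ∑ z, phi C (T.count z) * ∑ x, ∑ y, g (x ::ₘ y ::ₘ T.erase z) * c x * c y := by
    simp only [sum_mul, mul_sum]
    rw [sum_congr rfl (fun x _ => sum_comm), sum_comm]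
    refine sum_congr rfl fun z _ => sum_congr rfl fun x _ => sum_congr rfl fun y _ => by ring
  have e2 : ∀ p : Y → ℝ, ∑ x, ∑ y, p x * g (y ::ₘ T) * c x * c y =
      (∑ y, c y * g (y ::ₘ T)) * ∑ y, p y * c y := by
    intro p
    rw [mul_comm, sum_mul_sum]
    refine sum_congr rfl fun x _ => sum_congr rfl fun y _ => by ring
  have e3 : ∀ p : Y → ℝ, ∑ x, ∑ y, p y * g (x ::ₘ T) * c x * c y =
      (∑ y, c y * g (y ::ₘ T)) * ∑ y, p y * c y := by
    intro p
    rw [sum_mul_sum]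
    refine sum_congr rfl fun x _ => sum_congr rfl fun y _ => by ring
  have e4 : ∑ x, ∑ y, (if x = y then 2 * g (x ::ₘ T) else 0) * c x * c y =
      2 * ∑ y, g (y ::ₘ T) * c y ^ 2 := by
    rw [mul_sum]
    refine sum_congr rfl fun x _ => ?_
    simp only [ite_mul, zero_mul, sum_ite_eq, mem_univ, if_true]
    ring
  rw [e1, e2 (fun x => phi C (T.count x + 1)), e2 (fun x => phi C (T.count x)),
    e3 (fun x => phi C (T.count x + 1)), e3 (fun x => phi C (T.count x)), e4]
  ring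

theorem phi_nonneg {C m : ℕ} (h : m ≤ C) : 0 ≤ phi C m :=
  mul_nonneg (Nat.cast_nonneg _) (sub_nonneg.2 (by exact_mod_cast h))

theorem G0_pos {g : Multiset Y → ℝ} (hg : ∀ S, 0 < g S) (C : ℕ) (S : Multiset Y)
    (h0 : 0 < S.card) (hC : S.card < C) : 0 < G0 C g S := by
  obtain ⟨y, hy⟩ := Multiset.card_pos_iff_exists_mem.1 h0
  refine sum_pos' (fun z _ => mul_nonneg (phi_nonneg ?_) (hg _).le) ⟨y, mem_univ _, ?_⟩
  · exact (Multiset.count_le_card _ _).trans hC.le
  · refine mul_pos (mul_pos ?_ ?_) (hg _)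
    · exact_mod_cast Multiset.count_pos.2 hy
    · have : S.count y < C := (Multiset.count_le_card _ _).trans_lt hC
      exact sub_pos.2 (by exact_mod_cast this)

theorem link_nonpos {g : Multiset Y → ℝ} (hg : PL g) (T : Multiset Y) (y : Y) (hy : y ∈ T)
    (c : Y → ℝ) (hc : ∑ a, c a * g (a ::ₘ T) = 0) :
    qf (fun a b => g (a ::ₘ b ::ₘ T.erase y)) c c ≤ 0 := by
  have h := hg.lor (T.erase y) c (fun a => if a = y then 1 else 0) 0
    (fun a => by split_ifs <;> norm_num)
  have e1 : qf (fun a b => g (a ::ₘ b ::ₘ T.erase y)) c (fun a => if a = y then 1 else 0) = 0 := by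
    unfold qf
    simp only [mul_ite, mul_one, mul_zero, sum_ite_eq', mem_univ, if_true,
      Multiset.cons_erase hy]
    rw [← hc]
    exact sum_congr rfl fun a _ => mul_comm _ _
  have e2 : qf (fun a b => g (a ::ₘ b ::ₘ T.erase y)) (fun a => if a = y then 1 else 0)
      (fun a => if a = y then 1 else 0) = g (y ::ₘ T) := by
    unfold qf
    simp [Multiset.cons_erase hy]
  rw [e1, e2] at h
  have := hg.pos (y ::ₘ T)
  simp only [mul_zero, zero_mul, add_zero, sub_zero, ne_eq, OfNat.ofNat_ne_zero,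
    not_false_eq_true, zero_pow] at h
  by_contra hcon
  have := mul_pos (not_le.1 hcon) this
  linarith

theorem lor_G0 {g : Multiset Y → ℝ} (hg : PL g) (F κ : Multiset Y → ℝ) (lam : ℝ) (k : ℕ)
    (T : Multiset Y) (hT : T.card = k) :
    Lor (fun a b => G0 (k + 3) g (a ::ₘ b ::ₘ T))
      (fun a => g (a ::ₘ T) * (F (a ::ₘ T) + lam)) (G2 g F κ T) := by
  refine lor_of_hyper _ _ _ (fun a b => by rw [Multiset.cons_swap])
    (fun a b => (G0_pos hg.pos _ _ (by simp) (by simp [hT])).le) (fun a => g (a ::ₘ T)) 0 ?_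
  intro c t h
  have hc : ∑ a, c a * g (a ::ₘ T) = 0 := by
    simp only [dot, zero_mul, add_zero] at h
    rw [← h]; exact sum_congr rfl fun a _ => mul_comm _ _
  rw [G0_link, hc]
  have h1 : ∑ y, phi (k + 3) (T.count y) * qf (fun a b => g (a ::ₘ b ::ₘ T.erase y)) c c ≤ 0 := by
    refine sum_nonpos fun y _ => ?_
    by_cases hy : y ∈ T
    · exact mul_nonpos_of_nonneg_of_nonpos
        (phi_nonneg ((Multiset.count_le_card _ _).trans (by omega))) (link_nonpos hg T y hy c hc)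
    · simp [Multiset.count_eq_zero_of_notMem hy, phi]
  have h2 : dot (fun a => g (a ::ₘ T) * (F (a ::ₘ T) + lam)) c =
      ∑ a, g (a ::ₘ T) * (F (a ::ₘ T) - κ T) * c a := by
    have : ∑ a, g (a ::ₘ T) * (F (a ::ₘ T) + lam) * c a =
        ∑ a, (g (a ::ₘ T) * (F (a ::ₘ T) - κ T) * c a + (lam + κ T) * (c a * g (a ::ₘ T))) :=
      sum_congr rfl fun a _ => by ring
    unfold dot
    rw [this, sum_add_distrib, ← mul_sum, hc]; ring
  have h3 : 2 * t * ∑ a, g (a ::ₘ T) * (F (a ::ₘ T) - κ T) * c a ≤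
      2 * ∑ y, g (y ::ₘ T) * c y ^ 2 + t ^ 2 * G2 g F κ T := by
    unfold G2
    rw [mul_sum, mul_sum, sum_div, mul_sum, ← sum_add_distrib]
    refine sum_le_sum fun a _ => ?_
    have := mul_nonneg (hg.pos (a ::ₘ T)).le (sq_nonneg (2 * c a - t * (F (a ::ₘ T) - κ T)))
    nlinarith
  rw [h2]
  linarith

omit [DecidableEq Y] in
theorem mix_pos' {ι : Type} [Fintype ι] [DecidableEq ι] (d : ι → Y → ℝ) (hd : ∀ i y, 0 ≤ d i y)
    (σ0 : ι → Y) (h0 : ∀ i, 0 < d i (σ0 i)) (G : Multiset Y → ℝ) (S : Multiset Y)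
    (hG : ∀ σ : ι → Y, 0 < G (ms σ + S)) : 0 < mix d G S :=
  sum_pos' (fun σ _ => mul_nonneg (prod_nonneg fun i _ => hd i _) (hG σ).le)
    ⟨σ0, mem_univ _, mul_pos (prod_pos fun i _ => h0 i) (hG σ0)⟩

omit [Fintype Y] [DecidableEq Y] in
theorem ms_eq_map {ι : Type} [Fintype ι] (σ : ι → Y) : ms σ = univ.val.map σ := by
  unfold ms
  rw [Finset.sum_eq_multiset_sum, ← Multiset.sum_map_singleton (univ.val.map σ),
    Multiset.map_map]
  rfl

omit [Fintype Y] [DecidableEq Y] in
theorem card_ms' {ι : Type} [Fintype ι] (σ : ι → Y) : (ms σ).card = Fintype.card ι := by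
  rw [ms_eq_map]; simp

/-- The dual-norm inequality. -/
theorem hminus {g : Multiset Y → ℝ} (hg : PL g) (F κ : Multiset Y → ℝ) {ι : Type} [Fintype ι]
    [DecidableEq ι] (d : ι → Y → ℝ) (hd : ∀ i y, 0 ≤ d i y) (σ0 : ι → Y)
    (h0 : ∀ i, 0 < d i (σ0 i)) (y0 : Y) (c : Y → ℝ)
    (hc : ∑ y, c y * mix d g (y ::ₘ 0) = 0) :
    qf (fun a b => mix d (G0 (Fintype.card ι + 3) g) (a ::ₘ b ::ₘ 0)) c c +
      2 * ∑ y, c y * mix d (fun S => g S * F S) (y ::ₘ 0) - mix d (G2 g F κ) 0 ≤ 0 := by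
  set k := Fintype.card ι with hk
  have hz : 0 < ∑ y, mix d g (y ::ₘ 0) :=
    sum_pos (fun y _ => mix_pos' d hd σ0 h0 g _ (fun _ => hg.pos _)) ⟨y0, mem_univ _⟩
  have hQ : 0 < qf (fun a b => mix d (G0 (k + 3) g) (a ::ₘ b ::ₘ 0)) (fun _ => 1) (fun _ => 1) := by
    unfold qf
    refine sum_pos (fun a _ => sum_pos (fun b _ => ?_) ⟨y0, mem_univ _⟩) ⟨y0, mem_univ _⟩
    rw [mul_one, mul_one]
    exact mix_pos' d hd σ0 h0 _ _ (fun σ => G0_pos hg.pos _ _ (by simp) (by simp [card_ms', hk]))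
  have hmix : ∀ (lam : ℝ) (y : Y), mix d (fun S => g S * (F S + lam)) (y ::ₘ 0) =
      mix d (fun S => g S * F S) (y ::ₘ 0) + lam * mix d g (y ::ₘ 0) := by
    intro lam y
    unfold mix
    rw [mul_sum, ← sum_add_distrib]
    exact sum_congr rfl fun σ _ => by ring
  set lam := -(qf (fun a b => mix d (G0 (k + 3) g) (a ::ₘ b ::ₘ 0)) c (fun _ => 1) +
    ∑ y, mix d (fun S => g S * F S) (y ::ₘ 0)) / ∑ y, mix d g (y ::ₘ 0) with hlam
  have h := lor_mix k ι rfl (G0 (k + 3) g) (fun S => g S * (F S + lam)) (G2 g F κ)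
    (fun S hS => G0_pos hg.pos _ _ (by omega) (by omega))
    (fun T hT => lor_G0 hg F κ lam k T hT) d hd c (fun _ => 1) 1 (fun _ => zero_le_one)
  have e1 : dot (fun a => mix d (fun S => g S * (F S + lam)) (a ::ₘ 0)) c =
      ∑ y, c y * mix d (fun S => g S * F S) (y ::ₘ 0) := by
    unfold dot
    simp only [hmix]
    have : ∑ x, (mix d (fun S => g S * F S) (x ::ₘ 0) + lam * mix d g (x ::ₘ 0)) * c x =
        ∑ x, (c x * mix d (fun S => g S * F S) (x ::ₘ 0) + lam * (c x * mix d g (x ::ₘ 0))) :=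
      sum_congr rfl fun a _ => by ring
    rw [this, sum_add_distrib, ← mul_sum, hc]; ring
  have e2 : qf (fun a b => mix d (G0 (k + 3) g) (a ::ₘ b ::ₘ 0)) c (fun _ => 1) +
      1 * dot (fun a => mix d (fun S => g S * (F S + lam)) (a ::ₘ 0)) (fun _ => 1) = 0 := by
    unfold dot
    simp only [hmix, mul_one, one_mul]
    rw [sum_add_distrib, ← mul_sum, hlam]
    field_simp
    ring
  rw [e1, e2] at h
  by_contra hcon
  have := mul_pos (not_le.1 hcon) hQ
  simp only [mul_one, one_pow, one_mul, ne_eq, OfNat.ofNat_ne_zero, not_false_eq_true,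
    zero_pow] at h
  linarith

end Vale.Agent.P317.Po
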