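import Vale.Agent.P317.Poin1

/-! P317: the labelled ground set and the bookkeeping for one step of the Poincare induction. -/

namespace Vale.Agent.P317.Po
open Finset

variable {ι X : Type} [Fintype ι] [DecidableEq ι] [Fintype X] [DecidableEq X]

/-- Extend an assignment on the positions other than `e` by the value `a` at `e`. -/
def ext (e : ι) (a : X) (τ : {j // j ≠ e} → X) : ι → X :=
  fun i => if h : i = e then a else τ ⟨i, h⟩

omit [Fintype ι] [Fintype X] [DecidableEq X] in
@[simp] theorem ext_self (e : ι) (a : X) (τ : {j // j ≠ e} → X) : ext e a τ e = a := by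
  simp [ext]

omit [Fintype ι] [Fintype X] [DecidableEq X] in
@[simp] theorem ext_val (e : ι) (a : X) (τ : {j // j ≠ e} → X) (j : {j // j ≠ e}) :
    ext e a τ j.1 = τ j := by
  simp [ext, j.2]

def extEquiv (e : ι) : X × ({j // j ≠ e} → X) ≃ (ι → X) where
  toFun p := ext e p.1 p.2
  invFun σ := (σ e, fun j => σ j.1)
  left_inv p := by ext <;> simp
  right_inv σ := by
    funext i
    by_cases h : i = e
    · subst h; simp
    · simp [ext, h]

omit [DecidableEq X] in
theorem sum_ext (e : ι) (F : (ι → X) → ℝ) : ∑ σ, F σ = ∑ a, ∑ τ, F (ext e a τ) := by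
  rw [← (extEquiv e).sum_comp F, Fintype.sum_prod_type]
  rfl

theorem sum_split {M : Type} [AddCommMonoid M] (e : ι) (F : ι → M) :
    ∑ i, F i = F e + ∑ j : {j // j ≠ e}, F j.1 := by
  rw [← Finset.add_sum_erase _ _ (mem_univ e)]
  congr 1
  exact Finset.sum_subtype _ (by simp) _

theorem prod_split (e : ι) (F : ι → ℝ) : ∏ i, F i = F e * ∏ j : {j // j ≠ e}, F j.1 := by
  rw [← Finset.mul_prod_erase _ _ (mem_univ e)]
  congr 1
  exact Finset.prod_subtype _ (by simp) _

omit [Fintype X] [DecidableEq X] in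
theorem ms_ext (e : ι) (a : X) (τ : {j // j ≠ e} → X) : ms (ext e a τ) = a ::ₘ ms τ := by
  unfold ms
  rw [sum_split e]
  simp

omit [Fintype X] [DecidableEq X] in
theorem wt_ext (g : Multiset X → ℝ) (v : ι → X → ℝ) (e : ι) (a : X) (τ : {j // j ≠ e} → X) :
    wt g v (ext e a τ) =
      v e a * wt (fun S => g (a ::ₘ S)) (fun j : {j // j ≠ e} => v j.1) τ := by
  unfold wt
  rw [prod_split e, ms_ext]
  simp [mul_assoc]

omit [Fintype X] in
theorem ms_update (σ : ι → X) (j : ι) (y : X) :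
    ms (Function.update σ j y) = y ::ₘ (ms σ).erase (σ j) := by
  unfold ms
  rw [sum_split j, sum_split j (fun i => ({σ i} : Multiset X))]
  simp only [Function.update_self, Multiset.singleton_add, Multiset.erase_cons_head]
  congr 1
  exact sum_congr rfl fun i _ => by rw [Function.update_of_ne i.2]

/-- The labelled multiset of an assignment on the positions other than `e`. -/
def lab (e : ι) (τ : {j // j ≠ e} → X) : Multiset (ι × X) := ms fun j => (j.1, τ j)

/-- The weight function on the labelled ground set. -/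
def gh (g : Multiset X → ℝ) (v : ι → X → ℝ) (S : Multiset (ι × X)) : ℝ :=
  (S.map fun z => v z.1 z.2).prod * g (S.map Prod.snd)

omit [Fintype X] [DecidableEq X] in
theorem mem_lab {e : ι} {τ : {j // j ≠ e} → X} {z : ι × X} :
    z ∈ lab e τ ↔ ∃ j : {j // j ≠ e}, (j.1, τ j) = z := by
  unfold lab; rw [ms_eq_map]; simp

omit [Fintype X] [DecidableEq X] in
theorem lab_inj {e : ι} {τ τ' : {j // j ≠ e} → X} (h : lab e τ = lab e τ') : τ = τ' := by
  funext j
  have : (j.1, τ j) ∈ lab e τ' := h ▸ mem_lab.2 ⟨j, rfl⟩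
  obtain ⟨j', hj⟩ := mem_lab.1 this
  simp only [Prod.mk.injEq] at hj
  have : j' = j := Subtype.ext hj.1
  subst this
  exact hj.2.symm

omit [Fintype X] in
theorem lab_update (e : ι) (τ : {j // j ≠ e} → X) (j : {j // j ≠ e}) (y : X) :
    lab e (Function.update τ j y) = (j.1, y) ::ₘ (lab e τ).erase (j.1, τ j) := by
  unfold lab
  rw [← ms_update (fun j : {j // j ≠ e} => (j.1, τ j)) j (j.1, y)]
  congr 1
  funext i
  by_cases h : i = j
  · subst h; simp
  · simp [Function.update_of_ne h]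

omit [Fintype X] [DecidableEq X] in
theorem lab_fst (e : ι) (τ : {j // j ≠ e} → X) :
    (lab e τ).map Prod.fst = univ.val.map (Subtype.val : {j // j ≠ e} → ι) := by
  unfold lab; rw [ms_eq_map, Multiset.map_map]; rfl

omit [Fintype X] in
theorem rel_cases {e j j' : ι} {a y : X} {τ τ' : {j // j ≠ e} → X}
    (h : (j', a) ::ₘ lab e τ' = (j, y) ::ₘ lab e τ) :
    (a = y ∧ τ' = τ) ∨ ∃ hj : j ≠ e, a = τ ⟨j, hj⟩ ∧ τ' = Function.update τ ⟨j, hj⟩ y := by
  rcases Multiset.cons_eq_cons.1 h with ⟨h1, h2⟩ | ⟨-, cs, h1, h2⟩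
  · exact Or.inl ⟨(Prod.mk.inj h1).2, lab_inj h2⟩
  · right
    have hf : j = j' := by
      have e1 := lab_fst e τ'
      have e2 := lab_fst e τ
      rw [h1] at e1
      rw [h2, ← e1] at e2
      simpa using e2.symm
    subst hf
    obtain ⟨i, hi⟩ := mem_lab.1 (h2 ▸ Multiset.mem_cons_self _ _ : (j, a) ∈ lab e τ)
    simp only [Prod.mk.injEq] at hi
    obtain ⟨i, hie⟩ := i
    simp only at hi
    obtain ⟨rfl, hi⟩ := hi
    refine ⟨hie, hi.symm, lab_inj ?_⟩
    rw [lab_update, h1, h2, hi]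
    simp

omit [Fintype X] in
theorem count_lab (e : ι) (τ : {j // j ≠ e} → X) (j : {j // j ≠ e}) :
    (lab e τ).count (j.1, τ j) = 1 := by
  unfold lab
  rw [ms_eq_map, Multiset.count_map_eq_count' (fun j : {j // j ≠ e} => (j.1, τ j)) _
    (fun a b h => Subtype.ext (Prod.mk.inj h).1) j]
  simp

theorem sum_phi_lab (C : ℕ) (e : ι) (τ : {j // j ≠ e} → X) (h : ι × X → ℝ) :
    ∑ z, phi C ((lab e τ).count z) * h z = phi C 1 * ∑ j : {j // j ≠ e}, h (j.1, τ j) := by
  rw [mul_sum]
  symm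
  refine Finset.sum_of_injOn (fun j : {j // j ≠ e} => (j.1, τ j))
    (fun a _ b _ h => Subtype.ext (Prod.mk.inj h).1) (fun _ _ => by simp) ?_ ?_
  · intro z _ hz
    have : z ∉ lab e τ := fun hm => by
      obtain ⟨j, hj⟩ := mem_lab.1 hm
      exact hz ⟨j, by simp, hj⟩
    simp [Multiset.count_eq_zero_of_notMem this, phi]
  · intro j _
    rw [count_lab]

omit [Fintype X] in
theorem count_lab_e (e : ι) (τ : {j // j ≠ e} → X) (a : X) : (lab e τ).count (e, a) = 0 := by
  refine Multiset.count_eq_zero_of_notMem fun hm => ?_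
  obtain ⟨j, hj⟩ := mem_lab.1 hm
  exact j.2 (Prod.mk.inj hj).1

omit [Fintype ι] [DecidableEq ι] [Fintype X] [DecidableEq X] in
theorem gh_cons (g : Multiset X → ℝ) (v : ι → X → ℝ) (i : ι) (b : X) (S : Multiset (ι × X)) :
    gh g v ((i, b) ::ₘ S) =
      v i b * ((S.map fun z => v z.1 z.2).prod * g (b ::ₘ S.map Prod.snd)) := by
  simp [gh, mul_assoc]

omit [Fintype ι] [DecidableEq ι] [Fintype X] [DecidableEq X] in
theorem prod_lab_pos {v : ι → X → ℝ} (hv : ∀ i y, 0 < v i y) (S : Multiset (ι × X)) :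
    0 < (S.map fun z => v z.1 z.2).prod :=
  Multiset.prod_pos (by
    intro x hx
    obtain ⟨z, -, rfl⟩ := Multiset.mem_map.1 hx
    exact hv _ _)

omit [Fintype ι] [DecidableEq ι] [Fintype X] [DecidableEq X] in
theorem gh_relabel {g : Multiset X → ℝ} (hg : ∀ S, 0 < g S) {v : ι → X → ℝ} {H : ℝ}
    (hv : ∀ i y, 0 < v i y) (hH : ∀ i j y, v i y ≤ H * v j y) (i i' : ι) (b : X)
    (S : Multiset (ι × X)) : gh g v ((i, b) ::ₘ S) ≤ H * gh g v ((i', b) ::ₘ S) := by
  rw [gh_cons, gh_cons, ← mul_assoc H]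
  exact mul_le_mul_of_nonneg_right (hH i i' b) (mul_pos (prod_lab_pos hv S) (hg _)).le

omit [Fintype X] [DecidableEq X] in
theorem gh_ext (g : Multiset X → ℝ) (v : ι → X → ℝ) (e : ι) (a : X) (τ : {j // j ≠ e} → X) :
    gh g v ((e, a) ::ₘ lab e τ) = wt g v (ext e a τ) := by
  rw [gh_cons, wt_ext]
  unfold wt lab
  rw [ms_eq_map, ms_eq_map, Multiset.map_map, Multiset.map_map]
  rfl

omit [DecidableEq ι] [DecidableEq X] in
theorem qf_pull (Q : X → X → ℝ) (v : ι → X → ℝ) (K : ℝ) (c c' : ι × X → ℝ) :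
    qf (fun a b : ι × X => v a.1 a.2 * (v b.1 b.2 * K) * Q a.2 b.2) c c' =
      K * qf Q (fun x => ∑ i, v i x * c (i, x)) (fun x => ∑ i, v i x * c' (i, x)) := by
  unfold qf
  simp only [Fintype.sum_prod_type, mul_sum, sum_mul]
  rw [sum_comm]
  refine sum_congr rfl fun x _ => ?_
  rw [sum_congr rfl fun i _ => sum_comm, sum_comm]
  refine sum_congr rfl fun y _ => ?_
  rw [sum_comm]
  exact sum_congr rfl fun i _ => sum_congr rfl fun j _ => by ring

omit [DecidableEq ι] [DecidableEq X] in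
theorem pl_gh {g : Multiset X → ℝ} (hg : PL g) {v : ι → X → ℝ} (hv : ∀ i y, 0 < v i y) :
    PL (gh g v) := by
  refine ⟨fun S => mul_pos (prod_lab_pos hv S) (hg.pos _), fun T c z t hz => ?_⟩
  have e : (fun a b : ι × X => gh g v (a ::ₘ b ::ₘ T)) = fun a b : ι × X =>
      v a.1 a.2 * (v b.1 b.2 * (T.map fun z => v z.1 z.2).prod) *
        g (a.2 ::ₘ b.2 ::ₘ T.map Prod.snd) := by
    funext a b; simp [gh]
  rw [e]
  have h := hg.lor (T.map Prod.snd) (fun x => ∑ i, v i x * c (i, x))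
    (fun x => ∑ i, v i x * z (i, x)) 0
    (fun x => sum_nonneg fun i _ => mul_nonneg (hv _ _).le (hz _))
  rw [qf_pull (fun a b => g (a ::ₘ b ::ₘ T.map Prod.snd)),
    qf_pull (fun a b => g (a ::ₘ b ::ₘ T.map Prod.snd)),
    qf_pull (fun a b => g (a ::ₘ b ::ₘ T.map Prod.snd))]
  simp only [dot, zero_mul, sum_const_zero, mul_zero, add_zero, sub_zero] at h ⊢
  have := mul_le_mul_of_nonneg_left h (sq_nonneg (T.map fun z => v z.1 z.2).prod)
  nlinarith

/-- Directions: indicator of the label. -/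
def dl (e : ι) (j : {j // j ≠ e}) (z : ι × X) : ℝ := if z.1 = j.1 then 1 else 0

omit [DecidableEq X] in
theorem mix_dl (e : ι) (G : Multiset (ι × X) → ℝ) (S : Multiset (ι × X)) :
    mix (dl e) G S = ∑ τ : {j // j ≠ e} → X, G (lab e τ + S) := by
  classical
  unfold mix
  symm
  refine Finset.sum_of_injOn (fun (τ : {j // j ≠ e} → X) (j : {j // j ≠ e}) => (j.1, τ j))
    (fun a _ b _ h => funext fun j => (Prod.mk.inj (congrFun h j)).2) (fun _ _ => by simp) ?_ ?_
  · intro σ _ hσ
    have : ∃ j, (σ j).1 ≠ j.1 := by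
      by_contra hcon
      push Not at hcon
      exact hσ ⟨fun j => (σ j).2, by simp, funext fun j => Prod.ext (hcon j).symm rfl⟩
    obtain ⟨j, hj⟩ := this
    rw [prod_eq_zero (mem_univ j) (by simp [dl, hj]), zero_mul]
  · intro τ _
    simp [dl, lab]

omit [Fintype ι] [Fintype X] [DecidableEq X] in
theorem mv_ext_ee (e : ι) (a y : X) (τ : {j // j ≠ e} → X) :
    mv e e y (ext e a τ) = ext e y τ := by
  funext i
  by_cases h : i = e
  · subst h; simp [mv]
  · simp [mv, ext, h]

omit [Fintype ι] [Fintype X] [DecidableEq X] in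
theorem mv_ext_ej (e : ι) (a y : X) (τ : {j // j ≠ e} → X) (j : {j // j ≠ e}) :
    mv e j.1 y (ext e a τ) = ext e (τ j) (Function.update τ j y) := by
  funext i
  by_cases h : i = e
  · subst h; simp [mv, Function.update_of_ne j.2.symm]
  · by_cases h' : i = j.1
    · subst h'; simp [mv]
    · have : (⟨i, h⟩ : {j // j ≠ e}) ≠ j := fun hh => h' (congrArg Subtype.val hh)
      simp [mv, ext, h, h', Function.update_of_ne this]

omit [Fintype ι] [Fintype X] [DecidableEq X] in
theorem mv_ext_ij (e : ι) (a y : X) (τ : {j // j ≠ e} → X) (i j : {j // j ≠ e}) :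
    mv i.1 j.1 y (ext e a τ) = ext e a (mv i j y τ) := by
  funext l
  by_cases h : l = e
  · subst h; simp [mv, Function.update_of_ne j.2.symm, Function.update_of_ne i.2.symm]
  · have e1 : ∀ k : {j // j ≠ e}, l = k.1 ↔ (⟨l, h⟩ : {j // j ≠ e}) = k := fun k =>
      ⟨fun hh => Subtype.ext hh, fun hh => congrArg Subtype.val hh⟩
    simp only [mv, ext, h, dif_neg, not_false_eq_true, Function.update_apply, e1, j.2]

omit [DecidableEq X] in
theorem sum_update_swap {κ : Type} [Fintype κ] [DecidableEq κ] (j : κ) (F : (κ → X) → ℝ) :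
    ∑ τ : κ → X, ∑ b, F (Function.update τ j b) = Fintype.card X * ∑ τ, F τ := by
  rw [sum_ext j, sum_ext j F]
  have : ∀ a (τ : {i // i ≠ j} → X) b, Function.update (ext j a τ) j b = ext j b τ := by
    intro a τ b
    funext i
    by_cases h : i = j
    · subst h; simp
    · simp [ext, h]
  simp only [this]
  rw [sum_const, sum_comm]
  simp

end Vale.Agent.P317.Po
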