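import Vale.Agent.P317.Poin2

/-! P317: the variance of the conditional expectation given one position. -/

namespace Vale.Agent.P317.Po
open Finset

variable {ι X : Type} [Fintype ι] [DecidableEq ι] [Fintype X] [DecidableEq X]

def term (W f : (ι → X) → ℝ) (i j : ι) (y : X) (σ : ι → X) : ℝ :=
  min (W σ) (W (mv i j y σ)) * (f σ - f (mv i j y σ)) ^ 2

def Ee (W f : (ι → X) → ℝ) (e : ι) : ℝ := ∑ σ, ∑ j, ∑ y, term W f e j y σ

omit [Fintype ι] [Fintype X] [DecidableEq X] in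
theorem term_nonneg {W : (ι → X) → ℝ} (hW : ∀ σ, 0 ≤ W σ) (f : (ι → X) → ℝ) (i j : ι) (y : X)
    (σ : ι → X) : 0 ≤ term W f i j y σ :=
  mul_nonneg (le_min (hW _) (hW _)) (sq_nonneg _)

omit [DecidableEq ι] [Fintype X] [DecidableEq X] in
theorem wt_pos {g : Multiset X → ℝ} (hg : ∀ S, 0 < g S) {v : ι → X → ℝ} (hv : ∀ i y, 0 < v i y)
    (σ : ι → X) : 0 < wt g v σ := mul_pos (prod_pos fun _ _ => hv _ _) (hg _)

def cE (e : ι) (x : X → ℝ) (z : ι × X) : ℝ := if z.1 = e then x z.2 else 0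

omit [DecidableEq X] in
theorem sum_cE (e : ι) (x : X → ℝ) (h : ι × X → ℝ) :
    ∑ z, cE e x z * h z = ∑ a, x a * h (e, a) := by
  rw [Fintype.sum_prod_type, sum_comm]
  refine sum_congr rfl fun a _ => ?_
  simp [cE]

omit [DecidableEq X] in
theorem qf_cE (e : ι) (x : X → ℝ) (Q : ι × X → ι × X → ℝ) :
    qf Q (cE e x) (cE e x) = ∑ a, ∑ b, Q (e, a) (e, b) * x a * x b := by
  unfold qf
  have : ∀ z, ∑ z', Q z z' * cE e x z * cE e x z' = cE e x z * ∑ b, x b * Q z (e, b) := by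
    intro z
    rw [← sum_cE e x (fun z' => Q z z'), mul_sum]
    exact sum_congr rfl fun _ _ => by ring
  simp only [this]
  rw [sum_cE]
  refine sum_congr rfl fun a _ => ?_
  rw [mul_sum]
  exact sum_congr rfl fun _ _ => by ring

omit [DecidableEq X] in
theorem neg_qf_le (Q : X → X → ℝ) (hs : ∀ a b, Q a b = Q b a) (hq : ∀ a b, 0 ≤ Q a b)
    (x : X → ℝ) : -∑ a, ∑ b, Q a b * x a * x b ≤ ∑ a, x a ^ 2 * ∑ b, Q a b := by
  have h1 : ∑ a, x a ^ 2 * ∑ b, Q a b = ∑ a, ∑ b, Q a b * x a ^ 2 :=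
    sum_congr rfl fun a _ => by rw [mul_sum]; exact sum_congr rfl fun b _ => mul_comm _ _
  have h2 : ∑ a, ∑ b, Q a b * x a ^ 2 = ∑ a, ∑ b, Q a b * x b ^ 2 := by
    rw [sum_comm]
    exact sum_congr rfl fun a _ => sum_congr rfl fun b _ => by rw [hs]
  have h3 : 0 ≤ ∑ a, ∑ b, Q a b * (x a + x b) ^ 2 :=
    sum_nonneg fun a _ => sum_nonneg fun b _ => mul_nonneg (hq a b) (sq_nonneg _)
  have h4 : ∑ a, ∑ b, Q a b * (x a + x b) ^ 2 = ∑ a, ∑ b, Q a b * x a ^ 2 +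
      ∑ a, ∑ b, Q a b * x b ^ 2 + 2 * ∑ a, ∑ b, Q a b * x a * x b := by
    simp only [mul_sum, ← sum_add_distrib]
    exact sum_congr rfl fun a _ => sum_congr rfl fun b _ => by ring
  linarith

theorem quad_bound {g : Multiset X → ℝ} (hg : ∀ S, 0 < g S) {v : ι → X → ℝ} {H : ℝ}
    (hv : ∀ i y, 0 < v i y) (hH : ∀ i j y, v i y ≤ H * v j y) (e : ι) (x : X → ℝ) (k : ℕ)
    (hk : Fintype.card {j // j ≠ e} = k)
    (hx : ∑ a, x a * ∑ τ, wt g v (ext e a τ) = 0) :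
    -qf (fun a b => mix (dl e) (G0 (k + 3) (gh g v)) (a ::ₘ b ::ₘ 0)) (cE e x) (cE e x) ≤
      (((k : ℝ) + 2) * (k * (Fintype.card X * H)) + 2) *
        ∑ a, x a ^ 2 * ∑ τ, wt g v (ext e a τ) := by
  have hgh : ∀ S, 0 < gh g v S := fun S => mul_pos (prod_lab_pos hv S) (hg _)
  have e0 : qf (fun a b => mix (dl e) (G0 (k + 3) (gh g v)) (a ::ₘ b ::ₘ 0)) (cE e x) (cE e x) =
      ∑ τ, qf (fun a b => G0 (k + 3) (gh g v) (a ::ₘ b ::ₘ lab e τ)) (cE e x) (cE e x) := by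
    unfold qf
    simp only [mix_dl, Multiset.add_cons, add_zero, sum_mul]
    rw [sum_congr rfl fun a _ => sum_comm, sum_comm]
  have p1 : phi (k + 3) 1 = (k : ℝ) + 2 := by unfold phi; push_cast; ring
  have p0 : phi (k + 3) 0 = 0 := by simp [phi]
  have e1 : ∀ τ, qf (fun a b => G0 (k + 3) (gh g v) (a ::ₘ b ::ₘ lab e τ)) (cE e x) (cE e x) =
      ((k : ℝ) + 2) * ∑ j : {j // j ≠ e}, ∑ a, ∑ b,
          gh g v ((e, a) ::ₘ (e, b) ::ₘ (lab e τ).erase (j.1, τ j)) * x a * x b +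
        2 * (((k : ℝ) + 2) * ∑ a, x a) * (∑ a, x a * wt g v (ext e a τ)) -
        2 * ∑ a, x a ^ 2 * wt g v (ext e a τ) := by
    intro τ
    rw [G0_link, sum_phi_lab, p1, sum_cE]
    simp only [qf_cE, gh_ext]
    have a1 : ∑ y, (phi (k + 3) ((lab e τ).count y + 1) - phi (k + 3) ((lab e τ).count y)) *
        cE e x y = ((k : ℝ) + 2) * ∑ a, x a := by
      rw [sum_congr rfl fun y _ => mul_comm _ _, sum_cE, mul_sum]
      refine sum_congr rfl fun a _ => ?_
      rw [count_lab_e, zero_add, p1, p0]; ring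
    have a2 : ∑ y, gh g v (y ::ₘ lab e τ) * cE e x y ^ 2 =
        ∑ a, x a ^ 2 * wt g v (ext e a τ) := by
      have : ∀ y, gh g v (y ::ₘ lab e τ) * cE e x y ^ 2 =
          cE e x y * (cE e x y * gh g v (y ::ₘ lab e τ)) := fun y => by ring
      simp only [this]
      rw [sum_cE]
      refine sum_congr rfl fun a _ => ?_
      rw [gh_ext]; simp [cE]; ring
    rw [a1, a2]; ring
  have s1 : ∑ τ, ∑ a, x a * wt g v (ext e a τ) = 0 := by
    rw [sum_comm, ← hx]; exact sum_congr rfl fun a _ => by rw [mul_sum]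
  have s2 : ∑ τ, ∑ a, x a ^ 2 * wt g v (ext e a τ) =
      ∑ a, x a ^ 2 * ∑ τ, wt g v (ext e a τ) := by
    rw [sum_comm]; exact sum_congr rfl fun a _ => by rw [mul_sum]
  have s3 : ∀ j : {j // j ≠ e}, -∑ τ, ∑ a, ∑ b,
      gh g v ((e, a) ::ₘ (e, b) ::ₘ (lab e τ).erase (j.1, τ j)) * x a * x b ≤
      (Fintype.card X * H) * ∑ a, x a ^ 2 * ∑ τ, wt g v (ext e a τ) := by
    intro j
    have b1 : ∀ τ, -∑ a, ∑ b,
        gh g v ((e, a) ::ₘ (e, b) ::ₘ (lab e τ).erase (j.1, τ j)) * x a * x b ≤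
        ∑ a, x a ^ 2 * ∑ b, H * wt g v (ext e a (Function.update τ j b)) := by
      intro τ
      refine (neg_qf_le (fun a b => gh g v ((e, a) ::ₘ (e, b) ::ₘ (lab e τ).erase (j.1, τ j)))
        (fun a b => by rw [Multiset.cons_swap]) (fun a b => (hgh _).le) x).trans ?_
      refine sum_le_sum fun a _ => mul_le_mul_of_nonneg_left (sum_le_sum fun b _ => ?_)
        (sq_nonneg _)
      rw [← gh_ext, lab_update, Multiset.cons_swap, Multiset.cons_swap (e, a)]
      exact gh_relabel hg hv hH _ _ _ _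
    rw [← sum_neg_distrib]
    refine (sum_le_sum fun τ _ => b1 τ).trans (le_of_eq ?_)
    rw [sum_comm, mul_sum]
    refine sum_congr rfl fun a _ => ?_
    rw [← mul_sum, sum_update_swap j (fun τ => H * wt g v (ext e a τ)), ← mul_sum]
    ring
  have s4 := sum_le_sum fun j (_ : j ∈ univ) => s3 j
  rw [sum_const, card_univ, hk, nsmul_eq_mul, sum_neg_distrib] at s4
  rw [e0]
  simp only [e1, sum_sub_distrib, sum_add_distrib, ← mul_sum, s1, s2]
  rw [sum_comm]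
  have hk2 : (0 : ℝ) ≤ k + 2 := by positivity
  have := mul_le_mul_of_nonneg_left s4 hk2
  linarith

theorem exists_repair [Nonempty X] {g : Multiset X → ℝ} (hg : ∀ S, 0 < g S) {v : ι → X → ℝ}
    {H : ℝ} (hH1 : 1 ≤ H) (hv : ∀ i y, 0 < v i y) (hH : ∀ i j y, v i y ≤ H * v j y) (e : ι)
    (f : (ι → X) → ℝ) :
    ∃ F κ : Multiset (ι × X) → ℝ, (∀ a τ, F ((e, a) ::ₘ lab e τ) = f (ext e a τ)) ∧
      mix (dl e) (G2 (gh g v) F κ) 0 ≤ H * (Fintype.card ι + 1) / 2 * Ee (wt g v) f e := by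
  classical
  have hW : ∀ σ, 0 ≤ wt g v σ := fun σ => (wt_pos hg hv σ).le
  have hmax : ∀ τ : {j // j ≠ e} → X, ∃ a, ∀ b, wt g v (ext e b τ) ≤ wt g v (ext e a τ) := by
    intro τ
    obtain ⟨a, -, ha⟩ := exists_max_image univ (fun a => wt g v (ext e a τ)) univ_nonempty
    exact ⟨a, fun b => ha b (mem_univ _)⟩
  choose as has using hmax
  let F : Multiset (ι × X) → ℝ := fun S =>
    if h : ∃ p : X × ({j // j ≠ e} → X), ∃ j', (j', p.1) ::ₘ lab e p.2 = S then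
      f (ext e h.choose.1 h.choose.2) else 0
  let κ : Multiset (ι × X) → ℝ := fun T =>
    if h : ∃ τ, lab e τ = T then f (ext e (as h.choose) h.choose) else 0
  have hκ : ∀ τ, κ (lab e τ) = f (ext e (as τ) τ) := by
    intro τ
    have h : ∃ τ', lab e τ' = lab e τ := ⟨τ, rfl⟩
    simp only [κ, dif_pos h]
    rw [lab_inj h.choose_spec]
  have hF : ∀ j y τ, F ((j, y) ::ₘ lab e τ) = f (ext e y τ) ∨
      ∃ hj : j ≠ e, F ((j, y) ::ₘ lab e τ) =
        f (ext e (τ ⟨j, hj⟩) (Function.update τ ⟨j, hj⟩ y)) := by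
    intro j y τ
    have h : ∃ p : X × ({j // j ≠ e} → X), ∃ j', (j', p.1) ::ₘ lab e p.2 = (j, y) ::ₘ lab e τ :=
      ⟨(y, τ), j, rfl⟩
    simp only [F, dif_pos h]
    obtain ⟨j', hj'⟩ := h.choose_spec
    rcases rel_cases hj' with ⟨h1, h2⟩ | ⟨hj, h1, h2⟩
    · left; rw [h1, h2]
    · right; exact ⟨hj, by rw [h1, h2]⟩
  refine ⟨F, κ, fun a τ => ?_, ?_⟩
  · rcases hF e a τ with h | ⟨h, -⟩
    · exact h
    · exact absurd rfl h
  have hH0 : 0 ≤ H := by linarith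
  have key : ∀ τ j y, gh g v ((j, y) ::ₘ lab e τ) * (F ((j, y) ::ₘ lab e τ) - κ (lab e τ)) ^ 2 ≤
      H * (term (wt g v) f e e y (ext e (as τ) τ) + term (wt g v) f e j y (ext e (as τ) τ)) := by
    intro τ j y
    have t1 := term_nonneg hW f e e y (ext e (as τ) τ)
    have t2 := term_nonneg hW f e j y (ext e (as τ) τ)
    have g1 : gh g v ((j, y) ::ₘ lab e τ) ≤ H * wt g v (ext e y τ) := by
      rw [← gh_ext]; exact gh_relabel hg hv hH _ _ _ _
    have g2 : gh g v ((j, y) ::ₘ lab e τ) ≤ H * wt g v (ext e (as τ) τ) :=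
      g1.trans (mul_le_mul_of_nonneg_left (has τ y) hH0)
    rw [hκ]
    rcases hF j y τ with h | ⟨hj, h⟩
    · rw [h]
      have : gh g v ((j, y) ::ₘ lab e τ) * (f (ext e y τ) - f (ext e (as τ) τ)) ^ 2 ≤
          H * term (wt g v) f e e y (ext e (as τ) τ) := by
        unfold term
        rw [mv_ext_ee, ← mul_assoc, sub_sq_comm]
        refine mul_le_mul_of_nonneg_right ?_ (sq_nonneg _)
        rw [mul_min_of_nonneg _ _ hH0]
        exact le_min g2 g1
      nlinarith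
    · rw [h]
      have g3 : gh g v ((j, y) ::ₘ lab e τ) ≤
          H * wt g v (ext e (τ ⟨j, hj⟩) (Function.update τ ⟨j, hj⟩ y)) := by
        have : (j, y) ::ₘ lab e τ = (j, τ ⟨j, hj⟩) ::ₘ lab e (Function.update τ ⟨j, hj⟩ y) := by
          rw [lab_update, Multiset.cons_swap,
            Multiset.cons_erase (mem_lab.2 ⟨⟨j, hj⟩, rfl⟩)]
        rw [this, ← gh_ext]; exact gh_relabel hg hv hH _ _ _ _
      have : gh g v ((j, y) ::ₘ lab e τ) *
          (f (ext e (τ ⟨j, hj⟩) (Function.update τ ⟨j, hj⟩ y)) - f (ext e (as τ) τ)) ^ 2 ≤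
          H * term (wt g v) f e j y (ext e (as τ) τ) := by
        unfold term
        rw [mv_ext_ej e (as τ) y τ ⟨j, hj⟩, ← mul_assoc, sub_sq_comm]
        refine mul_le_mul_of_nonneg_right ?_ (sq_nonneg _)
        rw [mul_min_of_nonneg _ _ hH0]
        exact le_min g2 g3
      nlinarith
  have key2 : ∀ τ, G2 (gh g v) F κ (lab e τ) ≤ H * (Fintype.card ι + 1) / 2 *
      ∑ j, ∑ y, term (wt g v) f e j y (ext e (as τ) τ) := by
    intro τ
    unfold G2
    rw [Fintype.sum_prod_type]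
    have h1 := sum_le_sum fun j (_ : j ∈ univ) => sum_le_sum fun y (_ : y ∈ univ) => key τ j y
    simp only [← mul_sum, sum_add_distrib, sum_const, card_univ, nsmul_eq_mul] at h1
    have h2 : ∑ y, term (wt g v) f e e y (ext e (as τ) τ) ≤
        ∑ j, ∑ y, term (wt g v) f e j y (ext e (as τ) τ) :=
      single_le_sum (f := fun j => ∑ y, term (wt g v) f e j y (ext e (as τ) τ))
        (fun j _ => sum_nonneg fun y _ => term_nonneg hW _ _ _ _ _) (mem_univ e)
    have h3 := mul_le_mul_of_nonneg_left h2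
      (mul_nonneg hH0 (Nat.cast_nonneg (Fintype.card ι)))
    linarith
  rw [mix_dl]
  simp only [add_zero]
  refine (sum_le_sum fun τ _ => key2 τ).trans ?_
  rw [← mul_sum]
  refine mul_le_mul_of_nonneg_left ?_ (by positivity)
  unfold Ee
  rw [sum_ext e, sum_comm (s := (univ : Finset X))]
  refine sum_le_sum fun τ _ => ?_
  exact single_le_sum (f := fun a => ∑ j, ∑ y, term (wt g v) f e j y (ext e a τ))
    (fun a _ => sum_nonneg fun j _ => sum_nonneg fun y _ => term_nonneg hW _ _ _ _ _)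
    (mem_univ (as τ))

theorem cond_var [Nonempty X] {g : Multiset X → ℝ} (hg : PL g) {v : ι → X → ℝ}
    {H : ℝ} (hH1 : 1 ≤ H) (hv : ∀ i y, 0 < v i y) (hH : ∀ i j y, v i y ≤ H * v j y) (e : ι)
    (f : (ι → X) → ℝ) (k : ℕ) (hk : Fintype.card {j // j ≠ e} = k) (x : X → ℝ)
    (hx : ∑ a, x a * ∑ τ, wt g v (ext e a τ) = 0) :
    2 * ∑ a, x a * ∑ τ, wt g v (ext e a τ) * f (ext e a τ) ≤
      (((k : ℝ) + 2) * (k * (Fintype.card X * H)) + 2) *
        ∑ a, x a ^ 2 * ∑ τ, wt g v (ext e a τ) +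
      H * (Fintype.card ι + 1) / 2 * Ee (wt g v) f e := by
  obtain ⟨F, κ, hF, hR⟩ := exists_repair hg.pos hH1 hv hH e f
  obtain ⟨y0⟩ := ‹Nonempty X›
  have h := hminus (pl_gh hg hv) F κ (dl e) (fun i y => by unfold dl; split_ifs <;> norm_num)
    (fun j => (j.1, y0)) (fun i => by simp [dl]) (e, y0) (cE e x) (by
      rw [sum_cE, ← hx]
      simp only [mix_dl, Multiset.add_cons, add_zero, gh_ext])
  rw [hk, sum_cE] at h
  simp only [mix_dl (G := fun S => gh g v S * F S), Multiset.add_cons, add_zero, gh_ext, hF] at h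
  have := quad_bound hg.pos hv hH e x k hk hx
  linarith

end Vale.Agent.P317.Po
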