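import Vale.Agent.P317.Poin3

/-! P317 task B: the Poincare inequality for the labelled model. -/

namespace Vale.Agent.P317
open Finset

namespace Po

variable {ι X : Type} [Fintype ι] [DecidableEq ι] [Fintype X] [DecidableEq X]

omit [DecidableEq X] in
theorem dirF_nonneg {W : (ι → X) → ℝ} (hW : ∀ σ, 0 ≤ W σ) (f : (ι → X) → ℝ) : 0 ≤ dirF W f :=
  sum_nonneg fun σ _ => sum_nonneg fun i _ => sum_nonneg fun j _ => sum_nonneg fun y _ =>
    term_nonneg hW f i j y σ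

omit [DecidableEq X] in
theorem dirF_split {W : (ι → X) → ℝ} (hW : ∀ σ, 0 ≤ W σ) (f : (ι → X) → ℝ) (e : ι) :
    Ee W f e + ∑ a, dirF (fun τ => W (ext e a τ)) (fun τ => f (ext e a τ)) ≤ dirF W f := by
  have e1 : dirF W f = Ee W f e +
      ∑ σ, ∑ i : {j // j ≠ e}, ∑ j, ∑ y, term W f i.1 j y σ := by
    unfold dirF Ee
    rw [← sum_add_distrib]
    exact sum_congr rfl fun σ _ => sum_split e (fun i => ∑ j, ∑ y, term W f i j y σ)
  rw [e1, sum_ext e]
  refine add_le_add le_rfl (sum_le_sum fun a _ => ?_)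
  unfold dirF
  refine sum_le_sum fun τ _ => sum_le_sum fun i _ => ?_
  rw [sum_split e]
  have : 0 ≤ ∑ y, term W f i.1 e y (ext e a τ) := sum_nonneg fun y _ => term_nonneg hW _ _ _ _ _
  simp only [term, mv_ext_ij] at this ⊢
  linarith

omit [DecidableEq X] in
theorem dirF_smul (c : ℝ) (hc : 0 ≤ c) (W f : (ι → X) → ℝ) :
    dirF (fun σ => c * W σ) f = c * dirF W f := by
  unfold dirF
  simp only [mul_sum, ← mul_min_of_nonneg _ _ hc, mul_assoc]

omit [DecidableEq X] in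
theorem pl_cons {g : Multiset X → ℝ} (hg : PL g) (a : X) : PL (fun S => g (a ::ₘ S)) := by
  refine ⟨fun S => hg.pos _, fun T => ?_⟩
  have : (fun b c => g (a ::ₘ b ::ₘ c ::ₘ T)) = fun b c => g (b ::ₘ c ::ₘ a ::ₘ T) := by
    funext b c
    rw [Multiset.cons_swap a b, Multiset.cons_swap a c]
  rw [this]
  exact hg.lor _

omit [DecidableEq X] in
/-- Real-number core of the variance decomposition. -/
theorem var_combine (Z F S D : X → ℝ) (E K K1 K2 : ℝ) (hZ : ∀ a, 0 < Z a) (hZs : 0 < ∑ a, Z a)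
    (hK1 : 0 < K1) (hE : 0 ≤ E) (hK : K1 * K2 ≤ K)
    (h1 : ∀ a, Z a * S a - F a ^ 2 ≤ K * Z a * D a)
    (h2 : ∀ x : X → ℝ, ∑ a, x a * Z a = 0 →
      2 * ∑ a, x a * F a ≤ K1 * ∑ a, x a ^ 2 * Z a + K2 * E) :
    (∑ a, Z a) * (∑ a, S a) - (∑ a, F a) ^ 2 ≤ K * (∑ a, Z a) * (E + ∑ a, D a) := by
  set μ := (∑ a, F a) / ∑ a, Z a with hμ
  have hμ' : μ * ∑ a, Z a = ∑ a, F a := by rw [hμ]; field_simp
  set V := ∑ a, F a ^ 2 / Z a - μ * ∑ a, F a with hV
  have a1 : ∑ a, (F a / Z a - μ) / K1 * Z a = 0 := by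
    have : ∀ a, (F a / Z a - μ) / K1 * Z a = (F a - μ * Z a) / K1 := fun a => by
      have := (hZ a).ne'; field_simp
    simp only [this]
    rw [← sum_div, sum_sub_distrib, ← mul_sum, hμ']; simp
  have a2 : ∑ a, (F a / Z a - μ) / K1 * F a = V / K1 := by
    have : ∀ a, (F a / Z a - μ) / K1 * F a = (F a ^ 2 / Z a - μ * F a) / K1 := fun a => by
      have := (hZ a).ne'; field_simp
    simp only [this]
    rw [← sum_div, sum_sub_distrib, ← mul_sum]
  have a3 : ∑ a, ((F a / Z a - μ) / K1) ^ 2 * Z a = V / K1 ^ 2 := by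
    have : ∀ a, ((F a / Z a - μ) / K1) ^ 2 * Z a =
        (F a ^ 2 / Z a - 2 * μ * F a + μ ^ 2 * Z a) / K1 ^ 2 := fun a => by
      have := (hZ a).ne'; field_simp; ring
    simp only [this]
    rw [← sum_div, sum_add_distrib, sum_sub_distrib, ← mul_sum, ← mul_sum, hV, ← hμ']
    ring
  have b := h2 _ a1
  rw [a2, a3] at b
  have b1 : V ≤ K1 * K2 * E := by
    have : K1 * (V / K1 ^ 2) = V / K1 := by field_simp
    rw [this] at b
    have : V / K1 ≤ K2 * E := by linarith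
    rw [div_le_iff₀ hK1] at this
    linarith
  have b2 : V ≤ K * E := b1.trans (mul_le_mul_of_nonneg_right hK hE)
  have b3 : ∑ a, S a - ∑ a, F a ^ 2 / Z a ≤ K * ∑ a, D a := by
    rw [← sum_sub_distrib, mul_sum]
    refine sum_le_sum fun a _ => ?_
    have := h1 a
    have hz := hZ a
    rw [sub_le_iff_le_add, ← sub_le_iff_le_add', le_div_iff₀ hz]
    linarith
  have b4 : ∑ a, S a - μ * ∑ a, F a ≤ K * (E + ∑ a, D a) := by linarith
  have b5 := mul_le_mul_of_nonneg_left b4 hZs.le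
  have b6 : (∑ a, Z a) * (μ * ∑ a, F a) = (∑ a, F a) ^ 2 := by
    rw [← mul_assoc, mul_comm _ μ, hμ']; ring
  linarith

end Po

open Po

theorem poincare_pl {X : Type} [Fintype X] [DecidableEq X] (n : ℕ) :
    ∀ (ι : Type) [Fintype ι] [DecidableEq ι], Fintype.card ι = n →
    ∀ (g : Multiset X → ℝ), PL g → ∀ (v : ι → X → ℝ) (H : ℝ), 1 ≤ H → (∀ i y, 0 < v i y) →
    (∀ i j y, v i y ≤ H * v j y) → ∀ f : (ι → X) → ℝ,
    (∑ σ, wt g v σ) * (∑ σ, wt g v σ * f σ ^ 2) - (∑ σ, wt g v σ * f σ) ^ 2 ≤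
      ((n : ℝ) + 1) ^ 3 * (Fintype.card X) * H ^ 2 * (∑ σ, wt g v σ) * dirF (wt g v) f := by
  induction n with
  | zero =>
    intro ι _ _ hι g hg v H hH1 hv hH f
    have : IsEmpty ι := Fintype.card_eq_zero_iff.1 hι
    have hW : ∀ σ, 0 ≤ wt g v σ := fun σ => (wt_pos hg.pos hv σ).le
    have : 0 ≤ (((0 : ℕ) : ℝ) + 1) ^ 3 * (Fintype.card X) * H ^ 2 * (∑ σ, wt g v σ) *
        dirF (wt g v) f :=
      mul_nonneg (mul_nonneg (by positivity) (sum_nonneg fun σ _ => hW σ)) (dirF_nonneg hW f)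
    refine le_trans (le_of_eq ?_) this
    simp only [Fintype.sum_unique]
    ring
  | succ k ih =>
    intro ι _ _ hι g hg v H hH1 hv hH f
    obtain ⟨e⟩ : Nonempty ι := Fintype.card_pos_iff.1 (by omega)
    have hk : Fintype.card {j // j ≠ e} = k := by
      rw [Fintype.card_subtype_compl, hι]; simp
    have hW : ∀ σ, 0 ≤ wt g v σ := fun σ => (wt_pos hg.pos hv σ).le
    rcases isEmpty_or_nonempty X with hX | hX
    · have : IsEmpty (ι → X) := ⟨fun σ => hX.false (σ e)⟩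
      simp
    have hc : (1 : ℝ) ≤ Fintype.card X := by exact_mod_cast Fintype.card_pos
    have hk0 : (0 : ℝ) ≤ k := Nat.cast_nonneg _
    have hZ : ∀ a, 0 < ∑ τ, wt g v (ext e a τ) := fun a =>
      sum_pos (fun τ _ => wt_pos hg.pos hv _) univ_nonempty
    have hE : 0 ≤ Ee (wt g v) f e :=
      sum_nonneg fun σ _ => sum_nonneg fun j _ => sum_nonneg fun y _ => term_nonneg hW _ _ _ _ _
    have hD : ∀ a, 0 ≤ dirF (fun τ => wt g v (ext e a τ)) (fun τ => f (ext e a τ)) := fun a =>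
      dirF_nonneg (fun τ => hW _) _
    have hcH : 1 ≤ (Fintype.card X : ℝ) * H := one_le_mul_of_one_le_of_one_le hc hH1
    have main := var_combine (fun a => ∑ τ, wt g v (ext e a τ))
      (fun a => ∑ τ, wt g v (ext e a τ) * f (ext e a τ))
      (fun a => ∑ τ, wt g v (ext e a τ) * f (ext e a τ) ^ 2)
      (fun a => dirF (fun τ => wt g v (ext e a τ)) (fun τ => f (ext e a τ))) (Ee (wt g v) f e)
      ((((k + 1 : ℕ) : ℝ) + 1) ^ 3 * (Fintype.card X) * H ^ 2)
      (((k : ℝ) + 2) * (k * (Fintype.card X * H)) + 2) (H * (Fintype.card ι + 1) / 2) hZ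
      (sum_pos (fun a _ => hZ a) univ_nonempty) (by positivity) hE ?_ ?_
      (fun x hx => cond_var hg hH1 hv hH e f k hk x hx)
    · rw [sum_ext e, sum_ext e (fun σ => wt g v σ * f σ ^ 2), sum_ext e (fun σ => wt g v σ * f σ)]
      refine main.trans (mul_le_mul_of_nonneg_left (dirF_split hW f e) ?_)
      exact mul_nonneg (by positivity) (sum_nonneg fun a _ => (hZ a).le)
    · rw [hι]
      push_cast
      have h1 : ((k : ℝ) + 2) * (k * (Fintype.card X * H)) + 2 ≤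
          2 * (k + 2) ^ 2 * (Fintype.card X * H) := by nlinarith
      have h2 : (0 : ℝ) ≤ H * (k + 1 + 1) / 2 := by positivity
      refine (mul_le_mul_of_nonneg_right h1 h2).trans (le_of_eq ?_)
      ring
    · intro a
      have h := ih {j // j ≠ e} hk _ (pl_cons hg a) (fun j => v j.1) H hH1 (fun i y => hv _ _)
        (fun i j y => hH _ _ _) (fun τ => f (ext e a τ))
      have hva := hv e a
      have hd := hD a
      have hz := hZ a
      simp only [wt_ext] at hd hz ⊢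
      rw [dirF_smul _ hva.le] at hd ⊢
      simp only [mul_assoc (v e a), ← mul_sum] at hz ⊢
      have h' := mul_le_mul_of_nonneg_left h (sq_nonneg (v e a))
      have hle : ((k : ℝ) + 1) ^ 3 * (Fintype.card X) * H ^ 2 ≤
          (((k + 1 : ℕ) : ℝ) + 1) ^ 3 * (Fintype.card X) * H ^ 2 := by
        push_cast; gcongr; linarith
      have h'' := mul_le_mul_of_nonneg_right hle (mul_nonneg hz.le hd)
      nlinarith

theorem poincare_gq {X : Type} [Fintype X] [DecidableEq X] {ι : Type} [Fintype ι] [DecidableEq ι]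
    {ρ : Multiset X → ℕ} (hρ : RankFn ρ) (v : ι → X → ℝ) (H : ℝ) (hH : 1 ≤ H)
    (hv : ∀ i y, 0 < v i y) (hvH : ∀ i j y, v i y ≤ H * v j y) (f : (ι → X) → ℝ) :
    (∑ σ, wt (gq ρ 0) v σ) * (∑ σ, wt (gq ρ 0) v σ * f σ ^ 2) - (∑ σ, wt (gq ρ 0) v σ * f σ) ^ 2 ≤
      ((Fintype.card ι : ℝ) + 1) ^ 3 * (Fintype.card X) * H ^ 2 * (∑ σ, wt (gq ρ 0) v σ) *
        dirF (wt (gq ρ 0) v) f := by
  have hc : ∀ σ, Continuous fun q : ℝ => wt (gq ρ q) v σ := fun σ => by
    unfold wt gq; fun_prop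
  have c1 : Continuous fun q : ℝ => (∑ σ, wt (gq ρ q) v σ) * (∑ σ, wt (gq ρ q) v σ * f σ ^ 2) -
      (∑ σ, wt (gq ρ q) v σ * f σ) ^ 2 := by fun_prop
  have c2 : Continuous fun q : ℝ => ((Fintype.card ι : ℝ) + 1) ^ 3 * (Fintype.card X) * H ^ 2 *
      (∑ σ, wt (gq ρ q) v σ) * dirF (wt (gq ρ q) v) f := by
    unfold dirF; fun_prop
  have hcl := isClosed_le c1 c2
  have := (hcl.closure_subset_iff (s := Set.Ioc (0 : ℝ) 1)).2 (fun q hq =>
    poincare_pl _ ι rfl _ (pl_gq hρ q hq.1 hq.2) v H hH hv hvH f)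
  rw [closure_Ioc zero_ne_one] at this
  exact this ⟨le_rfl, zero_le_one⟩

end Vale.Agent.P317
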