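import Vale.Agent.P317.Code

/-! P317 task G: specifications of the deterministic subroutines. -/

namespace Vale.Agent.P317
open Finset

variable {n : ℕ}

theorem enc_lt (y : XX n) : enc y < 3 * n := by
  obtain ⟨⟨a, ha⟩, ⟨b, hb⟩⟩ := y
  simp only [enc]
  interval_cases a <;> omega

theorem enc_inj : Function.Injective (enc : XX n → ℕ) := by
  rintro ⟨⟨a, ha⟩, ⟨b, hb⟩⟩ ⟨⟨a', ha'⟩, ⟨b', hb'⟩⟩ h
  simp only [enc] at h
  simp only [Prod.mk.injEq, Fin.mk.injEq]
  interval_cases a <;> interval_cases a' <;> omega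

theorem enc_surj (x : ℕ) (hx : x < 3 * n) : ∃ y : XX n, enc y = x := by
  by_cases h1 : x < n
  · exact ⟨(0, ⟨x, h1⟩), by simp [enc]⟩
  · by_cases h2 : x < 2 * n
    · exact ⟨(1, ⟨x - n, by omega⟩), by simp [enc]; omega⟩
    · exact ⟨(2, ⟨x - 2 * n, by omega⟩), by simp [enc]; omega⟩

namespace RefDetAux

theorem enc0 (p : Fin n) : enc ((0, p) : XX n) = p.val := by simp [enc]
theorem enc1 (p : Fin n) : enc ((1, p) : XX n) = n + p.val := by simp [enc]
theorem enc2 (p : Fin n) : enc ((2, p) : XX n) = n + n + p.val := by simp [enc]; omega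

theorem enc_cases (y : XX n) :
    enc y = y.2.val ∨ enc y = n + y.2.val ∨ enc y = n + n + y.2.val := by
  obtain ⟨⟨a, ha⟩, ⟨b, hb⟩⟩ := y
  simp only [enc]
  interval_cases a <;> omega

theorem enc_lt_iff (y : XX n) : enc y < n + n ↔ y.1 ≠ 2 := by
  obtain ⟨⟨a, ha⟩, ⟨b, hb⟩⟩ := y
  simp only [enc, ne_eq, Fin.ext_iff, Fin.val_two]
  interval_cases a <;> omega

theorem filter_lt_succ {i : ℕ} (hi : i < n) (P : Fin n → Prop) [DecidablePred P] :
    univ.filter (fun j : Fin n => j.val < i + 1 ∧ P j) =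
      if P ⟨i, hi⟩ then insert ⟨i, hi⟩ (univ.filter (fun j : Fin n => j.val < i ∧ P j))
      else univ.filter (fun j : Fin n => j.val < i ∧ P j) := by
  split_ifs with h
  · ext j
    simp only [mem_filter, mem_univ, true_and, mem_insert]
    constructor
    · rintro ⟨h1, h2⟩
      by_cases hj : j.val = i
      · exact Or.inl (Fin.ext hj)
      · exact Or.inr ⟨by omega, h2⟩
    · rintro (rfl | ⟨h1, h2⟩)
      · exact ⟨by simp, h⟩
      · exact ⟨by omega, h2⟩
  · ext j
    simp only [mem_filter, mem_univ, true_and]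
    constructor
    · rintro ⟨h1, h2⟩
      have : j.val ≠ i := by
        intro hj
        exact h (by rwa [show (⟨i, hi⟩ : Fin n) = j from Fin.ext hj.symm])
      exact ⟨by omega, h2⟩
    · rintro ⟨h1, h2⟩
      exact ⟨by omega, h2⟩

theorem agree_put' {W : List ℕ} {m m' : Mem} (h : Agree W m m') {a : ℕ} (ha : a ∈ W) (i x : ℕ) :
    Agree W m (m'.put a i x) :=
  h.trans ((agree_put m' a i x).mono (by simpa using ha))

theorem agree_exec {W : List ℕ} {m m' : Mem} (h : Agree W m m') (O : Bool → Set (Fin n) → Prop)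
    (p : Prog) (hp : ∀ a ∈ p.wr, a ∈ W) : Agree W m (exec O p m') :=
  h.trans ((exec_agree O p m').mono hp)

theorem fill_spec (O : Bool → Set (Fin n) → Prop) (k a : ℕ) (m : Mem) (hk : k ≠ 35)
    (ha : a ≠ 35) : ∀ x < m k 0, exec O (forN k (.set a (V 35) (.lit 0))) m a x = 0 := by
  refine forN_inv O k _ (m k 0) (fun i m' => ∀ x < i, m' a x = 0) m rfl hk
    (by simp [Prog.wr, ha.symm]) ?_ ?_ (by simp)
  · intro i m' x h y hy
    simp [ha, h y hy]
  · intro i _ m' h35 h y hy
    simp only [exec, V, Expr.val, h35, Mem.put_apply, true_and]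
    split_ifs with h1
    · rfl
    · exact h y (by omega)

theorem dbl_spec (O : Bool → Set (Fin n) → Prop) (x k : ℕ) (m : Mem) :
    exec O (dbl x k) m x 0 = m x 0 * 2 ^ m k 0 := by
  have := execLoop_inv (exec O (asg x (.add (V x) (V x)))) (fun i m' => m' x 0 = m x 0 * 2 ^ i)
    (m k 0) (by
      intro i _ m' h
      simp only [exec, asg, V, Expr.val, Mem.put_apply, and_self, if_true, h]
      ring) m (by simp)
  exact this

theorem rep_wr (x k j : ℕ) : ∀ a ∈ (rep (dbl x k) j).wr, a = x ∨ a = 34 := by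
  induction j with
  | zero => simp [rep, skip, asg, Prog.wr]
  | succ j ih =>
    intro a ha
    simp only [rep, Prog.wr, List.mem_append, dbl, asg, List.mem_singleton] at ha
    rcases ha with ha | ha
    · exact Or.inl ha
    · exact ih a ha

theorem rep_spec (O : Bool → Set (Fin n) → Prop) (x k : ℕ) (hx : x ≠ 34) (hk : k ≠ x) (j : ℕ) :
    ∀ m : Mem, exec O (rep (dbl x k) j) m x 0 = m x 0 * (2 ^ m k 0) ^ j := by
  induction j with
  | zero => intro m; simp [rep, skip, asg, exec, hx]
  | succ j ih =>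
    intro m
    rw [rep, exec_seq, ih, dbl_spec, exec_frame O (dbl x k) m k (by simp [dbl, asg, Prog.wr, hk])]
    ring

theorem pw_spec (O : Bool → Set (Fin n) → Prop) (x c j : ℕ) (hx : x ≠ 34) (hk : 9 ≠ x) (m : Mem) :
    exec O (pw x c j) m x 0 = c * (2 ^ m 9 0) ^ j := by
  rw [pw, exec_seq, rep_spec O x 9 hx hk]
  simp [exec, asg, Expr.val, hk]

theorem pw_agree (O : Bool → Set (Fin n) → Prop) (x c j : ℕ) (m : Mem) :
    Agree [x, 34] m (exec O (pw x c j) m) := by
  refine (exec_agree O _ m).mono fun a ha => ?_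
  simp only [pw, Prog.wr, asg, List.mem_append, List.mem_singleton] at ha
  rcases ha with ha | ha
  · simp [ha]
  · simpa using rep_wr x 9 j a ha

theorem mul_spec (O : Bool → Set (Fin n) → Prop) (x : ℕ) (e : Expr) (h40 : x ≠ 40) (h46 : x ≠ 46)
    (m : Mem) : exec O (mul x e) m x 0 = m x 0 * min (e.val m) (m 17 0) := by
  obtain ⟨i, hi, ⟨h1, h2, h3⟩, h4⟩ := execLoop_guard (V 40)
    (exec O (.seq (asg 46 (.add (V 46) (V x))) (asg 40 (.sub (V 40) (.lit 1)))))
    (fun i m' => m' x 0 = m x 0 ∧ m' 46 0 = m x 0 * i ∧ m' 40 0 + i = e.val m) (m 17 0)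
    (by
      intro i _ m' ⟨a1, a2, a3⟩ hc
      simp only [V, Expr.val] at hc
      refine ⟨?_, ?_, ?_⟩
      · simp [exec, asg, h40, h46, a1]
      · simp [exec, asg, V, Expr.val, a1, a2]; ring
      · simp [exec, asg, V, Expr.val]; omega)
    ((m.put 40 0 (e.val m)).put 46 0 0) (by simp [h40, h46])
  have e1 : exec O (mul x e) m x 0 = execLoop (V 40)
      (exec O (.seq (asg 46 (.add (V 46) (V x))) (asg 40 (.sub (V 40) (.lit 1))))) (m 17 0)
      ((m.put 40 0 (e.val m)).put 46 0 0) 46 0 := by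
    simp only [mul, exec_seq, asg, exec_set, V, Expr.val, Mem.put_apply, and_self, if_true]
    simp [exec, Expr.val]
  rw [e1, h2]
  congr 1
  rcases h4 with h4 | h4
  · omega
  · simp only [V, Expr.val] at h4 h3
    omega

end RefDetAux

open RefDetAux

theorem wgt_spec (M₁ M₂ : Matroid (Fin n)) (L : ℕ) (w : XX n → ℕ) (σ : Fin n → XX n) (m : Mem)
    (hP : Par M₂ L m) (hw : RW w m) (hσ : RS σ m) :
    exec (oracle M₁ M₂) wgt m 36 0 = Kx L w σ := by
  have := forN_inv (oracle M₁ M₂) 0 (.seq (asg 36 (.add (V 36) (.get 21 sI)))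
    (.ite (neE (.get 22 sI) (V 35)) skip (asg 36 (.add (V 36) (V 11))))) n
    (fun i m' => Agree [36, 34, 35] m m' ∧ m' 36 0 =
      ∑ j ∈ univ.filter (fun j : Fin n => j.val < i ∧ True),
        (w (σ j) + if (σ j).2 = j then pH L else 0))
    (m.put 36 0 0) (by simpa using hP.r0) (by decide) (by decide)
    (fun i m' x h => ⟨agree_put' h.1 (by simp) _ _, by simpa using h.2⟩)
    (by
      intro i hi m' h35 ⟨h1, h2⟩
      refine ⟨agree_exec h1 _ _ (by decide), ?_⟩
      rw [filter_lt_succ hi, if_pos trivial, sum_insert (by simp), ← h2]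
      have e23 : m' 23 i = enc (σ ⟨i, hi⟩) := by rw [h1 23 (by simp)]; exact hσ ⟨i, hi⟩
      have e21 : m' 21 (enc (σ ⟨i, hi⟩)) = w (σ ⟨i, hi⟩) := by rw [h1 21 (by simp)]; exact hw _
      have e22 : m' 22 (enc (σ ⟨i, hi⟩)) = (σ ⟨i, hi⟩).2.val := by
        rw [h1 22 (by simp)]; exact hP.part _
      have e11 : m' 11 0 = pH L := by rw [h1 11 (by simp)]; exact hP.r11
      by_cases hc : (σ ⟨i, hi⟩).2 = ⟨i, hi⟩
      · rw [exec_seq, exec_ite_zero, if_pos hc]
        · simp [exec, asg, V, sI, Expr.val, h35, e23, e21, e11]; omega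
        · simp [exec, asg, V, sI, neE, Expr.val, h35, e23, e22, hc]
      · rw [exec_seq, exec_ite_ne, if_neg hc]
        · simp [exec, asg, skip, V, sI, Expr.val, h35, e23, e21]; omega
        · have : (σ ⟨i, hi⟩).2.val ≠ i := fun h => hc (Fin.ext h)
          simp [exec, asg, V, sI, neE, Expr.val, h35, e23, e22]; omega)
    ⟨agree_put' (Agree.refl _ _) (by simp) _ _, by simp⟩
  rw [wgt, exec_seq]
  refine this.2.trans ?_
  rw [Kx, filter_true_of_mem (by simp)]

theorem greedy_spec (M₁ M₂ : Matroid (Fin n)) (h₂ : M₂.E = Set.univ) (m : Mem) (h0 : m 0 0 = n) :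
    ((exec (oracle M₁ M₂) greedy m 40 0 : ℕ) : ℕ∞) =
      M₂.eRk {i : Fin n | m 24 (n + i.val) = 0} := by
  classical
  set m1 := exec (oracle M₁ M₂) (forN 0 (.set 25 (V 35) (.lit 0))) m with hm1
  have a1 : Agree [25, 35, 34, 39, 40] m m1 := agree_exec (Agree.refl _ _) _ _ (by decide)
  have z1 : ∀ x < n, m1 25 x = 0 := by
    have := fill_spec (oracle M₁ M₂) 0 25 m (by decide) (by decide)
    rwa [h0] at this
  have := forN_inv (oracle M₁ M₂) 0 (.ite (.get 24 (.add (V 0) (V 35))) skip
      (.seq (.set 25 (V 35) (.lit 1)) (.seq (.ask true 25 39 (.lit 0))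
        (.ite (V 39) (inc 40) (.set 25 (V 35) (.lit 0)))))) n
    (fun i m' => Agree [25, 35, 34, 39, 40] m m' ∧ M₂.Indep {x : Fin n | m' 25 x.val ≠ 0} ∧
      (∀ x : Fin n, m' 25 x.val ≠ 0 → x.val < i ∧ m 24 (n + x.val) = 0) ∧
      (∀ x : Fin n, x.val < i → m 24 (n + x.val) = 0 →
        x ∈ M₂.closure {x : Fin n | m' 25 x.val ≠ 0}) ∧
      ((m' 40 0 : ℕ) : ℕ∞) = Set.encard {x : Fin n | m' 25 x.val ≠ 0})
    (m1.put 40 0 0) (by simpa [a1 0 (by simp)] using h0) (by decide) (by decide)
    (fun i m' x h => ⟨agree_put' h.1 (by simp) _ _, by simpa using h.2⟩)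
    (by
      intro i hi m' h35 ⟨h1, h2, h3, h4, h5⟩
      refine ⟨agree_exec h1 _ _ (by decide), ?_⟩
      have e0 : m' 0 0 = n := by rw [h1 0 (by simp)]; exact h0
      have e24 : m' 24 = m 24 := h1 24 (by simp)
      have hiB : (⟨i, hi⟩ : Fin n) ∉ {x : Fin n | m' 25 x.val ≠ 0} := fun h =>
        lt_irrefl i (h3 _ h).1
      by_cases hc : m 24 (n + i) = 0
      · rw [exec_ite_zero _ _ _ (by simp [V, Expr.val, e0, h35, e24, hc]), exec_seq, exec_seq]
        have eB : {x : Fin n | (m'.put 25 i 1) 25 x.val ≠ 0}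
            = insert ⟨i, hi⟩ {x : Fin n | m' 25 x.val ≠ 0} := by
          ext x
          simp only [Mem.put_apply, true_and, Set.mem_ofPred_eq, Set.mem_insert_iff, Fin.ext_iff]
          split_ifs with h <;> simp [h]
        have em : exec (oracle M₁ M₂) (.ask true 25 39 (.lit 0))
            (exec (oracle M₁ M₂) (.set 25 (V 35) (.lit 1)) m') = (m'.put 25 i 1).put 39 0
              (if M₂.Indep (insert ⟨i, hi⟩ {x : Fin n | m' 25 x.val ≠ 0}) then 1 else 0) := by
          simp only [exec, V, Expr.val, h35, oracle, if_true, eB]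
        rw [em]
        by_cases hI : M₂.Indep (insert ⟨i, hi⟩ {x : Fin n | m' 25 x.val ≠ 0})
        · rw [if_pos hI, exec_ite_ne _ _ _ (by simp [V, Expr.val])]
          have e25 : exec (oracle M₁ M₂) (inc 40) ((m'.put 25 i 1).put 39 0 1) 25
              = (m'.put 25 i 1) 25 := by
            rw [exec_frame _ _ _ 25 (by decide), Mem.put_ne _ _ _ (by decide)]
          rw [e25, eB]
          refine ⟨hI, ?_, ?_, ?_⟩
          · intro x hx
            have hx' : x ∈ insert (⟨i, hi⟩ : Fin n) {x : Fin n | m' 25 x.val ≠ 0} := by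
              rw [← eB]; exact hx
            rcases hx' with rfl | hx'
            · exact ⟨by simp, hc⟩
            · exact ⟨by have := (h3 x hx').1; omega, (h3 x hx').2⟩
          · intro x hx hx'
            by_cases hxi : x.val = i
            · refine M₂.subset_closure _ hI.subset_ground ?_
              exact Or.inl (Fin.ext hxi)
            · exact M₂.closure_subset_closure (Set.subset_insert _ _) (h4 x (by omega) hx')
          · rw [Set.encard_insert_of_notMem hiB, ← h5]
            simp [exec, inc, asg, V, Expr.val]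
        · rw [if_neg hI, exec_ite_zero _ _ _ (by simp [V, Expr.val])]
          have e25 : exec (oracle M₁ M₂) (.set 25 (V 35) (.lit 0)) ((m'.put 25 i 1).put 39 0 0) 25
              = m' 25 := by
            funext x
            simp only [exec, V, Expr.val, Mem.put_apply, h35]
            by_cases hx : x = i
            · subst hx
              simpa using (not_not.1 hiB).symm
            · simp [hx]
          rw [e25]
          refine ⟨h2, ?_, ?_, ?_⟩
          · intro x hx
            exact ⟨by have := (h3 x hx).1; omega, (h3 x hx).2⟩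
          · intro x hx hx'
            by_cases hxi : x.val = i
            · have : x = ⟨i, hi⟩ := Fin.ext hxi
              subst this
              by_contra hcl
              exact hI ((h2.notMem_closure_iff_of_notMem hiB (by simp [h₂])).1 hcl)
            · exact h4 x (by omega) hx'
          · rw [← h5]
            simp [exec, V, Expr.val]
      · rw [exec_ite_ne _ _ _ (by simp [V, Expr.val, e0, h35, e24, hc]),
          exec_frame _ _ _ 25 (by decide), exec_frame _ _ _ 40 (by decide)]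
        refine ⟨h2, ?_, ?_, h5⟩
        · intro x hx
          exact ⟨by have := (h3 x hx).1; omega, (h3 x hx).2⟩
        · intro x hx hx'
          have hxi : x.val ≠ i := by
            intro h
            rw [h] at hx'
            exact hc hx'
          exact h4 x (by omega) hx')
    (by
      have eB : {x : Fin n | (m1.put 40 0 0) 25 x.val ≠ 0} = ∅ := by
        ext x
        simp [z1 x.val x.2]
      refine ⟨agree_put' a1 (by simp) _ _, by rw [eB]; exact M₂.empty_indep, ?_, by simp, ?_⟩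
      · intro x hx
        exact absurd (by simp [z1 x.val x.2]) hx
      · rw [eB]; simp)
  obtain ⟨-, h2, h3, h4, h5⟩ := this
  rw [greedy, exec_seq, exec_seq, ← hm1]
  refine h5.trans (Matroid.IsBasis.encard_eq_eRk ?_)
  exact h2.isBasis_of_subset_of_subset_closure (fun x hx => (h3 x hx).2) (fun x hx => h4 x x.2 hx)

theorem reset_spec (O : Bool → Set (Fin n) → Prop) (m : Mem) (h0 : m 0 0 = n) :
    RS (sig0 n) (exec O reset m) := by
  have := forN_inv O 0 (.set 23 (V 35) (.add n2 (V 35))) n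
    (fun i m' => m' 0 0 = n ∧ ∀ x < i, m' 23 x = n + n + x) m h0 (by decide) (by decide)
    (fun i m' x h => by simpa using h)
    (by
      intro i _ m' h35 ⟨h1, h2⟩
      refine ⟨by simpa [exec] using h1, fun x hx => ?_⟩
      simp only [exec, V, n2, Expr.val, h35, h1, Mem.put_apply, true_and]
      split_ifs with h
      · rw [h]
      · exact h2 x (by omega))
    ⟨h0, by simp⟩
  intro j
  rw [sig0, enc2]
  exact this.2 j.val j.2

theorem clearC_spec (O : Bool → Set (Fin n) → Prop) (m : Mem) (h0 : m 0 0 = n) :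
    RC (⟨0, 0, fun _ => 0⟩ : Cnt n) (exec O clearC m) := by
  rw [clearC, exec_seq, exec_seq]
  refine ⟨?_, ?_, fun j => ?_⟩
  · rw [exec_frame _ _ _ 27 (by decide)]; simp [exec, asg, Expr.val]
  · rw [exec_frame _ _ _ 28 (by decide)]; simp [exec, asg, Expr.val]
  · exact fill_spec O 0 26 _ (by decide) (by decide) j.val (by simp [exec, asg, h0])

theorem phase1_spec (O : Bool → Set (Fin n) → Prop) (L : ℕ) (m : Mem) (h0 : m 0 0 = n)
    (h9 : m 9 0 = L) (h10 : m 10 0 = 2 ^ L) (hn : n ≤ 2 ^ L) : Par0 n L (exec O phase1 m) := by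
  simp only [phase1, exec_seq]
  set m0 := exec O (asg 19 (.add n2 (V 0))) (exec O (asg 20 (.add (V 9) (.lit 3)))
    (exec O (asg 11 (.add (V 9) (.add (V 9) (V 9)))) (exec O (asg 12 (.add (V 48) (V 48)))
      (exec O (asg 48 (.add (V 10) (V 10))) m)))) with hm0
  have b0 : m0 0 0 = n := by simp [hm0, exec, asg, h0]
  have b9 : m0 9 0 = L := by simp [hm0, exec, asg, h9]
  have b11 : m0 11 0 = pH L := by simp [hm0, exec, asg, V, Expr.val, h9, pH]; omega
  have b12 : m0 12 0 = 2 * pB L := by simp [hm0, exec, asg, V, Expr.val, h10, pB]; omega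
  have b19 : m0 19 0 = 3 * n := by simp [hm0, exec, asg, V, n2, Expr.val, h0]; omega
  have b20 : m0 20 0 = L + 3 := by simp [hm0, exec, asg, V, Expr.val, h9]
  have b48 : m0 48 0 = pB L := by simp [hm0, exec, asg, V, Expr.val, h10, pB]; omega
  clear_value m0
  have a1 := pw_agree O 13 1 4 m0
  have s1 := pw_spec O 13 1 4 (by decide) (by decide) m0
  set m1 := exec O (pw 13 1 4) m0
  have a2 := pw_agree O 14 1 21 m1
  have s2 := pw_spec O 14 1 21 (by decide) (by decide) m1
  set m2 := exec O (pw 14 1 21) m1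
  have a3 := pw_agree O 15 1 14 m2
  have s3 := pw_spec O 15 1 14 (by decide) (by decide) m2
  set m3 := exec O (pw 15 1 14) m2
  have a4 := pw_agree O 16 32 12 m3
  have s4 := pw_spec O 16 32 12 (by decide) (by decide) m3
  set m4 := exec O (pw 16 32 12) m3
  have a5 := pw_agree O 17 4 14 m4
  have s5 := pw_spec O 17 4 14 (by decide) (by decide) m4
  set m5 := exec O (pw 17 4 14) m4
  have c1 : m1 9 0 = L := by rw [a1 9 (by simp), b9]
  have c2 : m2 9 0 = L := by rw [a2 9 (by simp), c1]
  have c3 : m3 9 0 = L := by rw [a3 9 (by simp), c2]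
  have c4 : m4 9 0 = L := by rw [a4 9 (by simp), c3]
  have all : ∀ a, a ∉ [13, 14, 15, 16, 17, 34] → m5 a = m0 a := by
    intro a ha
    simp only [List.mem_cons, List.not_mem_nil, or_false, not_or] at ha
    rw [a5 a (by simp [ha]), a4 a (by simp [ha]), a3 a (by simp [ha]), a2 a (by simp [ha]),
      a1 a (by simp [ha])]
  refine ⟨?_, ?_, ?_, ?_, ?_, ?_, ?_, ?_, ?_, ?_, ?_, ?_, hn⟩
  · rw [all 0 (by simp), b0]
  · rw [all 9 (by simp), b9]
  · rw [all 11 (by simp), b11]
  · rw [all 12 (by simp), b12]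
  · rw [a5 13 (by simp), a4 13 (by simp), a3 13 (by simp), a2 13 (by simp), s1, b9, pD, one_mul]
  · rw [a5 14 (by simp), a4 14 (by simp), a3 14 (by simp), s2, c1, pT, one_mul]
  · rw [a5 15 (by simp), a4 15 (by simp), s3, c2, pK, one_mul]
  · rw [a5 16 (by simp), s4, c3, pK1]
  · rw [s5, c4, pK]
  · rw [all 19 (by simp), b19]
  · rw [all 20 (by simp), b20]
  · rw [all 48 (by simp), b48]

theorem indep_spec (M₁ M₂ : Matroid (Fin n)) (h₂ : M₂.E = Set.univ) (L : ℕ) (σ : Fin n → XX n)
    (m : Mem) (hP : Par M₂ L m) (hσ : RS σ m) :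
    exec (oracle M₁ M₂) indep m 38 0 ≠ 0 ↔ Valid M₁ M₂ σ := by
  classical
  simp only [indep, exec_seq]
  set m1 := exec (oracle M₁ M₂) (forN 19 (.set 24 (V 35) (.lit 0))) m with hm1
  have a1 : Agree [24, 35, 34, 38] m m1 := agree_exec (Agree.refl _ _) _ _ (by decide)
  have z1 : ∀ x < 3 * n, m1 24 x = 0 := by
    have := fill_spec (oracle M₁ M₂) 19 24 m (by decide) (by decide)
    rwa [hP.r19] at this
  clear_value m1
  obtain ⟨a2, b1, b2⟩ := forN_inv (oracle M₁ M₂) 0
    (.seq (.ite (.get 24 sI) (asg 38 (.lit 0)) skip) (.set 24 sI (.lit 1))) n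
    (fun i m' => Agree [24, 35, 34, 38] m m' ∧
      (∀ y : XX n, m' 24 (enc y) ≠ 0 ↔ ∃ j : Fin n, j.val < i ∧ σ j = y) ∧
      (m' 38 0 ≠ 0 ↔ ∀ j j' : Fin n, j.val < i → j'.val < i → σ j = σ j' → j = j'))
    (exec (oracle M₁ M₂) (asg 38 (.lit 1)) m1)
    (by rw [exec_frame _ _ _ 0 (by decide), a1 0 (by simp)]; exact hP.r0) (by decide) (by decide)
    (fun i m' x h => ⟨agree_put' h.1 (by simp) _ _, by simpa using h.2⟩)
    (by
      intro i hi m' h35 ⟨h1, h2, h3⟩
      refine ⟨agree_exec h1 _ _ (by decide), ?_, ?_⟩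
      · intro y
        rw [exec_seq, exec_set]
        have e1 : sI.val (exec (oracle M₁ M₂) (.ite (.get 24 sI) (asg 38 (.lit 0)) skip) m')
            = enc (σ ⟨i, hi⟩) := by
          simp only [sI, V, Expr.val]
          rw [exec_frame _ _ _ 23 (by decide), exec_frame _ _ _ 35 (by decide), h35,
            h1 23 (by simp)]
          exact hσ ⟨i, hi⟩
        rw [e1, Mem.put_apply, exec_frame _ _ _ 24 (by decide)]
        by_cases hy : y = σ ⟨i, hi⟩
        · rw [if_pos ⟨rfl, by rw [hy]⟩]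
          exact ⟨fun _ => ⟨⟨i, hi⟩, by simp, hy.symm⟩, fun _ => by simp [Expr.val]⟩
        · rw [if_neg (fun h => hy (enc_inj h.2)), h2]
          constructor
          · rintro ⟨j, hj, rfl⟩
            exact ⟨j, by omega, rfl⟩
          · rintro ⟨j, hj, rfl⟩
            have : j.val ≠ i := fun h => hy (by rw [show j = ⟨i, hi⟩ from Fin.ext h])
            exact ⟨j, by omega, rfl⟩
      · rw [exec_seq, exec_frame _ _ _ 38 (by decide)]
        have e1 : (Expr.get 24 sI).val m' = m' 24 (enc (σ ⟨i, hi⟩)) := by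
          simp only [sI, V, Expr.val]
          rw [h35, h1 23 (by simp), hσ ⟨i, hi⟩]
        by_cases hc : m' 24 (enc (σ ⟨i, hi⟩)) = 0
        · rw [exec_ite_zero _ _ _ (e1.trans hc), exec_frame _ _ _ 38 (by decide), h3]
          have hno : ∀ j : Fin n, j.val < i → σ j ≠ σ ⟨i, hi⟩ := fun j hj h =>
            (h2 _).2 ⟨j, hj, h⟩ hc
          constructor
          · intro h j j' hj hj' hjj
            by_cases c1 : j.val = i
            · by_cases c2 : j'.val = i
              · exact Fin.ext (c1.trans c2.symm)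
              · rw [show j = ⟨i, hi⟩ from Fin.ext c1] at hjj
                exact absurd hjj.symm (hno j' (by omega))
            · by_cases c2 : j'.val = i
              · rw [show j' = ⟨i, hi⟩ from Fin.ext c2] at hjj
                exact absurd hjj (hno j (by omega))
              · exact h j j' (by omega) (by omega) hjj
          · intro h j j' hj hj' hjj
            exact h j j' (by omega) (by omega) hjj
        · rw [exec_ite_ne _ _ _ (by rw [e1]; exact hc)]
          obtain ⟨j, hj, hjj⟩ := (h2 _).1 hc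
          constructor
          · intro h
            exact absurd (by simp [exec, asg, Expr.val]) h
          · intro h
            have := h j ⟨i, hi⟩ (by omega) (by simp) hjj
            rw [this] at hj
            exact absurd hj (lt_irrefl _))
    ⟨agree_exec a1 _ _ (by decide), fun y => by
      rw [exec_frame _ _ _ 24 (by decide), z1 _ (enc_lt y)]; simp, by simp [exec, asg, Expr.val]⟩
  set m2 := exec (oracle M₁ M₂) (forN 0
    (.seq (.ite (.get 24 sI) (asg 38 (.lit 0)) skip) (.set 24 sI (.lit 1))))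
    (exec (oracle M₁ M₂) (asg 38 (.lit 1)) m1) with hm2
  clear_value m2
  have b2' : m2 38 0 ≠ 0 ↔ Function.Injective σ := by
    rw [b2]
    exact ⟨fun h j j' hjj => h j j' j.2 j'.2 hjj, fun h j j' _ _ hjj => h hjj⟩
  have e0 : {x : Fin n | m2 24 x.val ≠ 0} = {p | ∃ j, σ j = (0, p)} := by
    ext x
    rw [Set.mem_ofPred_eq, ← enc0 x, b1]
    simp
  have e1 : {x : Fin n | m2 24 (n + x.val) = 0} = M₂.E \ {p | ∃ j, σ j = (1, p)} := by
    ext x
    rw [Set.mem_ofPred_eq, ← enc1 x, ← not_iff_not, ← ne_eq, b1, h₂]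
    simp
  set m4 := exec (oracle M₁ M₂) (.ite (V 39) skip (asg 38 (.lit 0)))
    (exec (oracle M₁ M₂) (.ask false 24 39 (.lit 0)) m2) with hm4
  have a4 : Agree [34, 38, 39] m2 m4 :=
    agree_exec (agree_exec (Agree.refl _ _) _ _ (by decide)) _ _ (by decide)
  have b4 : m4 38 0 ≠ 0 ↔ Function.Injective σ ∧ M₁.Indep {p | ∃ j, σ j = (0, p)} := by
    have em : exec (oracle M₁ M₂) (.ask false 24 39 (.lit 0)) m2
        = m2.put 39 0 (if M₁.Indep {p | ∃ j, σ j = (0, p)} then 1 else 0) := by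
      simp only [exec, Expr.val, oracle, e0, Bool.false_eq_true, if_false]
    rw [hm4, em]
    by_cases hI : M₁.Indep {p | ∃ j, σ j = (0, p)}
    · rw [if_pos hI, exec_ite_ne _ _ _ (by simp [V, Expr.val]), exec_frame _ _ _ 38 (by decide),
        Mem.put_ne _ _ _ (by decide), b2']
      simp [hI]
    · rw [if_neg hI, exec_ite_zero _ _ _ (by simp [V, Expr.val])]
      simp [hI, exec, asg, Expr.val]
  clear_value m4
  have g := greedy_spec M₁ M₂ h₂ m4 (by rw [a4 0 (by simp), a2 0 (by simp)]; exact hP.r0)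
  rw [a4 24 (by simp), e1] at g
  have g38 : exec (oracle M₁ M₂) greedy m4 38 = m4 38 := exec_frame _ _ _ 38 (by decide)
  have g18 : ((exec (oracle M₁ M₂) greedy m4 18 0 : ℕ) : ℕ∞) = M₂.eRank := by
    rw [exec_frame _ _ _ 18 (by decide), a4 18 (by simp), a2 18 (by simp)]
    exact hP.r18
  set m5 := exec (oracle M₁ M₂) greedy m4
  clear_value m5
  have hco : M₂.Coindep {p | ∃ j, σ j = (1, p)} ↔ m5 40 0 = m5 18 0 := by
    have : M₂.Finite := ⟨Set.toFinite _⟩
    rw [Matroid.coindep_iff_compl_spanning (by simp [h₂]),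
      Matroid.spanning_iff_eRk_le Set.sdiff_subset, ← g, ← g18]
    have := M₂.eRk_le_eRank (M₂.E \ {p | ∃ j, σ j = (1, p)})
    rw [← g, ← g18] at this
    norm_cast at this ⊢
    omega
  rw [Valid, hco, ← and_assoc, ← b4]
  by_cases hc : m5 40 0 = m5 18 0
  · rw [exec_ite_zero _ _ _ (by simp [neE, V, Expr.val, hc]), exec_frame _ _ _ 38 (by decide), g38]
    simp [hc]
  · rw [exec_ite_ne _ _ _ (by simp only [neE, V, Expr.val]; omega)]
    simp [hc, exec, asg, Expr.val]

open Classical in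
theorem tryMove_spec (M₁ M₂ : Matroid (Fin n)) (h₂ : M₂.E = Set.univ) (L : ℕ) (w : XX n → ℕ)
    (σ : Fin n → XX n) (m : Mem) (hP : Par M₂ L m) (hw : RW w m) (hσ : RS σ m)
    (i j : Fin n) (y : XX n) (hi : m 30 0 = i.val) (hj : m 31 0 = j.val) (hy : m 32 0 = enc y) :
    RS (if Valid M₁ M₂ (mv i j y σ) ∧
          m 33 0 < 2 ^ (pD L - (Kx L w σ - Kx L w (mv i j y σ))) then mv i j y σ else σ)
      (exec (oracle M₁ M₂) tryMove m) := by
  simp only [tryMove, exec_seq]
  have s1 := wgt_spec M₁ M₂ L w σ m hP hw hσ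
  have a1 : Agree [34, 35, 36] m (exec (oracle M₁ M₂) wgt m) :=
    agree_exec (Agree.refl _ _) _ _ (by decide)
  set m1 := exec (oracle M₁ M₂) wgt m
  clear_value m1
  set m6 := exec (oracle M₁ M₂) (.set 23 (V 31) (V 32)) (exec (oracle M₁ M₂) (.set 23 (V 30) (V 43))
    (exec (oracle M₁ M₂) (asg 43 (.get 23 (V 31))) (exec (oracle M₁ M₂) (asg 42 (.get 23 (V 30)))
      (exec (oracle M₁ M₂) (asg 37 (V 36)) m1)))) with hm6
  have c30 : m1 30 0 = i.val := by rw [a1 30 (by simp), hi]
  have c31 : m1 31 0 = j.val := by rw [a1 31 (by simp), hj]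
  have c32 : m1 32 0 = enc y := by rw [a1 32 (by simp), hy]
  have c23 : ∀ k : Fin n, m1 23 k.val = enc (σ k) := by rw [a1 23 (by simp)]; exact hσ
  have a6 : Agree [34, 35, 36, 37, 42, 43, 23] m m6 :=
    agree_exec (agree_exec (agree_exec (agree_exec (agree_exec (a1.mono (by simp)) _ _ (by decide))
      _ _ (by decide)) _ _ (by decide)) _ _ (by decide)) _ _ (by decide)
  have d37 : m6 37 0 = Kx L w σ := by simp [hm6, exec, asg, V, Expr.val, s1]
  have d42 : m6 42 0 = enc (σ i) := by simp [hm6, exec, asg, V, Expr.val, c30, c23]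
  have d43 : m6 43 0 = enc (σ j) := by simp [hm6, exec, asg, V, Expr.val, c31, c23]
  have d23 : RS (mv i j y σ) m6 := by
    intro k
    simp only [hm6, exec, asg, V, Expr.val, Mem.put_apply, mv]
    by_cases h1 : k = j
    · subst h1
      simp [c31, c32]
    · have h1' : k.val ≠ j.val := fun h => h1 (Fin.ext h)
      by_cases h2 : k = i
      · subst h2
        simp [c30, c31, c23, h1, h1']
      · have h2' : k.val ≠ i.val := fun h => h2 (Fin.ext h)
        simp [c30, c31, c23, h1, h1', h2, h2']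
  clear_value m6
  have hP6 : Par M₂ L m6 := hP.agree a6 (by decide)
  have s7 := wgt_spec M₁ M₂ L w _ m6 hP6 (by intro z; rw [a6 21 (by simp)]; exact hw z) d23
  have a7 : Agree [34, 35, 36] m6 (exec (oracle M₁ M₂) wgt m6) :=
    agree_exec (Agree.refl _ _) _ _ (by decide)
  set m7 := exec (oracle M₁ M₂) wgt m6
  clear_value m7
  have s8 := indep_spec M₁ M₂ h₂ L (mv i j y σ) m7 (hP6.agree a7 (by decide))
    (by intro z; rw [a7 23 (by simp)]; exact d23 z)
  have a8 : Agree [24, 25, 34, 35, 38, 39, 40] m7 (exec (oracle M₁ M₂) indep m7) :=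
    agree_exec (Agree.refl _ _) _ _ (by decide)
  set m8 := exec (oracle M₁ M₂) indep m7
  clear_value m8
  have f13 : m8 13 0 = pD L := by rw [a8 13 (by simp), a7 13 (by simp)]; exact hP6.r13
  have f36 : m8 36 0 = Kx L w (mv i j y σ) := by rw [a8 36 (by simp), s7]
  have f37 : m8 37 0 = Kx L w σ := by rw [a8 37 (by simp), a7 37 (by simp), d37]
  set m10 := exec (oracle M₁ M₂) (asg 41 (.lit 1))
    (exec (oracle M₁ M₂) (asg 47 (.sub (V 13) (.sub (V 37) (V 36)))) m8) with hm10
  have a10 : Agree [41, 47] m8 m10 :=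
    agree_exec (agree_exec (Agree.refl _ _) _ _ (by decide)) _ _ (by decide)
  have g41 : m10 41 0 = 1 := by simp [hm10, exec, asg, Expr.val]
  have g47 : m10 47 0 = pD L - (Kx L w σ - Kx L w (mv i j y σ)) := by
    simp [hm10, exec, asg, V, Expr.val, f13, f36, f37]
  have g13 : m10 13 0 = pD L := by rw [a10 13 (by simp), f13]
  clear_value m10
  obtain ⟨k, hk, ⟨k1, k2⟩, k3⟩ := execLoop_guard (V 47)
    (exec (oracle M₁ M₂) (.seq (asg 41 (.add (V 41) (V 41))) (asg 47 (.sub (V 47) (.lit 1)))))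
    (fun k m' => m' 41 0 = 2 ^ k ∧ m' 47 0 + k = pD L - (Kx L w σ - Kx L w (mv i j y σ))) (pD L)
    (by
      intro k _ m' ⟨b1, b2⟩ hc
      simp only [V, Expr.val] at hc
      refine ⟨?_, ?_⟩
      · simp [exec, asg, V, Expr.val, b1]; ring
      · simp [exec, asg, V, Expr.val]; omega)
    m10 ⟨by simpa using g41, by simpa using g47⟩
  have a11 : Agree [41, 47] m10 (exec (oracle M₁ M₂) (.loop (V 13) (V 47)
      (.seq (asg 41 (.add (V 41) (V 41))) (asg 47 (.sub (V 47) (.lit 1))))) m10) :=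
    agree_exec (Agree.refl _ _) _ _ (by decide)
  have e11 : exec (oracle M₁ M₂) (.loop (V 13) (V 47)
      (.seq (asg 41 (.add (V 41) (V 41))) (asg 47 (.sub (V 47) (.lit 1))))) m10 41 0
      = 2 ^ (pD L - (Kx L w σ - Kx L w (mv i j y σ))) := by
    have : (V 13).val m10 = pD L := g13
    rw [exec, this, k1]
    congr 1
    rcases k3 with k3 | k3
    · omega
    · simp only [V, Expr.val] at k3 k2
      omega
  set m11 := exec (oracle M₁ M₂) (.loop (V 13) (V 47)
      (.seq (asg 41 (.add (V 41) (V 41))) (asg 47 (.sub (V 47) (.lit 1))))) m10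
  clear_value m11
  have h33 : m11 33 0 = m 33 0 := by
    rw [a11 33 (by simp), a10 33 (by simp), a8 33 (by simp), a7 33 (by simp), a6 33 (by simp)]
  have h38 : m11 38 0 = m8 38 0 := by rw [a11 38 (by simp), a10 38 (by simp)]
  set m12 := exec (oracle M₁ M₂) (.ite (ltE (V 33) (V 41)) skip (asg 38 (.lit 0))) m11 with hm12
  have a12 : Agree [34, 38] m11 m12 := agree_exec (Agree.refl _ _) _ _ (by decide)
  have s12 : m12 38 0 ≠ 0 ↔ Valid M₁ M₂ (mv i j y σ) ∧
      m 33 0 < 2 ^ (pD L - (Kx L w σ - Kx L w (mv i j y σ))) := by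
    rw [hm12, ← e11, ← h33, ← s8, ← h38]
    by_cases hc : m11 33 0 < m11 41 0
    · rw [exec_ite_ne _ _ _ (by simp only [ltE, V, Expr.val]; omega),
        exec_frame _ _ _ 38 (by decide)]
      simp [hc]
    · rw [exec_ite_zero _ _ _ (by simp only [ltE, V, Expr.val]; omega)]
      simp [hc, exec, asg, Expr.val]
  clear_value m12
  have all : ∀ a, a ∉ [24, 25, 34, 35, 36, 38, 39, 40, 41, 47] → m12 a = m6 a := by
    intro a ha
    simp only [List.mem_cons, List.not_mem_nil, or_false, not_or] at ha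
    rw [a12 a (by simp [ha]), a11 a (by simp [ha]), a10 a (by simp [ha]), a8 a (by simp [ha]),
      a7 a (by simp [ha])]
  by_cases hc : m12 38 0 = 0
  · rw [if_neg (fun h => s12.2 h hc), exec_ite_zero _ _ _ (by simpa [V, Expr.val] using hc)]
    intro k
    have t30 : m12 30 0 = i.val := by rw [all 30 (by simp), a6 30 (by simp), hi]
    have t31 : m12 31 0 = j.val := by rw [all 31 (by simp), a6 31 (by simp), hj]
    have t42 : m12 42 0 = enc (σ i) := by rw [all 42 (by simp), d42]
    have t43 : m12 43 0 = enc (σ j) := by rw [all 43 (by simp), d43]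
    have t23 : m12 23 k.val = enc (mv i j y σ k) := by rw [all 23 (by simp)]; exact d23 k
    by_cases h1 : k = i
    · subst h1
      simp [exec, V, Expr.val, t30, t42]
    · have h1' : k.val ≠ i.val := fun h => h1 (Fin.ext h)
      by_cases h2 : k = j
      · subst h2
        simp [exec, V, Expr.val, t30, t31, t43, h1']
      · have h2' : k.val ≠ j.val := fun h => h2 (Fin.ext h)
        simp [exec, V, Expr.val, t30, t31, h1', h2', t23, mv, h1, h2]
  · rw [if_pos (s12.1 hc), exec_ite_ne _ _ _ (by simpa [V, Expr.val] using hc)]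
    intro k
    rw [exec_frame _ _ _ 23 (by decide), all 23 (by simp)]
    exact d23 k

theorem classify_spec (M₁ M₂ : Matroid (Fin n)) (L p : ℕ) (hp : p < n) (c : Cnt n)
    (σ : Fin n → XX n) (m : Mem) (hP : Par M₂ L m) (hσ : RS σ m) (hc : RC c m)
    (h29 : m 29 0 = p) : RC (count p c σ) (exec (oracle M₁ M₂) classify m) := by
  simp only [classify, exec_seq]
  obtain ⟨a1, b1, b2⟩ := forN_inv (oracle M₁ M₂) 0
    (.ite (neE (.get 22 sI) (V 35)) (.seq (inc 44) (asg 45 (V 35))) skip) n
    (fun i m' => Agree [34, 35, 44, 45] m m' ∧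
      m' 44 0 = (univ.filter (fun j : Fin n => j.val < i ∧ (σ j).2 ≠ j)).card ∧
      (m' 44 0 ≠ 0 → ∃ j : Fin n, m' 45 0 = j.val ∧ (σ j).2 ≠ j))
    (exec (oracle M₁ M₂) (asg 44 (.lit 0)) m)
    (by rw [exec_frame _ _ _ 0 (by decide)]; exact hP.r0) (by decide) (by decide)
    (fun i m' x h => ⟨agree_put' h.1 (by simp) _ _, by simpa using h.2⟩)
    (by
      intro i hi m' h35 ⟨h1, h2, h3⟩
      refine ⟨agree_exec h1 _ _ (by decide), ?_⟩
      have e23 : m' 23 i = enc (σ ⟨i, hi⟩) := by rw [h1 23 (by simp)]; exact hσ ⟨i, hi⟩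
      have e22 : m' 22 (enc (σ ⟨i, hi⟩)) = (σ ⟨i, hi⟩).2.val := by
        rw [h1 22 (by simp)]; exact hP.part _
      rw [filter_lt_succ hi]
      by_cases hc : (σ ⟨i, hi⟩).2 = ⟨i, hi⟩
      · rw [if_neg (not_not.2 hc), exec_ite_zero _ _ _
          (by simp [V, sI, neE, Expr.val, h35, e23, e22, hc]),
          exec_frame _ _ _ 44 (by decide), exec_frame _ _ _ 45 (by decide)]
        exact ⟨h2, h3⟩
      · have : (σ ⟨i, hi⟩).2.val ≠ i := fun h => hc (Fin.ext h)
        rw [if_pos hc, exec_ite_ne _ _ _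
          (by simp only [V, sI, neE, Expr.val, h35, e23, e22]; omega),
          card_insert_of_notMem (by simp), ← h2]
        refine ⟨by simp [exec, inc, asg, V, Expr.val], fun _ => ⟨⟨i, hi⟩, ?_, hc⟩⟩
        simp [exec, inc, asg, V, Expr.val, h35])
    ⟨agree_exec (Agree.refl _ _) _ _ (by decide), by simp [exec, asg, Expr.val],
      by simp [exec, asg, Expr.val]⟩
  set m1 := exec (oracle M₁ M₂) (forN 0
    (.ite (neE (.get 22 sI) (V 35)) (.seq (inc 44) (asg 45 (V 35))) skip))
    (exec (oracle M₁ M₂) (asg 44 (.lit 0)) m)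
  clear_value m1
  have e44 : m1 44 0 = offs σ := by
    rw [b1, offs]
    congr 1
    ext j
    simp
  obtain ⟨c1, c2, c3⟩ := hc
  have d27 : m1 27 0 = c.c0 := by rw [a1 27 (by simp), c1]
  have d28 : m1 28 0 = c.c1 := by rw [a1 28 (by simp), c2]
  have d26 : ∀ j : Fin n, m1 26 j.val = c.cn j := by rw [a1 26 (by simp)]; exact c3
  by_cases h0 : offs σ = 0
  · rw [exec_ite_zero _ _ _ (by simp [V, Expr.val, e44, h0]), exec_seq]
    refine ⟨?_, ?_, fun j => ?_⟩
    · rw [exec_frame _ _ _ 27 (by decide)]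
      simp [exec, inc, asg, V, Expr.val, d27, count, h0]
    · have e1 : (ltE (.get 23 (V 29)) n2).val (exec (oracle M₁ M₂) (inc 27) m1)
          = n + n - enc (σ ⟨p, hp⟩) := by
        simp only [ltE, n2, V, Expr.val]
        rw [exec_frame _ _ _ 0 (by decide), exec_frame _ _ _ 23 (by decide),
          exec_frame _ _ _ 29 (by decide), a1 0 (by simp), a1 23 (by simp), a1 29 (by simp),
          hP.r0, h29, hσ ⟨p, hp⟩]
      have e2 : (∀ j : Fin n, j.val = p → (σ j).1 ≠ 2) ↔ enc (σ ⟨p, hp⟩) < n + n := by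
        rw [enc_lt_iff]
        exact ⟨fun h => h _ rfl, fun h j hj => by rwa [show j = ⟨p, hp⟩ from Fin.ext hj]⟩
      simp only [count, e2, h0, true_and]
      by_cases h1 : enc (σ ⟨p, hp⟩) < n + n
      · rw [if_pos h1, exec_ite_ne _ _ _ (by rw [e1]; omega)]
        simp [exec, inc, asg, V, Expr.val, d28]
      · rw [if_neg h1, exec_ite_zero _ _ _ (by rw [e1]; omega)]
        simp [exec, inc, skip, asg, V, Expr.val, d28]
    · rw [exec_frame _ _ _ 26 (by decide), exec_frame _ _ _ 26 (by decide), d26]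
      simp [count, h0]
  · rw [exec_ite_ne _ _ _ (by simpa [V, Expr.val, e44] using h0)]
    refine ⟨?_, ?_, fun j => ?_⟩
    · rw [exec_frame _ _ _ 27 (by decide), d27]
      simp [count, h0]
    · rw [exec_frame _ _ _ 28 (by decide), d28]
      simp [count, h0]
    · by_cases h1 : offs σ = 1
      · rw [exec_ite_zero _ _ _ (by simp [V, Expr.val, e44, h1])]
        obtain ⟨j0, hj0, hj0'⟩ := b2 (by rw [e44]; exact h0)
        simp only [exec, V, Expr.val, hj0, Mem.put_apply, true_and, count, h1, d26]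
        by_cases hj : j = j0
        · subst hj
          rw [if_pos rfl, if_pos hj0']
        · rw [if_neg (fun h => hj (Fin.ext h)), if_neg, add_zero]
          intro h
          obtain ⟨a, ha⟩ := card_eq_one.1 h1
          have q1 : j ∈ univ.filter (fun j => (σ j).2 ≠ j) := by simpa using h
          have q2 : j0 ∈ univ.filter (fun j => (σ j).2 ≠ j) := by simpa using hj0'
          rw [ha, mem_singleton] at q1 q2
          exact hj (q1.trans q2.symm)
      · rw [exec_ite_ne _ _ _ (by simp only [V, Expr.val, e44]; omega),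
          exec_frame _ _ _ 26 (by decide), d26]
        simp [count, h1]

theorem updateP_spec (M₁ M₂ : Matroid (Fin n)) (L p : ℕ) (hp : p < n) (s : St n) (c : Cnt n)
    (m : Mem) (hP : Par M₂ L m) (hs : RSt s m) (hc : RC c m) (h29 : m 29 0 = p) :
    RSt (updSt L p s c) (exec (oracle M₁ M₂) updateP m) := by
  simp only [updateP, exec_seq]
  obtain ⟨a1, b1⟩ := forN_inv (oracle M₁ M₂) 0
    (.ite (ltE (.get 26 (V 35)) (V 16)) skip
      (.seq (add2 (V 35)) (.seq (add2 (.add (V 0) (V 35))) (add2 (.add n2 (V 35)))))) n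
    (fun i m' => Agree [21, 34, 35] m m' ∧ ∀ y : XX n,
      m' 21 (enc y) = s.w y + if y.2.val < i ∧ pK1 L ≤ c.cn y.2 then 2 else 0)
    m hP.r0 (by decide) (by decide)
    (fun i m' x h => ⟨agree_put' h.1 (by simp) _ _, by simpa using h.2⟩)
    (by
      intro i hi m' h35 ⟨h1, h2⟩
      refine ⟨agree_exec h1 _ _ (by decide), fun y => ?_⟩
      have e0 : m' 0 0 = n := by rw [h1 0 (by simp)]; exact hP.r0
      have e1 : (ltE (.get 26 (V 35)) (V 16)).val m' = pK1 L - c.cn ⟨i, hi⟩ := by
        simp only [ltE, V, Expr.val]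
        rw [h35, h1 16 (by simp), h1 26 (by simp), hP.r16, hc.2.2 ⟨i, hi⟩]
      by_cases hK : pK1 L ≤ c.cn ⟨i, hi⟩
      · rw [exec_ite_zero _ _ _ (by rw [e1]; omega)]
        have e2 : exec (oracle M₁ M₂)
            (.seq (add2 (V 35)) (.seq (add2 (.add (V 0) (V 35))) (add2 (.add n2 (V 35))))) m' 21
            (enc y) = m' 21 (enc y) + if y.2.val = i then 2 else 0 := by
          have hy2 := y.2.2
          simp only [exec, add2, n2, V, Expr.val, Mem.put_apply, h35, e0, true_and,
            Nat.reduceEqDiff, false_and, if_false]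
          rcases enc_cases y with h | h | h <;> rw [h] <;> split_ifs <;>
            first | omega | (congr 2; omega)
        rw [e2, h2]
        by_cases hy : y.2.val = i
        · have : y.2 = ⟨i, hi⟩ := Fin.ext hy
          rw [if_pos hy, if_neg (by omega), if_pos ⟨by omega, by rwa [this]⟩]
        · rw [if_neg hy, add_zero]
          congr 1
          exact if_congr (by omega) rfl rfl
      · rw [exec_ite_ne _ _ _ (by rw [e1]; omega), exec_frame _ _ _ 21 (by decide), h2]
        congr 1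
        refine if_congr ⟨fun h => ⟨by omega, h.2⟩, fun h => ⟨?_, h.2⟩⟩ rfl rfl
        have : y.2.val ≠ i := fun h' => hK (by
          rw [show (⟨i, hi⟩ : Fin n) = y.2 from Fin.ext h'.symm]; exact h.2)
        omega)
    ⟨Agree.refl _ _, fun y => by simpa using hs.1 y⟩
  set m1 := exec (oracle M₁ M₂) (forN 0 (.ite (ltE (.get 26 (V 35)) (V 16)) skip
      (.seq (add2 (V 35)) (.seq (add2 (.add (V 0) (V 35))) (add2 (.add n2 (V 35))))))) m
  clear_value m1
  set m2 := exec (oracle M₁ M₂)
    (.set 21 (.add n2 (V 29)) (.sub (.get 21 (.add n2 (V 29))) (.lit 1))) m1 with hm2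
  have a2 : Agree [21, 34, 35] m m2 := agree_exec a1 _ _ (by decide)
  have b2 : RW (updSt L p s c).w m2 := by
    intro y
    have e0 : m1 0 0 = n := by rw [a1 0 (by simp)]; exact hP.r0
    have e29 : m1 29 0 = p := by rw [a1 29 (by simp)]; exact h29
    simp only [hm2, exec, n2, V, Expr.val, e0, e29, Mem.put_apply, true_and, updSt]
    have e3 : n + n + p = enc ((2, ⟨p, hp⟩) : XX n) := (enc2 ⟨p, hp⟩).symm
    rw [e3]
    by_cases hy : y = (2, ⟨p, hp⟩)
    · subst hy
      rw [if_pos rfl, b1]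
      simp [hp]
    · rw [if_neg (fun h => hy (enc_inj h)), b1, if_neg (c := y.1 = 2 ∧ y.2.val = p)
        (fun h => hy (Prod.ext h.1 (Fin.ext h.2)))]
      simp
  clear_value m2
  have s3 := mul_spec (oracle M₁ M₂) 5 (.add (V 27) (V 28)) (by decide) (by decide) m2
  have a3 : Agree [5, 40, 46] m2 (exec (oracle M₁ M₂) (mul 5 (.add (V 27) (V 28))) m2) :=
    agree_exec (Agree.refl _ _) _ _ (by decide)
  set m3 := exec (oracle M₁ M₂) (mul 5 (.add (V 27) (V 28))) m2
  clear_value m3
  have s4 := mul_spec (oracle M₁ M₂) 6 (.add (V 27) (V 27)) (by decide) (by decide) m3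
  refine ⟨fun y => ?_, ?_, ?_⟩
  · rw [exec_frame _ _ _ 21 (by decide), a3 21 (by simp)]
    exact b2 y
  · rw [exec_frame _ _ _ 5 (by decide), s3]
    simp only [V, Expr.val, updSt]
    rw [a2 5 (by simp), a2 27 (by simp), a2 28 (by simp), a2 17 (by simp), hs.2.1, hc.1, hc.2.1,
      hP.r17]
  · rw [s4]
    simp only [V, Expr.val, updSt]
    rw [a3 6 (by simp), a3 27 (by simp), a3 17 (by simp), a2 6 (by simp), a2 27 (by simp),
      a2 17 (by simp), hs.2.2, hc.1, hP.r17]

theorem initP_spec (M₁ M₂ : Matroid (Fin n)) (h₂ : M₂.E = Set.univ) (L : ℕ) (m : Mem)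
    (hP : Par0 n L m) (h24 : ∀ i, m 24 i = 0) :
    Par M₂ L (exec (oracle M₁ M₂) initP m) ∧ RSt (st0 n L) (exec (oracle M₁ M₂) initP m) ∧
      exec (oracle M₁ M₂) initP m 29 0 = 0 := by
  have hP' : Par0 n L (exec (oracle M₁ M₂) initP m) := hP.agree (exec_agree _ _ _) (by decide)
  simp only [initP, exec_seq] at hP' ⊢
  obtain ⟨a1, b1⟩ := forN_inv (oracle M₁ M₂) 0
    (.seq (.set 22 (V 35) (V 35)) (.seq (.set 22 (.add (V 0) (V 35)) (V 35))
      (.seq (.set 22 (.add n2 (V 35)) (V 35)) (.seq (.set 21 (V 35) (V 48))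
        (.seq (.set 21 (.add (V 0) (V 35)) (V 48)) (.set 21 (.add n2 (V 35)) (V 12))))))) n
    (fun i m' => Agree [21, 22, 35] m m' ∧ ∀ y : XX n, y.2.val < i →
      m' 22 (enc y) = y.2.val ∧ m' 21 (enc y) = if y.1 = 2 then 2 * pB L else pB L)
    m hP.r0 (by decide) (by decide)
    (fun i m' x h => ⟨agree_put' h.1 (by simp) _ _, by simpa using h.2⟩)
    (by
      intro i hi m' h35 ⟨h1, h2⟩
      refine ⟨agree_exec h1 _ _ (by decide), fun y hy => ?_⟩
      have e0 : m' 0 0 = n := by rw [h1 0 (by simp)]; exact hP.r0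
      have e12 : m' 12 0 = 2 * pB L := by rw [h1 12 (by simp)]; exact hP.r12
      have e48 : m' 48 0 = pB L := by rw [h1 48 (by simp)]; exact hP.r48
      have hy2 := y.2.2
      have hlt := enc_lt_iff y
      simp only [exec, n2, V, Expr.val, Mem.put_apply, h35, e0, e12, e48, true_and,
        Nat.reduceEqDiff, false_and, if_false]
      by_cases hyi : y.2.val = i
      · constructor
        · rcases enc_cases y with h | h | h <;> rw [h] <;> split_ifs <;> omega
        · by_cases h12 : y.1 = 2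
          · have : ¬ enc y < n + n := fun h => hlt.1 h h12
            rw [if_pos h12, if_pos]
            rcases enc_cases y with h | h | h <;> omega
          · have := hlt.2 h12
            rw [if_neg h12, if_neg (by omega)]
            rcases enc_cases y with h | h | h <;> rw [h] at this ⊢ <;> split_ifs <;> omega
      · obtain ⟨q1, q2⟩ := h2 y (by omega)
        have r1 : enc y ≠ i := by rcases enc_cases y with h | h | h <;> omega
        have r2 : enc y ≠ n + i := by rcases enc_cases y with h | h | h <;> omega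
        have r3 : enc y ≠ n + n + i := by rcases enc_cases y with h | h | h <;> omega
        simp only [r1, r2, r3, if_false]
        exact ⟨q1, q2⟩)
    ⟨Agree.refl _ _, fun y hy => absurd hy (by simp)⟩
  set m1 := exec (oracle M₁ M₂) (forN 0
    (.seq (.set 22 (V 35) (V 35)) (.seq (.set 22 (.add (V 0) (V 35)) (V 35))
      (.seq (.set 22 (.add n2 (V 35)) (V 35)) (.seq (.set 21 (V 35) (V 48))
        (.seq (.set 21 (.add (V 0) (V 35)) (V 48)) (.set 21 (.add n2 (V 35)) (V 12)))))))) m
  clear_value m1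
  have g := greedy_spec M₁ M₂ h₂ m1 (by rw [a1 0 (by simp)]; exact hP.r0)
  have eU : {i : Fin n | m1 24 (n + i.val) = 0} = M₂.E := by
    rw [h₂, a1 24 (by simp)]
    ext x
    simp [h24]
  rw [eU, Matroid.eRk_ground] at g
  have a2 : Agree [25, 34, 35, 39, 40] m1 (exec (oracle M₁ M₂) greedy m1) :=
    agree_exec (Agree.refl _ _) _ _ (by decide)
  set m2 := exec (oracle M₁ M₂) greedy m1
  clear_value m2
  set m4 := exec (oracle M₁ M₂) (asg 5 (.lit 1)) (exec (oracle M₁ M₂) (asg 18 (V 40)) m2) with hm4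
  have a4 : Agree [5, 18] m2 m4 :=
    agree_exec (agree_exec (Agree.refl _ _) _ _ (by decide)) _ _ (by decide)
  have d18 : m4 18 0 = m2 40 0 := by simp [hm4, exec, asg, V, Expr.val]
  have d5 : m4 5 0 = 1 := by simp [hm4, exec, asg, V, Expr.val]
  have d0 : m4 0 0 = n := by rw [a4 0 (by simp), a2 0 (by simp), a1 0 (by simp)]; exact hP.r0
  have d48 : m4 48 0 = pB L := by
    rw [a4 48 (by simp), a2 48 (by simp), a1 48 (by simp)]; exact hP.r48
  clear_value m4
  have s5 : exec (oracle M₁ M₂) (.loop (V 0) (.lit 1) (dbl 5 48)) m4 5 0 = 2 ^ (pB L * n) := by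
    have := execLoop_inv (exec (oracle M₁ M₂) (dbl 5 48))
      (fun i m' => m' 48 0 = pB L ∧ m' 5 0 = 2 ^ (pB L * i)) n (by
        intro i _ m' ⟨q1, q2⟩
        refine ⟨by rw [exec_frame _ _ _ 48 (by decide), q1], ?_⟩
        rw [dbl_spec, q1, q2, mul_add, mul_one, pow_add]) m4 ⟨d48, by simpa using d5⟩
    have e : (V 0).val m4 = n := d0
    rw [exec, e]
    exact this.2
  have a5 : Agree [5] m4 (exec (oracle M₁ M₂) (.loop (V 0) (.lit 1) (dbl 5 48)) m4) :=
    agree_exec (Agree.refl _ _) _ _ (by decide)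
  set m5 := exec (oracle M₁ M₂) (.loop (V 0) (.lit 1) (dbl 5 48)) m4
  clear_value m5
  have a7 : Agree [6, 29] m5
      (exec (oracle M₁ M₂) (asg 29 (.lit 0)) (exec (oracle M₁ M₂) (asg 6 (.lit 1)) m5)) :=
    agree_exec (agree_exec (Agree.refl _ _) _ _ (by decide)) _ _ (by decide)
  refine ⟨⟨hP', ?_, fun y => ?_⟩, ⟨fun y => ?_, ?_, ?_⟩, ?_⟩
  · rw [a7 18 (by simp), a5 18 (by simp), d18, g]
  · rw [a7 22 (by simp), a5 22 (by simp), a4 22 (by simp), a2 22 (by simp)]
    exact (b1 y y.2.2).1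
  · rw [a7 21 (by simp), a5 21 (by simp), a4 21 (by simp), a2 21 (by simp)]
    exact (b1 y y.2.2).2
  · rw [a7 5 (by simp), s5]; rfl
  · simp [exec, asg, Expr.val, st0]
  · simp [exec, asg, Expr.val]

end Vale.Agent.P317
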