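import Vale.Agent.P317.RefDet

/-! P317: refinement of the randomized parts of the program. -/

namespace Vale.Agent.P317
open Finset

variable {n : ℕ}

theorem bit_iter (ψ : ℕ → ℝ) (j : ℕ) : ∀ r : ℕ,
    (fun (φ : ℕ → ℝ) (r : ℕ) => (φ (r + r) + φ (r + r + 1)) / 2)^[j] ψ r =
      (∑ s ∈ range (2 ^ j), ψ (2 ^ j * r + s)) / 2 ^ j := by
  induction j with
  | zero => intro r; simp
  | succ j ih =>
    intro r
    rw [Function.iterate_succ_apply']
    simp only [ih]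
    have e : 2 ^ (j + 1) = 2 ^ j + 2 ^ j := by ring
    rw [e, Finset.sum_range_add]
    have e1 : ∀ s, 2 ^ j * (r + r) + s = (2 ^ j + 2 ^ j) * r + s := by intro s; ring
    have e2 : ∀ s, 2 ^ j * (r + r + 1) + s = (2 ^ j + 2 ^ j) * r + (2 ^ j + s) := by intro s; ring
    simp only [e1, e2]
    rw [pow_succ]
    field_simp

theorem rnd_impl (O : Bool → Set (Fin n) → Prop) (x k c : ℕ) (hxk : k ≠ x) (hx : x ≠ 34)
    (hk : k ≠ 34) :
    Impl O [x, 34] (rnd x k) (fun (_ : Unit) m => m k 0 = c) (fun (r : ℕ) m => m x 0 = r)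
      (fun ψ _ => (∑ r ∈ range (2 ^ c), ψ r) / 2 ^ c) := by
  have h1 : Impl O [x, 34] (asg x (.lit 0)) (fun (_ : Unit) m => m k 0 = c)
      (fun (r : ℕ) m => m k 0 = c ∧ m x 0 = r) (fun ψ _ => ψ 0) :=
    Impl.det (fun _ => 0) rfl (by simp [asg, Prog.wr])
      (by intro a m h; simp [exec, asg, Expr.val, hxk, h])
  have h2 : Impl O [x, 34] (.seq (.coin 34 (.lit 0)) (asg x (.add (.add (V x) (V x)) (V 34))))
      (fun (r : ℕ) m => m k 0 = c ∧ m x 0 = r) (fun (r : ℕ) m => m k 0 = c ∧ m x 0 = r)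
      (fun (φ : ℕ → ℝ) (r : ℕ) => (φ (r + r) + φ (r + r + 1)) / 2) := by
    intro r m ⟨h, h'⟩ φ ψ hφ
    have ag : ∀ a b, Agree [x, 34] m ((m.put 34 0 a).put x 0 b) := fun a b =>
      ((agree_put m 34 0 a).mono (by simp)).trans ((agree_put _ x 0 b).mono (by simp))
    simp only [ex, asg, V, Expr.val]
    rw [hφ (r + r) _ (by simp [hxk, hx, hk, h, h']) (ag _ _),
      hφ (r + r + 1) _ (by simp [hxk, hx, hk, h, h']) (ag _ _)]
  have h3 := Impl.loop (V k) c (fun _ (r : ℕ) m => m k 0 = c ∧ m x 0 = r)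
    (by intro a m h; exact h.1) (fun _ _ => h2)
  intro u m hm φ ψ hφ
  have := (h1.seq h3) u m hm φ ψ (fun b m' hb => hφ b m' hb.2)
  rw [rnd, this]
  simp only [bit_iter]
  simp

theorem sum_range_dite {P : ℕ} (hP : n ≤ P) (F : Fin n → ℝ) :
    ∑ i ∈ range P, (if h : i < n then F ⟨i, h⟩ else 0) = ∑ i, F i := by
  rw [← Finset.sum_range_add_sum_Ico _ hP, Finset.sum_range,
    Finset.sum_eq_zero (s := Ico n P) (by
      intro i hi; rw [dif_neg]; simp only [mem_Ico] at hi; omega)]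
  simp

def dec (x : Fin (3 * n)) : XX n := finProdFinEquiv.symm x

theorem enc_dec (x : Fin (3 * n)) : enc (dec x) = x.val := by
  have : ∀ y : XX n, enc y = (finProdFinEquiv y).val := by
    intro y; simp [enc, finProdFinEquiv]; ring
  rw [this, dec, Equiv.apply_symm_apply]

open Classical in
/-- Outcome of a step for given random numbers. -/
noncomputable def res (M₁ M₂ : Matroid (Fin n)) (L : ℕ) (w : XX n → ℕ) (σ : Fin n → XX n)
    (i j y r : ℕ) : Fin n → XX n :=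
  if hi : i < n then if hj : j < n then if hy : y < 3 * n then
    (if Valid M₁ M₂ (mv ⟨i, hi⟩ ⟨j, hj⟩ (dec ⟨y, hy⟩) σ) ∧
        r < 2 ^ (pD L - (Kx L w σ - Kx L w (mv ⟨i, hi⟩ ⟨j, hj⟩ (dec ⟨y, hy⟩) σ)))
      then mv ⟨i, hi⟩ ⟨j, hj⟩ (dec ⟨y, hy⟩) σ else σ)
    else σ else σ else σ

theorem stepDet_spec (M₁ M₂ : Matroid (Fin n)) (h₂ : M₂.E = Set.univ) (L : ℕ) (w : XX n → ℕ)
    (σ : Fin n → XX n) (m : Mem) (hP : Par M₂ L m) (hw : RW w m) (hσ : RS σ m) :
    RS (res M₁ M₂ L w σ (m 30 0) (m 31 0) (m 32 0) (m 33 0))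
      (exec (oracle M₁ M₂) stepDet m) := by
  have sk : RS σ (exec (oracle M₁ M₂) skip m) := by
    intro j; rw [exec_frame _ _ _ _ (by decide)]; exact hσ j
  simp only [stepDet, exec, ltE, V, Expr.val, hP.r0, hP.r19, res]
  by_cases hi : m 30 0 < n
  · rw [if_neg (by omega), dif_pos hi]
    by_cases hj : m 31 0 < n
    · rw [if_neg (by omega), dif_pos hj]
      by_cases hy : m 32 0 < 3 * n
      · rw [if_neg (by omega), dif_pos hy]
        exact tryMove_spec M₁ M₂ h₂ L w σ m hP hw hσ ⟨_, hi⟩ ⟨_, hj⟩ (dec ⟨_, hy⟩) rfl rfl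
          (by rw [enc_dec])
      · rw [if_pos (by omega), dif_neg hy]; exact sk
    · rw [if_pos (by omega), dif_neg hj]; exact sk
  · rw [if_pos (by omega), dif_neg hi]; exact sk

theorem res_avg (M₁ M₂ : Matroid (Fin n)) (L : ℕ) (hn : n ≤ 2 ^ L) (w : XX n → ℕ)
    (σ : Fin n → XX n) (ψ : (Fin n → XX n) → ℝ) :
    (∑ i ∈ range (2 ^ L), (∑ j ∈ range (2 ^ L), (∑ y ∈ range (2 ^ (L + 3)),
      (∑ r ∈ range (2 ^ pD L), ψ (res M₁ M₂ L w σ i j y r)) / 2 ^ pD L) / 2 ^ (L + 3)) / 2 ^ L) /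
        2 ^ L = stepG (pθ L) (accM M₁ M₂ L w) ψ σ := by
  classical
  have inner : ∀ i j y, (∑ r ∈ range (2 ^ pD L), ψ (res M₁ M₂ L w σ i j y r)) / 2 ^ pD L =
      ψ σ + if hi : i < n then if hj : j < n then if hy : y < 3 * n then
        accM M₁ M₂ L w σ (mv ⟨i, hi⟩ ⟨j, hj⟩ (dec ⟨y, hy⟩) σ) *
          (ψ (mv ⟨i, hi⟩ ⟨j, hj⟩ (dec ⟨y, hy⟩) σ) - ψ σ) else 0 else 0 else 0 := by
    intro i j y
    have c0 : (∑ _r ∈ range (2 ^ pD L), ψ σ) / 2 ^ pD L = ψ σ := by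
      simp
    unfold res
    by_cases hi : i < n
    · by_cases hj : j < n
      · by_cases hy : y < 3 * n
        · simp only [dif_pos hi, dif_pos hj, dif_pos hy]
          generalize mv ⟨i, hi⟩ ⟨j, hj⟩ (dec ⟨y, hy⟩) σ = σ'
          unfold accM
          by_cases hv : Valid M₁ M₂ σ'
          · simp only [hv, true_and, if_true]
            generalize he : pD L - (Kx L w σ - Kx L w σ') = e
            have hle : 2 ^ e ≤ 2 ^ pD L := Nat.pow_le_pow_right (by norm_num) (by omega)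
            rw [← Finset.sum_range_add_sum_Ico _ hle,
              Finset.sum_congr rfl (g := fun _ => ψ σ')
                (by intro r hr; rw [if_pos (by simpa using hr)]),
              Finset.sum_congr rfl (s₁ := Ico _ _) (g := fun _ => ψ σ)
                (by intro r hr; rw [if_neg (by simp only [mem_Ico] at hr; omega)])]
            simp only [sum_const, card_range, Nat.card_Ico, nsmul_eq_mul, Nat.cast_sub hle]
            push_cast
            field_simp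
            ring
          · simp only [hv, false_and, if_false, c0]; simp
        · simp only [dif_pos hi, dif_pos hj, dif_neg hy, c0]; simp
      · simp only [dif_pos hi, dif_neg hj, c0]; simp
    · simp only [dif_neg hi, c0]; simp
  simp only [inner]
  have h3 : 3 * n ≤ 2 ^ (L + 3) := by rw [pow_add]; omega
  have s3 : ∀ (i j : ℕ), (∑ y ∈ range (2 ^ (L + 3)),
      (ψ σ + if hi : i < n then if hj : j < n then if hy : y < 3 * n then
        accM M₁ M₂ L w σ (mv ⟨i, hi⟩ ⟨j, hj⟩ (dec ⟨y, hy⟩) σ) *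
          (ψ (mv ⟨i, hi⟩ ⟨j, hj⟩ (dec ⟨y, hy⟩) σ) - ψ σ) else 0 else 0 else 0)) / 2 ^ (L + 3) =
      ψ σ + if hi : i < n then if hj : j < n then (∑ y, accM M₁ M₂ L w σ (mv ⟨i, hi⟩ ⟨j, hj⟩ y σ) *
          (ψ (mv ⟨i, hi⟩ ⟨j, hj⟩ y σ) - ψ σ)) / 2 ^ (L + 3) else 0 else 0 := by
    intro i j
    rw [sum_add_distrib, add_div]
    congr 1
    · simp
    · by_cases hi : i < n
      · by_cases hj : j < n
        · simp only [dif_pos hi, dif_pos hj]
          congr 1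
          rw [sum_range_dite h3 (fun y => accM M₁ M₂ L w σ (mv ⟨i, hi⟩ ⟨j, hj⟩ (dec y) σ) *
            (ψ (mv ⟨i, hi⟩ ⟨j, hj⟩ (dec y) σ) - ψ σ))]
          exact Equiv.sum_comp finProdFinEquiv.symm
            (fun y => accM M₁ M₂ L w σ (mv ⟨i, hi⟩ ⟨j, hj⟩ y σ) *
              (ψ (mv ⟨i, hi⟩ ⟨j, hj⟩ y σ) - ψ σ))
        · simp [dif_pos hi, dif_neg hj]
      · simp [dif_neg hi]
  simp only [s3]
  have s2 : ∀ i : ℕ, (∑ j ∈ range (2 ^ L), (ψ σ + if hi : i < n then if hj : j < n then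
      (∑ y, accM M₁ M₂ L w σ (mv ⟨i, hi⟩ ⟨j, hj⟩ y σ) *
          (ψ (mv ⟨i, hi⟩ ⟨j, hj⟩ y σ) - ψ σ)) / 2 ^ (L + 3) else 0 else 0)) / 2 ^ L =
      ψ σ + if hi : i < n then (∑ j, (∑ y, accM M₁ M₂ L w σ (mv ⟨i, hi⟩ j y σ) *
          (ψ (mv ⟨i, hi⟩ j y σ) - ψ σ)) / 2 ^ (L + 3)) / 2 ^ L else 0 := by
    intro i
    rw [sum_add_distrib, add_div]
    congr 1
    · simp
    · by_cases hi : i < n
      · simp only [dif_pos hi]
        congr 1
        exact sum_range_dite hn (fun j => (∑ y, accM M₁ M₂ L w σ (mv ⟨i, hi⟩ j y σ) *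
          (ψ (mv ⟨i, hi⟩ j y σ) - ψ σ)) / 2 ^ (L + 3))
      · simp [dif_neg hi]
  simp only [s2]
  rw [sum_add_distrib, add_div, sum_range_dite hn (fun i => (∑ j, (∑ y,
    accM M₁ M₂ L w σ (mv i j y σ) * (ψ (mv i j y σ) - ψ σ)) / 2 ^ (L + 3)) / 2 ^ L)]
  unfold stepG pθ
  congr 1
  · simp
  · simp only [← Finset.sum_div]
    rw [pow_add]
    field_simp
    norm_num

def wStep : List ℕ := [23, 24, 25, 30, 31, 32, 33, 34, 35, 36, 37, 38, 39, 40, 41, 42, 43, 47]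

theorem step_impl (M₁ M₂ : Matroid (Fin n)) (h₂ : M₂.E = Set.univ) (L : ℕ) (w : XX n → ℕ) :
    Impl (oracle M₁ M₂) wStep step (fun σ m => Par M₂ L m ∧ RW w m ∧ RS σ m)
      (fun σ m => Par M₂ L m ∧ RW w m ∧ RS σ m) (stepG (pθ L) (accM M₁ M₂ L w)) := by
  intro σ m ⟨hP, hw, hσ⟩ φ ψ hφ
  rw [← res_avg M₁ M₂ L hP.hn w σ ψ]
  simp only [step, ex]
  refine rnd_impl _ 30 9 L (by decide) (by decide) (by decide) () m hP.r9 _ _ ?_
  intro i m1 hi a1
  refine rnd_impl _ 31 9 L (by decide) (by decide) (by decide) () m1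
    (show m1 9 0 = L by rw [a1 9 (by decide)]; exact hP.r9) _ _ ?_
  intro j m2 hj a2
  refine rnd_impl _ 32 20 (L + 3) (by decide) (by decide) (by decide) () m2
    (show m2 20 0 = L + 3 by rw [a2 20 (by decide), a1 20 (by decide)]; exact hP.r20) _ _ ?_
  intro y m3 hy a3
  refine rnd_impl _ 33 13 (pD L) (by decide) (by decide) (by decide) () m3
    (show m3 13 0 = pD L by
      rw [a3 13 (by decide), a2 13 (by decide), a1 13 (by decide)]; exact hP.r13) _ _ ?_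
  intro r m4 hr a4
  have a : Agree [30, 31, 32, 33, 34] m m4 :=
    (((a1.mono (by decide)).trans (a2.mono (by decide))).trans (a3.mono (by decide))).trans
      (a4.mono (by decide))
  have e30 : m4 30 0 = i := by rw [a4 30 (by decide), a3 30 (by decide), a2 30 (by decide), hi]
  have e31 : m4 31 0 = j := by rw [a4 31 (by decide), a3 31 (by decide), hj]
  have e32 : m4 32 0 = y := by rw [a4 32 (by decide), hy]
  have hP4 : Par M₂ L m4 := hP.agree a (by decide)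
  have hw4 : RW w m4 := by intro y; rw [a 21 (by decide)]; exact hw y
  have hσ4 : RS σ m4 := by intro y; rw [a 23 (by decide)]; exact hσ y
  have a5 : Agree wStep m4 (exec (oracle M₁ M₂) stepDet m4) :=
    (exec_agree _ _ _).mono (by decide)
  rw [ex_det _ _ (by decide)]
  refine hφ _ _ ⟨hP4.agree a5 (by decide), ?_, ?_⟩ ((a.mono (by decide)).trans a5)
  · intro y; rw [a5 21 (by decide)]; exact hw4 y
  · have := stepDet_spec M₁ M₂ h₂ L w σ m4 hP4 hw4 hσ4
    rwa [e30, e31, e32, hr] at this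

def wSample : List ℕ := wStep ++ [26, 27, 28, 44, 45]

theorem sample_impl (M₁ M₂ : Matroid (Fin n)) (h₂ : M₂.E = Set.univ) (L p : ℕ) (hp : p < n)
    (w : XX n → ℕ) :
    Impl (oracle M₁ M₂) wSample sample
      (fun c m => Par M₂ L m ∧ RW w m ∧ RC c m ∧ m 29 0 = p)
      (fun c m => Par M₂ L m ∧ RW w m ∧ RC c m ∧ m 29 0 = p) (sampleOp M₁ M₂ L p w) := by
  intro c m ⟨hP, hw, hc, h29⟩ φ ψ hφ
  have hl := Impl.loop (V 14) (pT L) (fun _ σ m => Par M₂ L m ∧ RW w m ∧ RS σ m)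
    (by intro a m h; exact h.1.r14) (fun _ _ => step_impl M₁ M₂ h₂ L w)
  simp only [sample, ex]
  rw [ex_det _ reset (by decide)]
  have a1 : Agree wStep m (exec (oracle M₁ M₂) reset m) := (exec_agree _ _ _).mono (by decide)
  refine hl (sig0 n) _ ⟨hP.agree a1 (by decide), ?_, reset_spec _ m hP.r0⟩ _ _ ?_
  · intro y; rw [a1 21 (by decide)]; exact hw y
  · intro σ m2 ⟨hP2, hw2, hσ2⟩ a2
    have a := a1.trans a2
    have hc2 : RC c m2 := by
      refine ⟨?_, ?_, ?_⟩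
      · rw [a 27 (by decide)]; exact hc.1
      · rw [a 28 (by decide)]; exact hc.2.1
      · rw [a 26 (by decide)]; exact hc.2.2
    have h292 : m2 29 0 = p := by rw [a 29 (by decide)]; exact h29
    have a3 : Agree [26, 27, 28, 34, 35, 44, 45] m2 (exec (oracle M₁ M₂) classify m2) :=
      (exec_agree _ _ _).mono (by decide)
    rw [ex_det _ classify (by decide)]
    refine hφ _ _ ⟨hP2.agree a3 (by decide), ?_,
      classify_spec M₁ M₂ L p hp c σ m2 hP2 hσ2 hc2 h292, ?_⟩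
      ((a.mono (by decide)).trans (a3.mono (by decide)))
    · intro y; rw [a3 21 (by decide)]; exact hw2 y
    · rw [a3 29 (by decide)]; exact h292

def wStage : List ℕ := wSample ++ [5, 6, 21, 46]

theorem stage_impl (M₁ M₂ : Matroid (Fin n)) (h₂ : M₂.E = Set.univ) (L p : ℕ) (hp : p < n) :
    Impl (oracle M₁ M₂) wStage stage
      (fun s m => Par M₂ L m ∧ RSt s m ∧ m 29 0 = p)
      (fun s m => Par M₂ L m ∧ RSt s m ∧ m 29 0 = p) (stageOp M₁ M₂ L p) := by
  intro s m ⟨hP, hs, h29⟩ φ ψ hφ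
  have hl := Impl.loop (V 15) (pK L)
    (fun _ c m => Par M₂ L m ∧ RW s.w m ∧ RC c m ∧ m 29 0 = p)
    (by intro a m h; exact h.1.r15) (fun _ _ => sample_impl M₁ M₂ h₂ L p hp s.w)
  simp only [stage, ex]
  rw [ex_det _ clearC (by decide)]
  have a1 : Agree [26, 27, 28, 35] m (exec (oracle M₁ M₂) clearC m) :=
    (exec_agree _ _ _).mono (by decide)
  refine hl ⟨0, 0, fun _ => 0⟩ _ ⟨hP.agree a1 (by decide), ?_, clearC_spec _ m hP.r0, ?_⟩ _ _ ?_
  · intro y; rw [a1 21 (by decide)]; exact hs.1 y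
  · rw [a1 29 (by decide)]; exact h29
  · intro c m2 ⟨hP2, hw2, hc2, h292⟩ a2
    have a : Agree wSample m m2 := (a1.mono (by decide)).trans a2
    have hs2 : RSt s m2 := by
      refine ⟨hw2, ?_, ?_⟩
      · rw [a 5 (by decide)]; exact hs.2.1
      · rw [a 6 (by decide)]; exact hs.2.2
    have a3 : Agree [5, 6, 21, 34, 35, 40, 46] m2 (exec (oracle M₁ M₂) updateP m2) :=
      (exec_agree _ _ _).mono (by decide)
    rw [ex_det _ updateP (by decide)]
    refine hφ _ _ ⟨hP2.agree a3 (by decide),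
      updateP_spec M₁ M₂ L p hp s c m2 hP2 hs2 hc2 h292, ?_⟩
      ((a.mono (by decide)).trans (a3.mono (by decide)))
    rw [a3 29 (by decide)]; exact h292

def wOuter : List ℕ := wStage ++ [29]

theorem outer_impl (M₁ M₂ : Matroid (Fin n)) (h₂ : M₂.E = Set.univ) (L i : ℕ) (hi : i < n) :
    Impl (oracle M₁ M₂) wOuter outer
      (fun (x : St n × ℕ) m => Par M₂ L m ∧ RSt x.1 m ∧ m 29 0 = x.2 ∧ x.2 = i)
      (fun (x : St n × ℕ) m => Par M₂ L m ∧ RSt x.1 m ∧ m 29 0 = x.2 ∧ x.2 = i + 1)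
      (outerOp M₁ M₂ L) := by
  intro x m ⟨hP, hs, h29, hx⟩ φ ψ hφ
  have hl := Impl.loop (V 12) (2 * pB L) (fun _ s m => Par M₂ L m ∧ RSt s m ∧ m 29 0 = x.2)
    (by intro a m h; exact h.1.r12) (fun _ _ => stage_impl M₁ M₂ h₂ L x.2 (by omega))
  simp only [outer, ex]
  refine hl x.1 m ⟨hP, hs, h29⟩ _ _ ?_
  intro s m2 ⟨hP2, hs2, h292⟩ a2
  have a3 : Agree [29] m2 (exec (oracle M₁ M₂) (inc 29) m2) :=
    (exec_agree _ _ _).mono (by decide)
  rw [ex_det _ (inc 29) (by decide)]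
  refine hφ (s, x.2 + 1) _ ⟨hP2.agree a3 (by decide), ⟨?_, ?_, ?_⟩, ?_, by simp [hx]⟩
    ((a2.mono (by decide)).trans (a3.mono (by decide)))
  · intro y; rw [a3 21 (by decide)]; exact hs2.1 y
  · rw [a3 5 (by decide)]; exact hs2.2.1
  · rw [a3 6 (by decide)]; exact hs2.2.2
  · simp [exec, inc, asg, V, Expr.val, h292]

open Classical in
theorem phase2_ex (M₁ M₂ : Matroid (Fin n)) (h₂ : M₂.E = Set.univ) (L : ℕ) (m : Mem)
    (hP : Par0 n L m) (h24 : ∀ i, m 24 i = 0) (N : ℕ) (ε : ℚ) :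
    ex (oracle M₁ M₂) phase2 (fun m => if Accurate N ε m then 1 else 0) m =
      (outerOp M₁ M₂ L)^[n] (fun x => if AccSt N ε x.1 then 1 else 0) (st0 n L, 0) := by
  have hl := Impl.loop (V 0) n
    (fun i (x : St n × ℕ) m => Par M₂ L m ∧ RSt x.1 m ∧ m 29 0 = x.2 ∧ x.2 = i)
    (by intro a m h; exact h.1.r0) (fun i hi => outer_impl M₁ M₂ h₂ L i hi)
  obtain ⟨i1, i2, i3⟩ := initP_spec M₁ M₂ h₂ L m hP h24
  simp only [phase2, ex]
  rw [ex_det _ initP (by decide)]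
  refine hl (st0 n L, 0) _ ⟨i1, i2, i3, rfl⟩ _ _ ?_
  intro x m2 ⟨_, hs2, _, _⟩ _
  rw [ex_det _ finish (by decide)]
  have e5 : exec (oracle M₁ M₂) finish m2 5 0 = outNum x.1 := by
    have a5 := hs2.2.1
    have a6 := hs2.2.2
    unfold finish outNum
    by_cases h : x.1.num + x.1.num < x.1.den
    · rw [exec_ite_ne _ _ _ (by simp only [ltE, V, Expr.val]; omega), if_pos h]
      simp [asg, exec, Expr.val]
    · rw [exec_ite_zero _ _ _ (by simp only [ltE, V, Expr.val]; omega), if_neg h,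
        exec_frame _ _ _ _ (by decide)]
      exact a5
  have e6 : exec (oracle M₁ M₂) finish m2 6 0 = x.1.den := by
    rw [exec_frame _ _ _ _ (by decide)]; exact hs2.2.2
  have : Accurate N ε (exec (oracle M₁ M₂) finish m2) ↔ AccSt N ε x.1 := by
    simp only [Accurate, AccSt, e5, e6]
  exact if_congr this rfl rfl

end Vale.Agent.P317
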