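import Vale.Agent.P317.MatBridge
import Vale.Agent.P317.Poincare
import Vale.Agent.P317.Chain

/-! P317: accuracy of one sample; Markov property of the abstract operators. -/

namespace Vale.Agent.P317
open Finset

variable {n : ℕ}

theorem pθ_nonneg (L : ℕ) : 0 ≤ pθ L := by unfold pθ; positivity

theorem pθ_moves (L : ℕ) (hL : n ≤ 2 ^ L) :
    pθ L * ((Fintype.card (Fin n) : ℝ) ^ 2 * Fintype.card (XX n)) ≤ 1 / 2 := by
  have h : (n : ℝ) ≤ 2 ^ L := by exact_mod_cast hL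
  have h3 : (n : ℝ) ^ 3 ≤ ((2 : ℝ) ^ L) ^ 3 := by gcongr
  simp only [Fintype.card_fin, Fintype.card_prod, pθ]
  push_cast
  rw [div_mul_eq_mul_div, div_le_iff₀ (by positivity)]
  have : (0 : ℝ) ≤ ((2 : ℝ) ^ L) ^ 3 := by positivity
  nlinarith

theorem accM_nonneg (M₁ M₂ : Matroid (Fin n)) (L : ℕ) (w : XX n → ℕ) (σ σ' : Fin n → XX n) :
    0 ≤ accM M₁ M₂ L w σ σ' := by
  unfold accM; split_ifs <;> positivity

theorem accM_le_one (M₁ M₂ : Matroid (Fin n)) (L : ℕ) (w : XX n → ℕ) (σ σ' : Fin n → XX n) :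
    accM M₁ M₂ L w σ σ' ≤ 1 := by
  unfold accM; split_ifs
  · rw [div_le_one (by positivity)]
    exact pow_le_pow_right₀ (by norm_num) (Nat.sub_le _ _)
  · norm_num

theorem markov_step (M₁ M₂ : Matroid (Fin n)) (L : ℕ) (hL : n ≤ 2 ^ L) (w : XX n → ℕ) :
    Markov (stepG (pθ L) (accM M₁ M₂ L w)) :=
  markov_stepG _ _ (pθ_nonneg L) (pθ_moves L hL) (accM_nonneg M₁ M₂ L w) (accM_le_one M₁ M₂ L w)

theorem Kx_le (L : ℕ) (hL : n + 2048 ≤ 2 ^ L) (w : XX n → ℕ) (hw : ∀ y, w y ≤ 13 * (2 ^ L) ^ 2)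
    (σ : Fin n → XX n) : Kx L w σ ≤ pD L := by
  have h1 : L < 2 ^ L := Nat.lt_two_pow_self
  unfold Kx pD pH
  generalize 2 ^ L = P at *
  have h2 : ∀ j ∈ (univ : Finset (Fin n)),
      (w (σ j) + if (σ j).2 = j then 3 * L else 0) ≤ 16 * P ^ 2 := by
    intro j _
    have := hw (σ j)
    have : P ≤ P ^ 2 := by nlinarith
    split_ifs <;> omega
  refine (sum_le_card_nsmul _ _ _ h2).trans ?_
  simp only [card_univ, Fintype.card_fin, smul_eq_mul]
  calc n * (16 * P ^ 2) ≤ P * (P * P ^ 2) := Nat.mul_le_mul (by omega) (Nat.mul_le_mul_right _ (by omega))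
    _ = P ^ 4 := by ring

theorem WM_nonneg (M₁ M₂ : Matroid (Fin n)) (h₁ : M₁.E = Set.univ) (h₂ : M₂.E = Set.univ)
    (L : ℕ) (w : XX n → ℕ) (σ : Fin n → XX n) : 0 ≤ WM M₁ M₂ L w σ := by
  rw [WM_eq M₁ M₂ h₁ h₂]; split_ifs <;> positivity

theorem WM_sig0 (M₁ M₂ : Matroid (Fin n)) (h₁ : M₁.E = Set.univ) (h₂ : M₂.E = Set.univ)
    (L : ℕ) (w : XX n → ℕ) : 1 ≤ WM M₁ M₂ L w (sig0 n) := by
  rw [WM_eq M₁ M₂ h₁ h₂, if_pos (valid_sig0 M₁ M₂)]
  exact one_le_pow₀ (by norm_num)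

theorem WM_sum_pos (M₁ M₂ : Matroid (Fin n)) (h₁ : M₁.E = Set.univ) (h₂ : M₂.E = Set.univ)
    (L : ℕ) (w : XX n → ℕ) : 0 < ∑ σ, WM M₁ M₂ L w σ :=
  sum_pos' (fun σ _ => WM_nonneg M₁ M₂ h₁ h₂ L w σ)
    ⟨sig0 n, mem_univ _, lt_of_lt_of_le one_pos (WM_sig0 M₁ M₂ h₁ h₂ L w)⟩

theorem bias_num (P Z : ℝ) (T : ℕ) (hP : 2048 ≤ P) (hT : (T : ℝ) = P ^ 21)
    (hZ : Z ≤ Real.exp (3 * P ^ 2) * Real.exp (P ^ 4)) (hZ0 : 0 ≤ Z) :
    (1 - 1 / (8 * P ^ 3) / (2 * P ^ 11)) ^ T * Z ≤ (1 / (2 * P ^ 5)) ^ 2 := by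
  have hP0 : 0 < P := by linarith
  have hP1 : 1 ≤ P := by linarith
  have e : 1 / (8 * P ^ 3) / (2 * P ^ 11) = 1 / (16 * P ^ 14) := by field_simp; ring
  rw [e]
  have h14 : 1 ≤ P ^ 14 := one_le_pow₀ hP1
  have x1 : 1 / (16 * P ^ 14) ≤ 1 := by rw [div_le_one (by positivity)]; linarith
  have h1 : (1 - 1 / (16 * P ^ 14)) ^ T ≤ Real.exp (-(P ^ 7 / 16)) := by
    calc (1 - 1 / (16 * P ^ 14)) ^ T ≤ (Real.exp (-(1 / (16 * P ^ 14)))) ^ T := by
          refine pow_le_pow_left₀ (by linarith) ?_ _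
          have := Real.add_one_le_exp (-(1 / (16 * P ^ 14))); linarith
      _ = Real.exp (-(P ^ 7 / 16)) := by
          rw [← Real.exp_nat_mul, hT]; congr 1; field_simp
  have h2 : (1 - 1 / (16 * P ^ 14)) ^ T * Z ≤
      Real.exp (-(P ^ 7 / 16)) * (Real.exp (3 * P ^ 2) * Real.exp (P ^ 4)) :=
    mul_le_mul h1 hZ hZ0 (Real.exp_pos _).le
  refine h2.trans ?_
  rw [← Real.exp_add, ← Real.exp_add]
  have h3 : -(P ^ 7 / 16) + (3 * P ^ 2 + P ^ 4) ≤ -(12 * P) := by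
    have a1 : P ≤ P ^ 4 := le_self_pow₀ hP1 (by norm_num)
    have a2 : P ^ 2 ≤ P ^ 4 := pow_le_pow_right₀ hP1 (by norm_num)
    have a3 : P ≤ P ^ 3 := le_self_pow₀ hP1 (by norm_num)
    have a4 : 2048 * P ^ 4 ≤ P ^ 7 := by
      have : P ^ 7 = P ^ 3 * P ^ 4 := by ring
      rw [this]; gcongr; linarith
    have : 0 ≤ P ^ 4 := by positivity
    linarith
  refine (Real.exp_le_exp.2 h3).trans ?_
  have h4 : 2 * P ^ 5 ≤ Real.exp (6 * P) := by
    have b1 : P ≤ Real.exp P := by have := Real.add_one_le_exp P; linarith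
    have b2 : Real.exp (6 * P) = Real.exp P * Real.exp P ^ 5 := by
      rw [← pow_succ', ← Real.exp_nat_mul]; norm_num
    rw [b2]; gcongr; linarith
  have h5 : Real.exp (-(12 * P)) = (1 / Real.exp (6 * P)) ^ 2 := by
    rw [one_div, ← Real.exp_neg, ← Real.exp_nat_mul]; congr 1; push_cast; ring
  rw [h5]
  gcongr

/-- After `pT L` steps the bias of any test function with values in `[0,1]` is tiny. -/
theorem sample_bias (M₁ M₂ : Matroid (Fin n)) (h₁ : M₁.E = Set.univ) (h₂ : M₂.E = Set.univ)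
    (L : ℕ) (hL : n + 2048 ≤ 2 ^ L) (w : XX n → ℕ) (hw : ∀ y, w y ≤ 13 * (2 ^ L) ^ 2)
    (f : (Fin n → XX n) → ℝ) (hf0 : ∀ σ, 0 ≤ f σ) (hf1 : ∀ σ, f σ ≤ 1) :
    |(stepG (pθ L) (accM M₁ M₂ L w))^[pT L] f (sig0 n) -
        (∑ σ, WM M₁ M₂ L w σ * f σ) / (∑ σ, WM M₁ M₂ L w σ)| ≤ 1 / (2 * ((2 : ℝ) ^ L) ^ 5) := by
  classical
  have hLr : (n : ℝ) + 2048 ≤ 2 ^ L := by exact_mod_cast hL
  have hn0 : (0 : ℝ) ≤ n := Nat.cast_nonneg _
  have hW := WM_nonneg M₁ M₂ h₁ h₂ L w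
  have hK := Kx_le L hL w hw
  have hP1 : (1 : ℝ) ≤ 2 ^ L := by linarith
  have hH : (2 : ℝ) ^ pH L = ((2 : ℝ) ^ L) ^ 3 := by unfold pH; rw [← pow_mul, mul_comm]
  have hmix := mixing (pθ L) (accM M₁ M₂ L w) (pθ_nonneg L)
    (by
      unfold pθ
      rw [div_le_one (by positivity)]
      have : (1 : ℝ) ≤ ((2 : ℝ) ^ L) ^ 3 := one_le_pow₀ hP1
      linarith)
    (pθ_moves L (by omega)) (accM_nonneg M₁ M₂ L w) (accM_le_one M₁ M₂ L w) (WM M₁ M₂ L w) hW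
    (by
      intro σ σ'
      rw [WM_eq M₁ M₂ h₁ h₂, WM_eq M₁ M₂ h₁ h₂]
      unfold accM
      by_cases a : Valid M₁ M₂ σ <;> by_cases b : Valid M₁ M₂ σ'
      · simp only [a, b, if_true]
        have k1 := hK σ
        have k2 := hK σ'
        generalize Kx L w σ = x at *
        generalize Kx L w σ' = y at *
        generalize pD L = D at *
        rw [mul_div_assoc', div_eq_iff (by positivity), ← pow_add]
        rcases le_total x y with h | h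
        · rw [min_eq_left (pow_le_pow_right₀ (by norm_num) h), ← pow_add]
          congr 1; omega
        · rw [min_eq_right (pow_le_pow_right₀ (by norm_num) h), ← pow_add]
          congr 1; omega
      · simp [a, b]
      · simp [a, b]
      · simp [a, b])
    (((2 : ℝ) ^ L) ^ 11) (one_le_pow₀ hP1)
    (by
      intro f
      have h := poincare_gq (rankFn_rhoM M₁ M₂) (vM L w) ((2 : ℝ) ^ pH L)
        (one_le_pow₀ (by norm_num)) (by intro i y; unfold vM; split_ifs <;> positivity)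
        (by
          intro i j y
          unfold vM
          have a : (1 : ℝ) ≤ 2 ^ pH L := one_le_pow₀ (by norm_num)
          have b : (0 : ℝ) < 2 ^ w y := by positivity
          split_ifs <;> nlinarith [mul_le_mul_of_nonneg_left a b.le,
            mul_le_mul_of_nonneg_left a (mul_pos b (lt_of_lt_of_le one_pos a)).le]) f
      refine h.trans ?_
      refine mul_le_mul_of_nonneg_right (mul_le_mul_of_nonneg_right ?_
        (sum_nonneg fun σ _ => hW σ)) (Po.dirF_nonneg hW f)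
      simp only [Fintype.card_fin, Fintype.card_prod]
      push_cast
      rw [hH]
      generalize (2 : ℝ) ^ L = P at *
      calc ((n : ℝ) + 1) ^ 3 * (3 * n) * (P ^ 3) ^ 2 ≤ P ^ 3 * (P * P) * (P ^ 3) ^ 2 := by
            gcongr <;> linarith
        _ = P ^ 11 := by ring)
    (sig0 n) (lt_of_lt_of_le one_pos (WM_sig0 M₁ M₂ h₁ h₂ L w)) f hf0 hf1 (pT L)
  refine abs_le_of_sq_le_sq (hmix.trans ?_) (by positivity)
  unfold pθ
  refine bias_num _ _ _ (by linarith) (by unfold pT; push_cast; rfl) ?_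
    (div_nonneg (sum_nonneg fun σ _ => hW σ) (hW _))
  refine (div_le_self (sum_nonneg fun σ _ => hW σ) (WM_sig0 M₁ M₂ h₁ h₂ L w)).trans ?_
  have b1 : ∀ σ ∈ (univ : Finset (Fin n → XX n)),
      WM M₁ M₂ L w σ ≤ Real.exp (((2 : ℝ) ^ L) ^ 4) := by
    intro σ _
    have e2 : (2 : ℝ) ≤ Real.exp 1 := by have := Real.add_one_le_exp 1; linarith
    have : (2 : ℝ) ^ pD L ≤ Real.exp (((2 : ℝ) ^ L) ^ 4) := by
      calc (2 : ℝ) ^ pD L ≤ Real.exp 1 ^ pD L := by gcongr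
        _ = _ := by rw [← Real.exp_nat_mul]; unfold pD; push_cast; rw [mul_one]
    rw [WM_eq M₁ M₂ h₁ h₂]
    split_ifs
    · exact (pow_le_pow_right₀ (by norm_num) (hK σ)).trans this
    · positivity
  refine (sum_le_card_nsmul _ _ _ b1).trans ?_
  simp only [card_univ, Fintype.card_fun, Fintype.card_fin, Fintype.card_prod, nsmul_eq_mul]
  refine mul_le_mul_of_nonneg_right ?_ (Real.exp_pos _).le
  push_cast
  calc (3 * (n : ℝ)) ^ n ≤ Real.exp (3 * n) ^ n := by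
        gcongr
        have := Real.add_one_le_exp (3 * (n : ℝ)); linarith
    _ = Real.exp (n * (3 * n)) := by rw [← Real.exp_nat_mul]
    _ ≤ _ := Real.exp_le_exp.2 (by nlinarith)

theorem markov_sampleOp (M₁ M₂ : Matroid (Fin n)) (L p : ℕ) (hL : n ≤ 2 ^ L) (w : XX n → ℕ) :
    Markov (sampleOp M₁ M₂ L p w) :=
  Markov.bind (T := fun (_ : Cnt n) f => (stepG (pθ L) (accM M₁ M₂ L w))^[pT L] f)
    (fun _ => (markov_step M₁ M₂ L hL w).iterate _) (fun _ => sig0 n) (fun c σ => count p c σ)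

theorem markov_stageOp (M₁ M₂ : Matroid (Fin n)) (L p : ℕ) (hL : n ≤ 2 ^ L) :
    Markov (stageOp M₁ M₂ L p) :=
  Markov.bind (T := fun (s : St n) f => (sampleOp M₁ M₂ L p s.w)^[pK L] f)
    (fun s => (markov_sampleOp M₁ M₂ L p hL s.w).iterate _) (fun _ => ⟨0, 0, fun _ => 0⟩)
    (fun s c => updSt L p s c)

theorem markov_outerOp (M₁ M₂ : Matroid (Fin n)) (L : ℕ) (hL : n ≤ 2 ^ L) :
    Markov (outerOp M₁ M₂ L) :=
  Markov.bind (T := fun (x : St n × ℕ) f => (stageOp M₁ M₂ L x.2)^[2 * pB L] f)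
    (fun x => (markov_stageOp M₁ M₂ L x.2 hL).iterate _) (fun x => x.1)
    (fun x s => (s, x.2 + 1))

end Vale.Agent.P317
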