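import Vale.Agent.P317.Stage1

/-! P317: the deterministic part of one annealing stage. -/

namespace Vale.Agent.P317
open Finset

variable {n : ℕ}

theorem offs_zero {σ : Fin n → XX n} : offs σ = 0 ↔ ∀ j, (σ j).2 = j := by
  simp [offs, filter_eq_empty_iff]

theorem offs_one {σ : Fin n → XX n} {j : Fin n} :
    (offs σ = 1 ∧ (σ j).2 ≠ j) ↔ ((σ j).2 ≠ j ∧ ∀ i, i ≠ j → (σ i).2 = i) := by
  unfold offs
  constructor
  · rintro ⟨h1, h2⟩
    refine ⟨h2, fun i hi => ?_⟩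
    by_contra hcon
    exact hi (card_le_one.1 h1.le i (by simpa using hcon) j (by simpa using h2))
  · rintro ⟨h1, h2⟩
    refine ⟨card_eq_one.2 ⟨j, ?_⟩, h1⟩
    ext i
    simp only [mem_filter, mem_univ, true_and, mem_singleton]
    exact ⟨fun h => by_contra fun hi => h (h2 i hi), fun h => h ▸ h1⟩

theorem class0 (M₁ M₂ : Matroid (Fin n)) (L : ℕ) (w : XX n → ℕ) (σ : Fin n → XX n) :
    (WM M₁ M₂ L w σ * if offs σ = 0 then 1 else 0) =
      ((2 : ℝ) ^ pH L) ^ n * wt (gM M₁ M₂) (dpart Prod.snd (fun y => (2 : ℝ) ^ w y)) σ := by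
  unfold WM wt
  by_cases h : offs σ = 0
  · rw [if_pos h, mul_one, ← mul_assoc]
    congr 1
    have h' := offs_zero.1 h
    simp only [vM, dpart, h', if_true, prod_mul_distrib, prod_const, card_univ, Fintype.card_fin]
    ring
  · rw [if_neg h]
    obtain ⟨j, hj⟩ := not_forall.1 (fun hh => h (offs_zero.2 hh))
    rw [prod_eq_zero (f := fun i => dpart Prod.snd (fun y => (2 : ℝ) ^ w y) i (σ i)) (mem_univ j)
      (by simp [dpart, hj])]
    simp

theorem class0_sum (M₁ M₂ : Matroid (Fin n)) (L : ℕ) (w : XX n → ℕ) :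
    (∑ σ, WM M₁ M₂ L w σ * if offs σ = 0 then 1 else 0) =
      ((2 : ℝ) ^ pH L) ^ n * Z0 M₁ M₂ w := by
  simp only [class0, ← mul_sum]; rfl

theorem classj_sum (M₁ M₂ : Matroid (Fin n)) (L : ℕ) (w : XX n → ℕ) (j : Fin n) :
    (2 : ℝ) ^ pH L * (∑ σ, WM M₁ M₂ L w σ * if offs σ = 1 ∧ (σ j).2 ≠ j then 1 else 0) =
      ((2 : ℝ) ^ pH L) ^ n * offM M₁ M₂ w j := by
  unfold offM offW VV
  rw [mul_sum, mul_sum]
  refine sum_congr rfl fun σ _ => ?_
  unfold WM wt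
  by_cases h : offs σ = 1 ∧ (σ j).2 ≠ j
  · rw [if_pos h, mul_one, ← mul_assoc, ← mul_assoc]
    congr 1
    obtain ⟨h1, h2⟩ := offs_one.1 h
    have e1 : ((2 : ℝ) ^ pH L) ^ n = ∏ _i : Fin n, (2 : ℝ) ^ pH L := by simp
    have e2 : (2 : ℝ) ^ pH L = ∏ i : Fin n, if i = j then (2 : ℝ) ^ pH L else 1 := by simp
    rw [e1, ← prod_mul_distrib]
    conv_lhs => rw [e2]
    rw [← prod_mul_distrib]
    refine prod_congr rfl fun i _ => ?_
    by_cases hi : i = j
    · subst hi; simp [vM, h1]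
    · simp [vM, dpart, hi, h2 i hi, mul_comm]
  · rw [if_neg h, mul_zero, mul_zero]
    rw [offs_one] at h
    by_cases h1 : (σ j).2 = j
    · rw [prod_eq_zero (mem_univ j) (by simp [h1])]; simp
    · have : ∃ i, i ≠ j ∧ (σ i).2 ≠ i := by
        by_contra hcon
        push Not at hcon
        exact h ⟨h1, hcon⟩
      obtain ⟨i, hi, hi'⟩ := this
      rw [prod_eq_zero (mem_univ i) (by simp [hi, dpart, hi'])]; simp

theorem half_sum (M₁ M₂ : Matroid (Fin n)) (L : ℕ) (w w' : XX n → ℕ) (p : ℕ) (hp : p < n)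
    (hw : ∀ y, w y = w' y + if y.1 = 2 ∧ y.2.val = p then 1 else 0) :
    2 * (((2 : ℝ) ^ pH L) ^ n * Z0 M₁ M₂ w') =
      (∑ σ, WM M₁ M₂ L w σ * if offs σ = 0 then 1 else 0) +
      ∑ σ, WM M₁ M₂ L w σ *
        if offs σ = 0 ∧ ∀ j : Fin n, j.val = p → (σ j).1 ≠ 2 then 1 else 0 := by
  rw [← class0_sum M₁ M₂ L w', mul_sum, ← sum_add_distrib]
  refine sum_congr rfl fun σ _ => ?_
  by_cases h : offs σ = 0
  · have h' := offs_zero.1 h
    simp only [h, if_true, true_and, mul_one]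
    have e : ∀ i, vM L w i (σ i) = vM L w' i (σ i) *
        if i = ⟨p, hp⟩ then (if (σ ⟨p, hp⟩).1 = 2 then 2 else 1) else 1 := by
      intro i
      unfold vM
      rw [hw, h' i]
      by_cases hi : i = ⟨p, hp⟩
      · subst hi
        by_cases h2 : (σ ⟨p, hp⟩).1 = 2 <;> simp [h2, pow_succ]; ring
      · have : i.val ≠ p := fun hh => hi (Fin.ext hh)
        simp [hi, this]
    unfold WM wt
    simp only [e, prod_mul_distrib, prod_ite_eq', mem_univ, if_true]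
    by_cases h2 : (σ ⟨p, hp⟩).1 = 2
    · rw [if_pos h2, if_neg (fun hh => hh ⟨p, hp⟩ rfl h2)]; ring
    · rw [if_neg h2, if_pos (fun j hj => by
        have : j = ⟨p, hp⟩ := Fin.ext hj
        rw [this]; exact h2)]
      ring
  · simp [h]

theorem Z0_gauge (M₁ M₂ : Matroid (Fin n)) (w a : XX n → ℕ) (t : Fin n → ℕ)
    (h : ∀ y, w y = t y.2 + a y) : Z0 M₁ M₂ w = (∏ j, (2 : ℝ) ^ t j) * Z0 M₁ M₂ a := by
  unfold Z0
  rw [← VV_dpart_gauge]
  congr 2
  funext y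
  rw [h, pow_add]

theorem total_le (M₁ M₂ : Matroid (Fin n)) (h₁ : M₁.E = Set.univ) (h₂ : M₂.E = Set.univ)
    (L : ℕ) (hL : n + 2048 ≤ 2 ^ L) (w : XX n → ℕ)
    (hb : ∀ j, offM M₁ M₂ w j ≤ 320 * (2 : ℝ) ^ L * Z0 M₁ M₂ w) :
    ∑ σ, WM M₁ M₂ L w σ ≤ 2 * (((2 : ℝ) ^ pH L) ^ n * Z0 M₁ M₂ w) := by
  have hLr : (n : ℝ) + 2048 ≤ 2 ^ L := by exact_mod_cast hL
  have hn0 : (0 : ℝ) ≤ n := Nat.cast_nonneg _
  have hH : (2 : ℝ) ^ pH L = ((2 : ℝ) ^ L) ^ 3 := by unfold pH; rw [← pow_mul, mul_comm]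
  have hZ := Z0_pos M₁ M₂ h₁ h₂ w
  have hd : ∀ i y, 0 ≤ dpart Prod.snd (fun y : XX n => (2 : ℝ) ^ w y) i y := by
    intro i y; unfold dpart; split_ifs <;> positivity
  have hs := slack_bound (gM_nonneg M₁ M₂) (rkt_gq (Fin n) (rankFn_rhoM M₁ M₂))
    (dpart Prod.snd (fun y => (2 : ℝ) ^ w y)) (fun y => (2 : ℝ) ^ w y) hd (fun y => by positivity)
    hZ (321 * (2 : ℝ) ^ L) (1 / (2 : ℝ) ^ pH L) (by positivity) (by positivity) ?_ ?_
  · have h1 : ∑ σ, WM M₁ M₂ L w σ ≤ VV (gM M₁ M₂) (fun j y => (2 : ℝ) ^ pH L *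
        (dpart Prod.snd (fun y => (2 : ℝ) ^ w y) j y + 1 / (2 : ℝ) ^ pH L * 2 ^ w y)) := by
      refine VV_mono (gM_nonneg M₁ M₂) (fun i y => by unfold vM; split_ifs <;> positivity) ?_
      intro i y
      have e : (2 : ℝ) ^ pH L * (1 / (2 : ℝ) ^ pH L * 2 ^ w y) = 2 ^ w y := by field_simp
      have : (0 : ℝ) < 2 ^ w y := by positivity
      unfold vM dpart
      rw [mul_add, e]
      split_ifs <;> linarith
    refine h1.trans ?_
    have h2 : VV (gM M₁ M₂) (fun j y => (2 : ℝ) ^ pH L *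
        (dpart Prod.snd (fun y => (2 : ℝ) ^ w y) j y + 1 / (2 : ℝ) ^ pH L * 2 ^ w y)) =
        ((2 : ℝ) ^ pH L) ^ n * VV (gM M₁ M₂) (fun j y =>
          (dpart Prod.snd (fun y => (2 : ℝ) ^ w y) j y + 1 / (2 : ℝ) ^ pH L * 2 ^ w y)) := by
      unfold VV wt
      simp only [prod_mul_distrib, prod_const, card_univ, Fintype.card_fin, mul_sum, mul_assoc]
    rw [h2]
    have := mul_le_mul_of_nonneg_left hs (show 0 ≤ ((2 : ℝ) ^ pH L) ^ n by positivity)
    unfold Z0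
    linarith
  · intro j
    have e : VV (gM M₁ M₂) (Function.update (dpart Prod.snd (fun y => (2 : ℝ) ^ w y)) j
        (fun y => (2 : ℝ) ^ w y)) = Z0 M₁ M₂ w + offM M₁ M₂ w j := by
      unfold Z0 offM offW VV wt
      rw [← sum_add_distrib]
      refine sum_congr rfl fun σ _ => ?_
      rw [← add_mul, Po.prod_split j, Po.prod_split j, Po.prod_split j]
      have hu : ∀ (a : XX n → ℝ) (x : {i // i ≠ j}),
          Function.update (dpart Prod.snd (fun y => (2 : ℝ) ^ w y)) j a x.1 =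
            dpart Prod.snd (fun y => (2 : ℝ) ^ w y) x.1 :=
        fun a x => Function.update_of_ne x.2 _ _
      simp only [Function.update_self, hu, dpart]
      split_ifs <;> ring
    rw [e]
    have := hb j
    have h1 : Z0 M₁ M₂ w ≤ (2 : ℝ) ^ L * Z0 M₁ M₂ w := le_mul_of_one_le_left hZ.le (by linarith)
    unfold Z0 at *
    linarith
  · rw [hH, Fintype.card_fin, mul_one_div, div_le_one (by positivity)]
    generalize (2 : ℝ) ^ L = P at *
    have : P ^ 3 = P * (P * P) := by ring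
    rw [this]
    have h1 : 4 * (n : ℝ) * (321 * P) ≤ 1284 * (P * P) := by nlinarith
    have h2 : 1284 * (P * P) ≤ P * (P * P) := by
      refine mul_le_mul_of_nonneg_right (by linarith) (by nlinarith)
    linarith

theorem ratio_num (P0 P1 x0 x1 α : ℝ) (h0 : 1 / 2 ≤ P0) (h1 : 0 ≤ P1) (hα : 0 ≤ α)
    (hα1 : α ≤ 1 / 100) (a0 : |x0 - P0| ≤ α) (a1 : |x1 - P1| ≤ α) :
    (1 - 10 * α) * (P0 + P1) * x0 ≤ (x0 + x1) * P0 ∧
      (x0 + x1) * P0 ≤ (1 + 10 * α) * (P0 + P1) * x0 := by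
  obtain ⟨b1, b2⟩ := abs_le.1 a0
  obtain ⟨b3, b4⟩ := abs_le.1 a1
  have s : 0 ≤ P0 + P1 := by linarith
  have k1 : α * (P0 + P1) ≤ 2 * (α * (P0 + P1) * P0) := by
    have := mul_le_mul_of_nonneg_left h0 (mul_nonneg hα s); linarith
  have k2 : α * P0 ≤ α * (P0 + P1) := mul_le_mul_of_nonneg_left (by linarith) hα
  have k3 : α * (α * (P0 + P1)) ≤ 1 / 100 * (α * (P0 + P1)) :=
    mul_le_mul_of_nonneg_right hα1 (mul_nonneg hα s)
  have k4 : 0 ≤ α * (α * (P0 + P1)) := mul_nonneg hα (mul_nonneg hα s)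
  have k5 : 0 ≤ α * (P0 + P1) := mul_nonneg hα s
  constructor
  · have c1 : (1 - 10 * α) * (P0 + P1) * x0 ≤ (1 - 10 * α) * (P0 + P1) * (P0 + α) :=
      mul_le_mul_of_nonneg_left (by linarith) (mul_nonneg (by linarith) s)
    have c2 : (P0 + P1 - 2 * α) * P0 ≤ (x0 + x1) * P0 :=
      mul_le_mul_of_nonneg_right (by linarith) (by linarith)
    nlinarith
  · have c1 : (1 + 10 * α) * (P0 + P1) * (P0 - α) ≤ (1 + 10 * α) * (P0 + P1) * x0 :=
      mul_le_mul_of_nonneg_left (by linarith) (mul_nonneg (by linarith) s)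
    have c2 : (x0 + x1) * P0 ≤ (P0 + P1 + 2 * α) * P0 :=
      mul_le_mul_of_nonneg_right (by linarith) (by linarith)
    nlinarith

theorem act_succ (L p u : ℕ) (hu : u < 2 * pB L) (y : XX n) :
    act L p u y = act L p (u + 1) y + if y.1 = 2 ∧ y.2.val = p then 1 else 0 := by
  unfold act
  by_cases h1 : y.1 = 2
  · by_cases h2 : y.2.val = p
    · simp only [h1, h2, if_true, lt_self_iff_false, if_false, and_self]; omega
    · simp [h1, h2]
  · simp [h1]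

end Vale.Agent.P317
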